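import Vale.Agent.P340.Classify

/-!
# Two-level specifications: inner steps terminate
-/

namespace Vale.Agent.P340

open Tm

universe u

variable {U : Type u}

/-- Steps allowed in a component (an argument or a domain): any reduction step if the component is
pure, an inner step otherwise. -/
def CStep (q : U → Bool) (ℓ : List Bool) (N N' : Tm U) : Prop :=
  (isP q ℓ N = true ∧ Beta N N') ∨ (isP q ℓ N = false ∧ Inner q ℓ N N')

theorem CStep.isP_eq {q : U → Bool} {ℓ : List Bool} {N N' : Tm U} (h : CStep q ℓ N N') :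
    isP q ℓ N' = isP q ℓ N := by
  rcases h with ⟨h1, h2⟩ | ⟨_, h2⟩
  · rw [h1]
    exact isP_beta h2 ℓ h1
  · exact h2.isP_eq

theorem acc_cstep_of_pure {q : U → Bool} {ℓ : List Bool} {N : Tm U} (hN : SNt N) :
    isP q ℓ N = true → Acc (fun a b : Tm U => CStep q ℓ b a) N := by
  induction hN with
  | intro N _ ih =>
    intro hp
    refine Acc.intro _ (fun N' h => ?_)
    rcases h with ⟨_, h2⟩ | ⟨h1, _⟩
    · exact ih N' h2 (isP_beta h2 ℓ hp)
    · rw [hp] at h1
      cases h1

theorem acc_cstep_of_not_pure {q : U → Bool} {ℓ : List Bool} {N : Tm U}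
    (hN : Acc (fun a b : Tm U => Inner q ℓ b a) N) :
    isP q ℓ N = false → Acc (fun a b : Tm U => CStep q ℓ b a) N := by
  induction hN with
  | intro N _ ih =>
    intro hp
    refine Acc.intro _ (fun N' h => ?_)
    rcases h with ⟨h1, _⟩ | ⟨_, h2⟩
    · rw [hp] at h1
      cases h1
    · exact ih N' h2 (by rw [h2.isP_eq]; exact hp)

theorem acc_inner_app {q : U → Bool} {ℓ : List Bool} {M N : Tm U}
    (hM : Acc (fun a b : Tm U => Inner q ℓ b a) M)
    (hN : Acc (fun a b : Tm U => CStep q ℓ b a) N) :
    Acc (fun a b : Tm U => Inner q ℓ b a) (Tm.app M N) := by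
  induction hM generalizing N with
  | intro M hM' ihM =>
    induction hN with
    | intro N hN' ihN =>
      refine Acc.intro _ (fun X hX => ?_)
      cases hX with
      | appL _ h => exact ihM _ h (Acc.intro N hN')
      | appRP _ hp h => exact ihN _ (Or.inl ⟨hp, h⟩)
      | appRQ _ hp h => exact ihN _ (Or.inr ⟨hp, h⟩)

theorem acc_inner_lam {q : U → Bool} {ℓ : List Bool} {A : Tm U}
    (hA : Acc (fun a b : Tm U => CStep q ℓ b a) A) :
    ∀ {M : Tm U}, Acc (fun a b : Tm U => Inner q ((!isP q ℓ A) :: ℓ) b a) M →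
      Acc (fun a b : Tm U => Inner q ℓ b a) (Tm.lam A M) := by
  induction hA with
  | intro A hA' ihA =>
    intro M hM
    induction hM with
    | intro M hM' ihM =>
      refine Acc.intro _ (fun X hX => ?_)
      cases hX with
      | lamDP _ hp h =>
        have hc : CStep q ℓ A _ := Or.inl ⟨hp, h⟩
        apply ihA _ hc
        rw [hc.isP_eq]
        exact Acc.intro M hM'
      | lamDQ _ hp h =>
        have hc : CStep q ℓ A _ := Or.inr ⟨hp, h⟩
        apply ihA _ hc
        rw [hc.isP_eq]
        exact Acc.intro M hM'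
      | lamB _ h => exact ihM _ h

theorem acc_inner_pi {q : U → Bool} {ℓ : List Bool} {A : Tm U}
    (hA : Acc (fun a b : Tm U => CStep q ℓ b a) A) :
    ∀ {M : Tm U}, Acc (fun a b : Tm U => Inner q ((!isP q ℓ A) :: ℓ) b a) M →
      Acc (fun a b : Tm U => Inner q ℓ b a) (Tm.pi A M) := by
  induction hA with
  | intro A hA' ihA =>
    intro M hM
    induction hM with
    | intro M hM' ihM =>
      refine Acc.intro _ (fun X hX => ?_)
      cases hX with
      | piDP _ hp h =>
        have hc : CStep q ℓ A _ := Or.inl ⟨hp, h⟩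
        apply ihA _ hc
        rw [hc.isP_eq]
        exact Acc.intro M hM'
      | piDQ _ hp h =>
        have hc : CStep q ℓ A _ := Or.inr ⟨hp, h⟩
        apply ihA _ hc
        rw [hc.isP_eq]
        exact Acc.intro M hM'
      | piB _ h => exact ihM _ h

/-- If the typable pure terms are strongly normalizing, then on every typable term the relation of
inner steps is well founded. -/
theorem acc_inner {R : Spec U} {q : U → Bool}
    (hP : ∀ (Γ : List (Tm U)) (M T : Tm U), Typing R Γ M T → isP q (labels q Γ) M = true → SNt M)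
    (M : Tm U) : ∀ {Γ : List (Tm U)} {T : Tm U}, Typing R Γ M T →
      Acc (fun a b : Tm U => Inner q (labels q Γ) b a) M := by
  have comp : ∀ (N : Tm U) (Γ : List (Tm U)) (T : Tm U), Typing R Γ N T →
      Acc (fun a b : Tm U => Inner q (labels q Γ) b a) N →
      Acc (fun a b : Tm U => CStep q (labels q Γ) b a) N := by
    intro N Γ T hN hacc
    cases hp : isP q (labels q Γ) N with
    | true => exact acc_cstep_of_pure (hP Γ N T hN hp) hp
    | false => exact acc_cstep_of_not_pure hacc hp
  induction M with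
  | var i =>
    intro Γ T _
    exact Acc.intro _ (by intro y hy; cases hy)
  | sort s =>
    intro Γ T _
    exact Acc.intro _ (by intro y hy; cases hy)
  | app M N ihM ihN =>
    intro Γ T h
    obtain ⟨A, B, hM, hN, _⟩ := h.gen_app
    exact acc_inner_app (ihM hM) (comp N Γ A hN (ihN hN))
  | lam A M ihA ihM =>
    intro Γ T h
    obtain ⟨B, s, hM, hpi, _⟩ := h.gen_lam
    obtain ⟨s₁, s₂, s₃, _, hA, _, _⟩ := hpi.gen_pi
    exact acc_inner_lam (comp A Γ _ hA (ihA hA)) (ihM hM)
  | pi A B ihA ihB =>
    intro Γ T h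
    obtain ⟨s₁, s₂, s₃, _, hA, hB, _⟩ := h.gen_pi
    exact acc_inner_pi (comp A Γ _ hA (ihA hA)) (ihB hB)

end Vale.Agent.P340
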