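import Vale.Agent.P340.Level

/-!
# Accessibility and infinite reduction sequences
-/

namespace Vale.Agent.P340

open Tm

universe u

variable {U : Type u}

lemma not_hasInfRed_of_SNt {M : Tm U} (h : SNt M) : ¬ HasInfRed M := by
  unfold SNt at h
  induction h with
  | intro x _ ih =>
    rintro ⟨f, hf0, hf⟩
    apply ih (f 1)
    · have := hf 0
      rw [hf0] at this
      exact this
    · exact ⟨fun n => f (n + 1), rfl, fun n => hf (n + 1)⟩

lemma exists_step_of_not_SNt {x : Tm U} (h : ¬ SNt x) : ∃ y, Beta x y ∧ ¬ SNt y := by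
  by_contra hcon
  apply h
  refine Acc.intro x (fun y hy => ?_)
  by_contra hy'
  exact hcon ⟨y, hy, hy'⟩

/-- A term is accessible for the converse of beta reduction iff it starts no infinite reduction
sequence. -/
theorem SNt_iff_not_hasInfRed (M : Tm U) : SNt M ↔ ¬ HasInfRed M := by
  constructor
  · exact not_hasInfRed_of_SNt
  · intro h
    by_contra hM
    apply h
    let nxt : {x : Tm U // ¬ SNt x} → {x : Tm U // ¬ SNt x} := fun x =>
      ⟨Classical.choose (exists_step_of_not_SNt x.2),
        (Classical.choose_spec (exists_step_of_not_SNt x.2)).2⟩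
    have hnxt : ∀ x : {x : Tm U // ¬ SNt x}, Beta x.1 (nxt x).1 := fun x =>
      (Classical.choose_spec (exists_step_of_not_SNt x.2)).1
    refine ⟨fun n => (nxt^[n] ⟨M, hM⟩).1, rfl, fun n => ?_⟩
    beta_reduce
    rw [Function.iterate_succ_apply']
    exact hnxt _

end Vale.Agent.P340
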