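import Vale.Agent.P340.Red

/-!
# The Church-Rosser theorem for beta reduction on pseudo-terms, and its corollaries
-/

namespace Vale.Agent.P340

open Tm

universe u

variable {S : Type u}

/-- Parallel reduction. -/
inductive Par {S : Type u} : Tm S → Tm S → Prop
  | var (i : ℕ) : Par (Tm.var i) (Tm.var i)
  | sort (s : S) : Par (Tm.sort s) (Tm.sort s)
  | app {M M' N N' : Tm S} : Par M M' → Par N N' → Par (Tm.app M N) (Tm.app M' N')
  | lam {A A' M M' : Tm S} : Par A A' → Par M M' → Par (Tm.lam A M) (Tm.lam A' M')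
  | pi {A A' B B' : Tm S} : Par A A' → Par B B' → Par (Tm.pi A B) (Tm.pi A' B')
  | beta (A : Tm S) {M M' N N' : Tm S} : Par M M' → Par N N' →
      Par (Tm.app (Tm.lam A M) N) (Tm.subst 0 N' M')

theorem Par.refl (M : Tm S) : Par M M := by
  induction M with
  | var i => exact Par.var i
  | sort s => exact Par.sort s
  | app M N ihM ihN => exact Par.app ihM ihN
  | lam A M ihA ihM => exact Par.lam ihA ihM
  | pi A B ihA ihB => exact Par.pi ihA ihB

theorem Par.of_beta {M N : Tm S} (h : Beta M N) : Par M N := by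
  induction h with
  | beta A M N => exact Par.beta A (Par.refl M) (Par.refl N)
  | appL N _ ih => exact Par.app ih (Par.refl N)
  | appR M _ ih => exact Par.app (Par.refl M) ih
  | lamD M _ ih => exact Par.lam ih (Par.refl M)
  | lamB A _ ih => exact Par.lam (Par.refl A) ih
  | piD B _ ih => exact Par.pi ih (Par.refl B)
  | piB A _ ih => exact Par.pi (Par.refl A) ih

theorem Par.red {M N : Tm S} (h : Par M N) : Red M N := by
  induction h with
  | var i => exact Relation.ReflTransGen.refl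
  | sort s => exact Relation.ReflTransGen.refl
  | app _ _ ih1 ih2 => exact Red.app ih1 ih2
  | lam _ _ ih1 ih2 => exact Red.lam ih1 ih2
  | pi _ _ ih1 ih2 => exact Red.pi ih1 ih2
  | beta A _ _ ih1 ih2 =>
    exact Relation.ReflTransGen.tail (Red.app (Red.lam Relation.ReflTransGen.refl ih1) ih2)
      (Beta.beta _ _ _)

theorem Par.lift {M M' : Tm S} (h : Par M M') : ∀ k, Par (Tm.lift k M) (Tm.lift k M') := by
  induction h with
  | var i => intro k; exact Par.refl _
  | sort s => intro k; exact Par.refl _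
  | app _ _ ih1 ih2 => intro k; exact Par.app (ih1 k) (ih2 k)
  | lam _ _ ih1 ih2 => intro k; exact Par.lam (ih1 k) (ih2 (k + 1))
  | pi _ _ ih1 ih2 => intro k; exact Par.pi (ih1 k) (ih2 (k + 1))
  | @beta A M M' N N' _ _ ih1 ih2 =>
    intro k
    rw [lift_subst_ge M' k 0 N' (Nat.zero_le k)]
    exact Par.beta (Tm.lift k A) (ih1 (k + 1)) (ih2 k)

theorem Par.subst {M M' : Tm S} (h : Par M M') :
    ∀ (k : ℕ) {N N' : Tm S}, Par N N' → Par (Tm.subst k N M) (Tm.subst k N' M') := by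
  induction h with
  | var i =>
    intro k N N' hN
    simp only [Tm.subst]
    split_ifs
    · exact Par.refl _
    · exact hN
    · exact Par.refl _
  | sort s => intro k N N' _; exact Par.refl _
  | app _ _ ih1 ih2 => intro k N N' hN; exact Par.app (ih1 k hN) (ih2 k hN)
  | lam _ _ ih1 ih2 => intro k N N' hN; exact Par.lam (ih1 k hN) (ih2 (k + 1) (hN.lift 0))
  | pi _ _ ih1 ih2 => intro k N N' hN; exact Par.pi (ih1 k hN) (ih2 (k + 1) (hN.lift 0))
  | @beta A M M' P P' _ _ ih1 ih2 =>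
    intro k N N' hN
    rw [subst_subst M' 0 k N' P' (Nat.zero_le k)]
    exact Par.beta (Tm.subst k N A) (ih1 (k + 1) (hN.lift 0)) (ih2 k hN)

theorem Par.lam_inv {A M L : Tm S} (h : Par (Tm.lam A M) L) :
    ∃ A' M', L = Tm.lam A' M' ∧ Par A A' ∧ Par M M' := by
  cases h with
  | lam h1 h2 => exact ⟨_, _, rfl, h1, h2⟩

/-- The diamond property of parallel reduction. -/
theorem Par.diamond {M N : Tm S} (h : Par M N) :
    ∀ {L : Tm S}, Par M L → ∃ K, Par N K ∧ Par L K := by
  induction h with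
  | var i => intro L h'; exact ⟨L, h', Par.refl L⟩
  | sort s => intro L h'; exact ⟨L, h', Par.refl L⟩
  | lam _ _ ih1 ih2 =>
    intro L h'
    cases h' with
    | lam h1 h2 =>
      obtain ⟨K1, a1, b1⟩ := ih1 h1
      obtain ⟨K2, a2, b2⟩ := ih2 h2
      exact ⟨Tm.lam K1 K2, Par.lam a1 a2, Par.lam b1 b2⟩
  | pi _ _ ih1 ih2 =>
    intro L h'
    cases h' with
    | pi h1 h2 =>
      obtain ⟨K1, a1, b1⟩ := ih1 h1
      obtain ⟨K2, a2, b2⟩ := ih2 h2
      exact ⟨Tm.pi K1 K2, Par.pi a1 a2, Par.pi b1 b2⟩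
  | app hM _ ih1 ih2 =>
    intro L h'
    cases h' with
    | app h1 h2 =>
      obtain ⟨K1, a1, b1⟩ := ih1 h1
      obtain ⟨K2, a2, b2⟩ := ih2 h2
      exact ⟨Tm.app K1 K2, Par.app a1 a2, Par.app b1 b2⟩
    | beta A h1 h2 =>
      obtain ⟨K1, a1, b1⟩ := ih1 (Par.lam (Par.refl A) h1)
      obtain ⟨K2, a2, b2⟩ := ih2 h2
      obtain ⟨A1, M1, rfl, _, _⟩ := hM.lam_inv
      obtain ⟨A2, M2, rfl, _, c2⟩ := a1.lam_inv
      obtain ⟨A3, M3, e3, _, c3⟩ := b1.lam_inv
      injection e3 with e4 e5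
      subst e4 e5
      exact ⟨Tm.subst 0 K2 M2, Par.beta A1 c2 a2, c3.subst 0 b2⟩
  | beta A _ _ ih1 ih2 =>
    intro L h'
    cases h' with
    | app h1 h2 =>
      obtain ⟨A1, M1, rfl, _, c1⟩ := h1.lam_inv
      obtain ⟨K1, a1, b1⟩ := ih1 c1
      obtain ⟨K2, a2, b2⟩ := ih2 h2
      exact ⟨Tm.subst 0 K2 K1, a1.subst 0 a2, Par.beta A1 b1 b2⟩
    | beta _ h1 h2 =>
      obtain ⟨K1, a1, b1⟩ := ih1 h1
      obtain ⟨K2, a2, b2⟩ := ih2 h2
      exact ⟨Tm.subst 0 K2 K1, a1.subst 0 a2, b1.subst 0 b2⟩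

theorem red_of_parStar {M N : Tm S} (h : Relation.ReflTransGen Par M N) : Red M N := by
  induction h with
  | refl => exact Relation.ReflTransGen.refl
  | tail _ hbc ih => exact ih.trans hbc.red

theorem parStar_of_red {M N : Tm S} (h : Red M N) : Relation.ReflTransGen Par M N := by
  induction h with
  | refl => exact Relation.ReflTransGen.refl
  | tail _ hbc ih => exact ih.tail (Par.of_beta hbc)

/-- Confluence of many-step beta reduction. -/
theorem Red.confluent {M N L : Tm S} (h : Red M N) (h' : Red M L) :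
    ∃ K, Red N K ∧ Red L K := by
  have key := Relation.church_rosser (r := (Par : Tm S → Tm S → Prop))
    (fun a b c hab hac => by
      obtain ⟨d, h1, h2⟩ := hab.diamond hac
      exact ⟨d, Relation.ReflGen.single h1, Relation.ReflTransGen.single h2⟩)
    (parStar_of_red h) (parStar_of_red h')
  obtain ⟨K, h1, h2⟩ := key
  exact ⟨K, red_of_parStar h1, red_of_parStar h2⟩

/-- Church-Rosser: convertible terms have a common reduct. -/
theorem BetaEq.common_reduct {M N : Tm S} (h : BetaEq M N) : ∃ K, Red M K ∧ Red N K := by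
  induction h with
  | rel x y hxy => exact ⟨y, Relation.ReflTransGen.single hxy, Relation.ReflTransGen.refl⟩
  | refl x => exact ⟨x, Relation.ReflTransGen.refl, Relation.ReflTransGen.refl⟩
  | symm x y _ ih =>
    obtain ⟨K, h1, h2⟩ := ih
    exact ⟨K, h2, h1⟩
  | trans x y z _ _ ih1 ih2 =>
    obtain ⟨K1, a1, b1⟩ := ih1
    obtain ⟨K2, a2, b2⟩ := ih2
    obtain ⟨K, c1, c2⟩ := Red.confluent b1 a2
    exact ⟨K, a1.trans c1, b2.trans c2⟩

theorem BetaEq.pi_inj {A A' B B' : Tm S} (h : BetaEq (Tm.pi A B) (Tm.pi A' B')) :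
    BetaEq A A' ∧ BetaEq B B' := by
  obtain ⟨K, h1, h2⟩ := h.common_reduct
  obtain ⟨A1, B1, rfl, a1, b1⟩ := Red.pi_inv h1
  obtain ⟨A2, B2, e, a2, b2⟩ := Red.pi_inv h2
  injection e with e1 e2
  subst e1 e2
  exact ⟨(BetaEq.of_red a1).trans (BetaEq.of_red a2).symm,
    (BetaEq.of_red b1).trans (BetaEq.of_red b2).symm⟩

theorem BetaEq.sort_inj {s s' : S} (h : BetaEq (Tm.sort s) (Tm.sort s')) : s = s' := by
  obtain ⟨K, h1, h2⟩ := h.common_reduct
  have e1 := Red.sort_inv h1
  have e2 := Red.sort_inv h2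
  rw [e1] at e2
  injection e2

theorem BetaEq.sort_ne_pi {s : S} {A B : Tm S} : ¬ BetaEq (Tm.sort s) (Tm.pi A B) := by
  intro h
  obtain ⟨K, h1, h2⟩ := h.common_reduct
  have e1 := Red.sort_inv h1
  obtain ⟨A2, B2, e, _, _⟩ := Red.pi_inv h2
  rw [e1] at e
  cases e

/-- A term convertible with a sort reduces to it. -/
theorem BetaEq.red_sort {M : Tm S} {s : S} (h : BetaEq M (Tm.sort s)) : Red M (Tm.sort s) := by
  obtain ⟨K, h1, h2⟩ := h.common_reduct
  have e1 := Red.sort_inv h2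
  rw [e1] at h1
  exact h1

/-- A term convertible with a product reduces to a product with convertible components. -/
theorem BetaEq.red_pi {M A B : Tm S} (h : BetaEq M (Tm.pi A B)) :
    ∃ A' B', Red M (Tm.pi A' B') ∧ Red A A' ∧ Red B B' := by
  obtain ⟨K, h1, h2⟩ := h.common_reduct
  obtain ⟨A2, B2, rfl, a2, b2⟩ := Red.pi_inv h2
  exact ⟨A2, B2, h1, a2, b2⟩

end Vale.Agent.P340
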