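import Vale.Agent.P340.Pure

/-!
# Two-level specifications: classification of the derivable judgments

Every derivable judgment is either of level P (subject and type are pure) or of level Q
(the subject is Q-shaped and the type is a type of level Q).
-/

namespace Vale.Agent.P340

open Tm

universe u

variable {U : Type u}

theorem QT.sort_level {R : Spec U} {q : U → Bool} (hR : TwoLevel R q) {Γ : List (Tm U)} {s : U}
    (h : QT R q Γ (Tm.sort s)) : q s = true := by
  rcases h with ⟨t, ht, he⟩ | ⟨t, ht, hty⟩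
  · cases he
    exact ht
  · obtain ⟨s', hax, hc⟩ := hty.gen_sort
    have h1 : t = s' := hc.sort_inj
    subst h1
    rw [hR.ax_lev _ _ hax]
    exact ht

/-- A type of level Q is not pure. -/
theorem QT.not_pure {R : Spec U} {q : U → Bool} (hR : TwoLevel R q) {Γ : List (Tm U)} {B : Tm U}
    (h : QT R q Γ B) : isP q (labels q Γ) B = false := by
  rcases h with ⟨t, ht, rfl⟩ | ⟨t, ht, hty⟩
  · simp [isP, ht]
  · by_contra hne
    have hp : isP q (labels q Γ) B = true := by simpa using hne
    have h1 := hty.pure_sort hR hp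
    rw [h1] at ht
    exact Bool.false_ne_true ht

theorem QT.weak {R : Spec U} {q : U → Bool} {Γ : List (Tm U)} {A B : Tm U} {s : U}
    (h : QT R q Γ B) (hA : Typing R Γ A (Tm.sort s)) : QT R q (A :: Γ) (Tm.lift 0 B) := by
  rcases h with ⟨t, ht, rfl⟩ | ⟨t, ht, hty⟩
  · exact Or.inl ⟨t, ht, rfl⟩
  · exact Or.inr ⟨t, ht, Typing.weak hty hA⟩

theorem labels_cons (q : U → Bool) (A : Tm U) (Γ : List (Tm U)) :
    labels q (A :: Γ) = (!isP q (labels q Γ) A) :: labels q Γ := rfl

/-- The classification theorem. -/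
theorem Typing.classify {R : Spec U} {q : U → Bool} (hR : TwoLevel R q) {Γ : List (Tm U)}
    {M B : Tm U} (h : Typing R Γ M B) :
    (isP q (labels q Γ) M = true ∧ isP q (labels q Γ) B = true) ∨
      (isQ q (labels q Γ) M = true ∧ QT R q Γ B) := by
  induction h with
  | @ax s₁ s₂ hax =>
    have hl := hR.ax_lev _ _ hax
    cases h1 : q s₁ with
    | false =>
      left
      rw [h1] at hl
      simp [isP, h1, ← hl]
    | true =>
      right
      rw [h1] at hl
      exact ⟨by simp [isQ, h1], Or.inl ⟨s₂, hl.symm, rfl⟩⟩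
  | @var Γ A s hA ih =>
    rw [labels_cons]
    rcases ih with ⟨h1, _⟩ | ⟨h1, h2⟩
    · left
      rw [isP_lift_zero, h1]
      simp [isP]
    · right
      have h3 := isP_eq_false_of_isQ h1
      rw [h3]
      exact ⟨by simp [isQ], Or.inr ⟨s, QT.sort_level hR h2, Typing.weak hA hA⟩⟩
  | @weak Γ M B A s hM hA ihM _ =>
    rw [labels_cons, isP_lift_zero, isP_lift_zero, isQ_lift_zero]
    rcases ihM with h1 | ⟨h1, h2⟩
    · exact Or.inl h1
    · exact Or.inr ⟨h1, h2.weak hA⟩
  | @prod Γ A B s₁ s₂ s₃ hr hA hB ihA ihB =>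
    rw [labels_cons] at ihB
    have hl := hR.rule_lev _ _ _ hr
    rcases ihA with ⟨a1, a2⟩ | ⟨a1, a2⟩
    · rw [a1] at ihB
      have q1 : q s₁ = false := by simpa [isP] using a2
      rcases ihB with ⟨b1, b2⟩ | ⟨b1, b2⟩
      · have q2 : q s₂ = false := by simpa [isP] using b2
        left
        rcases hl with ⟨_, l2⟩ | ⟨_, l2, _⟩
        · have q3 : q s₃ = false := by rw [← l2, q2]
          simp at b1
          simp [isP, a1, b1, q3]
        · rw [q2] at l2
          exact absurd l2 Bool.false_ne_true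
      · have q2 : q s₂ = true := QT.sort_level hR b2
        right
        rcases hl with ⟨l1, _⟩ | ⟨_, _, l3⟩
        · rw [q1, q2] at l1
          exact absurd l1 Bool.false_ne_true
        · subst l3
          simp at b1
          exact ⟨by simp [isQ, a1, b1], Or.inl ⟨_, q2, rfl⟩⟩
    · have a3 := isP_eq_false_of_isQ a1
      rw [a3] at ihB
      have q1 : q s₁ = true := QT.sort_level hR a2
      rcases ihB with ⟨b1, b2⟩ | ⟨b1, b2⟩
      · have q2 : q s₂ = false := by simpa [isP] using b2
        rcases hl with ⟨l1, _⟩ | ⟨l1, _, _⟩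
        · rw [q1, q2] at l1
          exact absurd l1.symm Bool.false_ne_true
        · rw [q1] at l1
          exact absurd l1.symm Bool.false_ne_true
      · have q2 : q s₂ = true := QT.sort_level hR b2
        right
        rcases hl with ⟨_, l2⟩ | ⟨l1, _, _⟩
        · have q3 : q s₃ = true := by rw [← l2, q2]
          simp at b1
          exact ⟨by simp [isQ, a1, b1], Or.inl ⟨_, q3, rfl⟩⟩
        · rw [q1] at l1
          exact absurd l1.symm Bool.false_ne_true
  | @abs Γ A M B s hM hpi ihM ihpi =>
    rcases ihpi with ⟨p1, _⟩ | ⟨p1, p2⟩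
    · left
      have p3 : isP q (labels q Γ) A = true ∧ isP q (false :: labels q Γ) B = true := by
        simpa [isP] using p1
      rcases ihM with ⟨m1, _⟩ | ⟨_, m2⟩
      · rw [labels_cons, p3.1] at m1
        simp at m1
        exact ⟨by simp [isP, p3.1, m1], p1⟩
      · have m3 := QT.not_pure hR m2
        rw [labels_cons, p3.1] at m3
        simp at m3
        rw [p3.2] at m3
        exact absurd m3.symm Bool.false_ne_true
    · right
      refine ⟨?_, Or.inr ⟨s, QT.sort_level hR p2, hpi⟩⟩
      have p3 : (isP q (labels q Γ) A = true ∧ isQ q (false :: labels q Γ) B = true) ∨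
          (isQ q (labels q Γ) A = true ∧ isQ q (true :: labels q Γ) B = true) := by
        simpa [isQ] using p1
      rcases p3 with ⟨a1, b1⟩ | ⟨a1, b1⟩
      · rw [labels_cons, a1] at ihM
        simp only [Bool.not_true] at ihM
        rcases ihM with ⟨_, m2⟩ | ⟨m1, _⟩
        · exact (isP_isQ q B _ m2 b1).elim
        · simp [isQ, a1, m1]
      · have a3 := isP_eq_false_of_isQ a1
        rw [labels_cons, a3] at ihM
        simp only [Bool.not_false] at ihM
        rcases ihM with ⟨_, m2⟩ | ⟨m1, _⟩
        · exact (isP_isQ q B _ m2 b1).elim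
        · simp [isQ, a1, m1]
  | @app Γ M N A B hM hN ihM ihN =>
    rcases ihM with ⟨m1, m2⟩ | ⟨m1, m2⟩
    · left
      have p3 : isP q (labels q Γ) A = true ∧ isP q (false :: labels q Γ) B = true := by
        simpa [isP] using m2
      rcases ihN with ⟨n1, _⟩ | ⟨_, n2⟩
      · refine ⟨by simp [isP, m1, n1], ?_⟩
        rw [isP_subst_zero q B N false _ (by simpa using n1)]
        exact p3.2
      · have n3 := QT.not_pure hR n2
        rw [p3.1] at n3
        exact absurd n3.symm Bool.false_ne_true
    · right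
      constructor
      · rcases ihN with ⟨n1, _⟩ | ⟨n1, _⟩
        · simp [isQ, m1, n1]
        · simp [isQ, m1, n1]
      · rcases m2 with ⟨t, _, he⟩ | ⟨t, ht, hty⟩
        · cases he
        · obtain ⟨s₁, s₂, s₃, hr, _, hB, hc⟩ := hty.gen_pi
          have h1 : t = s₃ := hc.sort_inj
          subst h1
          have q2 : q s₂ = true := by
            rcases hR.rule_lev _ _ _ hr with ⟨_, l2⟩ | ⟨_, l2, _⟩
            · rw [l2, ht]
            · exact l2
          exact Or.inr ⟨s₂, q2, Typing.subst_zero hB hN⟩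
  | @conv Γ M A B s hM hB hc ihM ihB =>
    obtain ⟨K, hAK, hBK⟩ := hc.common_reduct
    rcases ihM with ⟨m1, m2⟩ | ⟨m1, m2⟩
    · left
      have k1 := isP_red hAK _ m2
      have k2 := hB.red hBK
      have qs := k2.pure_sort hR k1
      rcases ihB with ⟨b1, _⟩ | ⟨_, b2⟩
      · exact ⟨m1, b1⟩
      · have := QT.sort_level hR b2
        rw [qs] at this
        exact absurd this Bool.false_ne_true
    · right
      refine ⟨m1, ?_⟩
      rcases ihB with ⟨b1, _⟩ | ⟨_, b2⟩
      · exfalso
        have k1 := isP_red hBK _ b1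
        rcases m2 with ⟨t, ht, rfl⟩ | ⟨t, ht, hty⟩
        · rw [Red.sort_inv hAK] at k1
          simp [isP, ht] at k1
        · have k2 := hty.red hAK
          have := k2.pure_sort hR k1
          rw [this] at ht
          exact Bool.false_ne_true ht
      · exact Or.inr ⟨s, QT.sort_level hR b2, hB⟩

theorem Typing.isQ_of_not_isP {R : Spec U} {q : U → Bool} (hR : TwoLevel R q) {Γ : List (Tm U)}
    {M B : Tm U} (h : Typing R Γ M B) (hM : isP q (labels q Γ) M = false) :
    isQ q (labels q Γ) M = true := by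
  rcases h.classify hR with ⟨h1, _⟩ | ⟨h1, _⟩
  · rw [hM] at h1
    exact absurd h1 Bool.false_ne_true
  · exact h1

/-- Subject and type of a judgment have the same level. -/
theorem Typing.isP_type {R : Spec U} {q : U → Bool} (hR : TwoLevel R q) {Γ : List (Tm U)}
    {M B : Tm U} (h : Typing R Γ M B) : isP q (labels q Γ) B = isP q (labels q Γ) M := by
  rcases h.classify hR with ⟨h1, h2⟩ | ⟨h1, h2⟩
  · rw [h1, h2]
  · rw [isP_eq_false_of_isQ h1, QT.not_pure hR h2]

theorem Typing.type_QT {R : Spec U} {q : U → Bool} (hR : TwoLevel R q) {Γ : List (Tm U)}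
    {M B : Tm U} (h : Typing R Γ M B) (hM : isQ q (labels q Γ) M = true) : QT R q Γ B := by
  rcases h.classify hR with ⟨h1, _⟩ | ⟨_, h2⟩
  · exact (isP_isQ q M _ h1 hM).elim
  · exact h2

/-- The type of a Q-shaped subject is Q-shaped. -/
theorem Typing.isQ_type {R : Spec U} {q : U → Bool} (hR : TwoLevel R q) {Γ : List (Tm U)}
    {M B : Tm U} (h : Typing R Γ M B) (hM : isQ q (labels q Γ) M = true) :
    isQ q (labels q Γ) B = true := by
  rcases h.type_QT hR hM with ⟨t, ht, rfl⟩ | ⟨t, ht, hty⟩
  · simp [isQ, ht]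
  · rcases hty.classify hR with ⟨_, h2⟩ | ⟨h1, _⟩
    · simp [isP, ht] at h2
    · exact h1

/-- The level of the sort of a type. -/
theorem Typing.sort_level {R : Spec U} {q : U → Bool} (hR : TwoLevel R q) {Γ : List (Tm U)}
    {A : Tm U} {s : U} (h : Typing R Γ A (Tm.sort s)) : q s = !isP q (labels q Γ) A := by
  rcases h.classify hR with ⟨h1, h2⟩ | ⟨h1, h2⟩
  · rw [h1]
    simpa [isP] using h2
  · rw [isP_eq_false_of_isQ h1, QT.sort_level hR h2]
    rfl

/-- The Q-shape is preserved by reduction of typable terms. -/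
theorem Typing.isQ_red {R : Spec U} {q : U → Bool} (hR : TwoLevel R q) {Γ : List (Tm U)}
    {M M' B : Tm U} (h : Typing R Γ M B) (hM : isQ q (labels q Γ) M = true) (hr : Red M M') :
    isQ q (labels q Γ) M' = true := by
  rcases (h.red hr).classify hR with ⟨_, h2⟩ | ⟨h1, _⟩
  · have h3 := QT.not_pure hR (h.type_QT hR hM)
    rw [h2] at h3
    exact absurd h3.symm Bool.false_ne_true
  · exact h1

end Vale.Agent.P340
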