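import Mathlib

/-!
# Pure type systems (de Bruijn presentation)

Basic definitions for problem P340: pseudo-terms, beta reduction, typing, legality,
weak and strong normalization of a pure type specification.
-/

namespace Vale.Agent.P340

universe u v

/-- Pseudo-terms over a type `S` of sorts, with de Bruijn indices.
`lam A M` is the abstraction with domain `A` and body `M`, `pi A B` the product. -/
inductive Tm (S : Type u) : Type u
  | var : ℕ → Tm S
  | sort : S → Tm S
  | app : Tm S → Tm S → Tm S
  | lam : Tm S → Tm S → Tm S
  | pi : Tm S → Tm S → Tm S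

namespace Tm

variable {S : Type u}

/-- `lift k M` adds one to every free index of `M` that is at least `k`. -/
def lift : ℕ → Tm S → Tm S
  | k, var i => if i < k then var i else var (i + 1)
  | _, sort s => sort s
  | k, app M N => app (lift k M) (lift k N)
  | k, lam A M => lam (lift k A) (lift (k + 1) M)
  | k, pi A B => pi (lift k A) (lift (k + 1) B)

/-- `subst k N M` replaces index `k` of `M` by `N` and lowers the indices above `k`. -/
def subst : ℕ → Tm S → Tm S → Tm S
  | k, N, var i => if i < k then var i else if i = k then N else var (i - 1)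
  | _, _, sort s => sort s
  | k, N, app M M' => app (subst k N M) (subst k N M')
  | k, N, lam A M => lam (subst k N A) (subst (k + 1) (lift 0 N) M)
  | k, N, pi A B => pi (subst k N A) (subst (k + 1) (lift 0 N) B)

end Tm

open Tm

/-- One-step beta reduction: the compatible closure of the beta rule
(steps are allowed in every subterm, domains included). -/
inductive Beta {S : Type u} : Tm S → Tm S → Prop
  | beta (A M N : Tm S) : Beta (app (lam A M) N) (subst 0 N M)
  | appL {M M' : Tm S} (N : Tm S) : Beta M M' → Beta (app M N) (app M' N)
  | appR (M : Tm S) {N N' : Tm S} : Beta N N' → Beta (app M N) (app M N')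
  | lamD {A A' : Tm S} (M : Tm S) : Beta A A' → Beta (lam A M) (lam A' M)
  | lamB (A : Tm S) {M M' : Tm S} : Beta M M' → Beta (lam A M) (lam A M')
  | piD {A A' : Tm S} (B : Tm S) : Beta A A' → Beta (pi A B) (pi A' B)
  | piB (A : Tm S) {B B' : Tm S} : Beta B B' → Beta (pi A B) (pi A B')

/-- Beta conversion: the equivalence relation generated by one-step beta reduction. -/
def BetaEq {S : Type u} : Tm S → Tm S → Prop := Relation.EqvGen Beta

/-- A pure type specification on the sorts `S`: a binary relation `ax` and a ternary relation `rule`. -/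
structure Spec (S : Type u) where
  ax : S → S → Prop
  rule : S → S → S → Prop

/-- The typing relation of the pure type system given by `P`.  A context is a list of types,
the head being the most recently declared variable (index `0`). -/
inductive Typing {S : Type u} (P : Spec S) : List (Tm S) → Tm S → Tm S → Prop
  | ax {s₁ s₂ : S} : P.ax s₁ s₂ → Typing P [] (sort s₁) (sort s₂)
  | var {Γ : List (Tm S)} {A : Tm S} {s : S} :
      Typing P Γ A (sort s) → Typing P (A :: Γ) (var 0) (lift 0 A)
  | weak {Γ : List (Tm S)} {M B A : Tm S} {s : S} :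
      Typing P Γ M B → Typing P Γ A (sort s) → Typing P (A :: Γ) (lift 0 M) (lift 0 B)
  | prod {Γ : List (Tm S)} {A B : Tm S} {s₁ s₂ s₃ : S} :
      P.rule s₁ s₂ s₃ → Typing P Γ A (sort s₁) → Typing P (A :: Γ) B (sort s₂) →
      Typing P Γ (pi A B) (sort s₃)
  | abs {Γ : List (Tm S)} {A M B : Tm S} {s : S} :
      Typing P (A :: Γ) M B → Typing P Γ (pi A B) (sort s) → Typing P Γ (lam A M) (pi A B)
  | app {Γ : List (Tm S)} {M N A B : Tm S} :
      Typing P Γ M (pi A B) → Typing P Γ N A → Typing P Γ (app M N) (subst 0 N B)
  | conv {Γ : List (Tm S)} {M A B : Tm S} {s : S} :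
      Typing P Γ M A → Typing P Γ B (sort s) → BetaEq A B → Typing P Γ M B

/-- A term is legal if it is the subject or the type of a derivable judgment. -/
def Legal {S : Type u} (P : Spec S) (M : Tm S) : Prop :=
  ∃ (Γ : List (Tm S)) (T : Tm S), Typing P Γ M T ∨ Typing P Γ T M

/-- Beta normal forms. -/
def Normal {S : Type u} (M : Tm S) : Prop := ∀ N, ¬ Beta M N

/-- `M` reduces to a normal form. -/
def HasNF {S : Type u} (M : Tm S) : Prop :=
  ∃ N, Relation.ReflTransGen Beta M N ∧ Normal N

/-- `M` starts an infinite beta reduction sequence. -/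
def HasInfRed {S : Type u} (M : Tm S) : Prop :=
  ∃ f : ℕ → Tm S, f 0 = M ∧ ∀ n, Beta (f n) (f (n + 1))

/-- Weak normalization of a specification. -/
def WN {S : Type u} (P : Spec S) : Prop := ∀ M, Legal P M → HasNF M

/-- Strong normalization of a specification. -/
def SN {S : Type u} (P : Spec S) : Prop := ∀ M, Legal P M → ¬ HasInfRed M

end Vale.Agent.P340
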