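import Vale.Agent.P340.Defs

/-!
# Renaming of sorts and morphisms of specifications
-/

namespace Vale.Agent.P340

universe u v

open Tm

variable {S : Type u} {S' : Type v}

/-- Rename the sorts of a term along `g`. -/
def Tm.map (g : S → S') : Tm S → Tm S'
  | Tm.var i => Tm.var i
  | Tm.sort s => Tm.sort (g s)
  | Tm.app M N => Tm.app (Tm.map g M) (Tm.map g N)
  | Tm.lam A M => Tm.lam (Tm.map g A) (Tm.map g M)
  | Tm.pi A B => Tm.pi (Tm.map g A) (Tm.map g B)

theorem map_lift (g : S → S') (M : Tm S) : ∀ k, Tm.map g (lift k M) = lift k (Tm.map g M) := by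
  induction M with
  | var i => intro k; simp only [lift, Tm.map]; split <;> rfl
  | sort s => intro k; rfl
  | app M N ihM ihN => intro k; simp only [lift, Tm.map, ihM, ihN]
  | lam A M ihA ihM => intro k; simp only [lift, Tm.map, ihA, ihM]
  | pi A B ihA ihB => intro k; simp only [lift, Tm.map, ihA, ihB]

theorem map_subst (g : S → S') (M : Tm S) :
    ∀ k N, Tm.map g (subst k N M) = subst k (Tm.map g N) (Tm.map g M) := by
  induction M with
  | var i =>
    intro k N
    simp only [subst, Tm.map]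
    split
    · rfl
    · split <;> rfl
  | sort s => intro k N; rfl
  | app M N ihM ihN => intro k N; simp only [subst, Tm.map, ihM, ihN]
  | lam A M ihA ihM => intro k N; simp only [subst, Tm.map, ihA, ihM, map_lift]
  | pi A B ihA ihB => intro k N; simp only [subst, Tm.map, ihA, ihB, map_lift]

theorem Beta.map (g : S → S') {M N : Tm S} (h : Beta M N) : Beta (Tm.map g M) (Tm.map g N) := by
  induction h with
  | beta A M N =>
    simp only [Tm.map, map_subst]
    exact Beta.beta _ _ _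
  | appL N _ ih => exact Beta.appL _ ih
  | appR M _ ih => exact Beta.appR _ ih
  | lamD M _ ih => exact Beta.lamD _ ih
  | lamB A _ ih => exact Beta.lamB _ ih
  | piD B _ ih => exact Beta.piD _ ih
  | piB A _ ih => exact Beta.piB _ ih

theorem BetaEq.map (g : S → S') {M N : Tm S} (h : BetaEq M N) :
    BetaEq (Tm.map g M) (Tm.map g N) := by
  induction h with
  | rel _ _ h => exact Relation.EqvGen.rel _ _ (h.map g)
  | refl _ => exact Relation.EqvGen.refl _
  | symm _ _ _ ih => exact Relation.EqvGen.symm _ _ ih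
  | trans _ _ _ _ _ ih₁ ih₂ => exact Relation.EqvGen.trans _ _ _ ih₁ ih₂

/-- A beta step out of a renamed term comes from a beta step of the original term. -/
theorem Beta.of_map (g : S → S') : ∀ (M : Tm S) (N' : Tm S'), Beta (Tm.map g M) N' →
    ∃ N, Beta M N ∧ Tm.map g N = N' := by
  intro M
  induction M with
  | var i => intro N' h; simp only [Tm.map] at h; cases h
  | sort s => intro N' h; simp only [Tm.map] at h; cases h
  | app M N ihM ihN =>
    intro N' h
    simp only [Tm.map] at h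
    generalize hM : Tm.map g M = M₁ at h
    cases h with
    | beta A B _ =>
      cases M with
      | lam A₀ B₀ =>
        simp only [Tm.map, Tm.lam.injEq] at hM
        obtain ⟨rfl, rfl⟩ := hM
        exact ⟨_, Beta.beta _ _ _, by rw [map_subst]⟩
      | var i => simp [Tm.map] at hM
      | sort s => simp [Tm.map] at hM
      | app _ _ => simp [Tm.map] at hM
      | pi _ _ => simp [Tm.map] at hM
    | appL _ h' =>
      subst hM
      obtain ⟨K, hK, rfl⟩ := ihM _ h'
      exact ⟨_, Beta.appL _ hK, rfl⟩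
    | appR _ h' =>
      subst hM
      obtain ⟨K, hK, rfl⟩ := ihN _ h'
      exact ⟨_, Beta.appR _ hK, rfl⟩
  | lam A M ihA ihM =>
    intro N' h
    simp only [Tm.map] at h
    cases h with
    | lamD _ h' =>
      obtain ⟨K, hK, rfl⟩ := ihA _ h'
      exact ⟨_, Beta.lamD _ hK, rfl⟩
    | lamB _ h' =>
      obtain ⟨K, hK, rfl⟩ := ihM _ h'
      exact ⟨_, Beta.lamB _ hK, rfl⟩
  | pi A M ihA ihM =>
    intro N' h
    simp only [Tm.map] at h
    cases h with
    | piD _ h' =>
      obtain ⟨K, hK, rfl⟩ := ihA _ h'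
      exact ⟨_, Beta.piD _ hK, rfl⟩
    | piB _ h' =>
      obtain ⟨K, hK, rfl⟩ := ihM _ h'
      exact ⟨_, Beta.piB _ hK, rfl⟩

theorem red_of_map (g : S → S') (M : Tm S) (N' : Tm S')
    (h : Relation.ReflTransGen Beta (Tm.map g M) N') :
    ∃ N, Relation.ReflTransGen Beta M N ∧ Tm.map g N = N' := by
  induction h with
  | refl => exact ⟨M, Relation.ReflTransGen.refl, rfl⟩
  | tail _ hstep ih =>
    obtain ⟨K, hK, rfl⟩ := ih
    obtain ⟨L, hL, rfl⟩ := Beta.of_map g _ _ hstep
    exact ⟨L, hK.tail hL, rfl⟩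

theorem HasNF.of_map (g : S → S') {M : Tm S} (h : HasNF (Tm.map g M)) : HasNF M := by
  obtain ⟨N', hred, hn⟩ := h
  obtain ⟨N, hN, rfl⟩ := red_of_map g M N' hred
  exact ⟨N, hN, fun K hK => hn _ (hK.map g)⟩

theorem HasInfRed.map (g : S → S') {M : Tm S} (h : HasInfRed M) : HasInfRed (Tm.map g M) := by
  obtain ⟨f, h0, hf⟩ := h
  exact ⟨fun n => Tm.map g (f n), by simp [h0], fun n => (hf n).map g⟩

/-- Typing is preserved by a morphism of specifications. -/
theorem Typing.map {P : Spec S} {P' : Spec S'} (g : S → S')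
    (hax : ∀ a b, P.ax a b → P'.ax (g a) (g b))
    (hrule : ∀ a b c, P.rule a b c → P'.rule (g a) (g b) (g c))
    {Γ : List (Tm S)} {M T : Tm S} (h : Typing P Γ M T) :
    Typing P' (Γ.map (Tm.map g)) (Tm.map g M) (Tm.map g T) := by
  induction h with
  | ax h => exact Typing.ax (hax _ _ h)
  | var _ ih =>
    simp only [List.map_cons, map_lift]
    exact Typing.var ih
  | weak _ _ ih₁ ih₂ =>
    simp only [List.map_cons, map_lift]
    exact Typing.weak ih₁ ih₂
  | prod hr _ _ ih₁ ih₂ => exact Typing.prod (hrule _ _ _ hr) ih₁ ih₂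
  | abs _ _ ih₁ ih₂ => exact Typing.abs ih₁ ih₂
  | app _ _ ih₁ ih₂ =>
    simp only [map_subst]
    exact Typing.app ih₁ ih₂
  | conv _ _ he ih₁ ih₂ => exact Typing.conv ih₁ ih₂ (he.map g)

theorem Legal.map {P : Spec S} {P' : Spec S'} (g : S → S')
    (hax : ∀ a b, P.ax a b → P'.ax (g a) (g b))
    (hrule : ∀ a b c, P.rule a b c → P'.rule (g a) (g b) (g c))
    {M : Tm S} (h : Legal P M) : Legal P' (Tm.map g M) := by
  obtain ⟨Γ, T, h | h⟩ := h
  · exact ⟨_, _, Or.inl (h.map g hax hrule)⟩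
  · exact ⟨_, _, Or.inr (h.map g hax hrule)⟩

/-- Typing is monotone in the specification. -/
theorem Typing.mono {P P' : Spec S}
    (hax : ∀ a b, P.ax a b → P'.ax a b)
    (hrule : ∀ a b c, P.rule a b c → P'.rule a b c)
    {Γ : List (Tm S)} {M T : Tm S} (h : Typing P Γ M T) : Typing P' Γ M T := by
  induction h with
  | ax h => exact Typing.ax (hax _ _ h)
  | var _ ih => exact Typing.var ih
  | weak _ _ ih₁ ih₂ => exact Typing.weak ih₁ ih₂
  | prod hr _ _ ih₁ ih₂ => exact Typing.prod (hrule _ _ _ hr) ih₁ ih₂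
  | abs _ _ ih₁ ih₂ => exact Typing.abs ih₁ ih₂
  | app _ _ ih₁ ih₂ => exact Typing.app ih₁ ih₂
  | conv _ _ he ih₁ ih₂ => exact Typing.conv ih₁ ih₂ he

/-- The restriction of a specification to the sorts in a finite set. -/
def Spec.restrict (P : Spec S) (F : Finset S) : Spec S where
  ax a b := P.ax a b ∧ a ∈ F ∧ b ∈ F
  rule a b c := P.rule a b c ∧ a ∈ F ∧ b ∈ F ∧ c ∈ F

theorem Typing.restrict_mono {P : Spec S} {F F' : Finset S} (hF : F ⊆ F')
    {Γ : List (Tm S)} {M T : Tm S} (h : Typing (P.restrict F) Γ M T) :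
    Typing (P.restrict F') Γ M T :=
  Typing.mono (P := P.restrict F) (P' := P.restrict F')
    (fun _ _ h => ⟨h.1, hF h.2.1, hF h.2.2⟩)
    (fun _ _ _ h => ⟨h.1, hF h.2.1, hF h.2.2.1, hF h.2.2.2⟩) h

/-- Every derivation only uses finitely many sorts. -/
theorem Typing.exists_finset {P : Spec S} {Γ : List (Tm S)} {M T : Tm S} (h : Typing P Γ M T) :
    ∃ F : Finset S, F.Nonempty ∧ Typing (P.restrict F) Γ M T := by
  classical
  induction h with
  | @ax a b h =>
    exact ⟨{a, b}, ⟨a, by simp⟩, Typing.ax ⟨h, by simp, by simp⟩⟩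
  | var _ ih =>
    obtain ⟨F, hne, hF⟩ := ih
    exact ⟨F, hne, Typing.var hF⟩
  | weak _ _ ih₁ ih₂ =>
    obtain ⟨F₁, hne, h₁⟩ := ih₁
    obtain ⟨F₂, _, h₂⟩ := ih₂
    exact ⟨F₁ ∪ F₂, hne.mono Finset.subset_union_left,
      Typing.weak (h₁.restrict_mono Finset.subset_union_left)
        (h₂.restrict_mono Finset.subset_union_right)⟩
  | @prod _ _ _ a b c hr _ _ ih₁ ih₂ =>
    obtain ⟨F₁, hne, h₁⟩ := ih₁
    obtain ⟨F₂, _, h₂⟩ := ih₂
    refine ⟨F₁ ∪ F₂ ∪ {a, b, c}, hne.mono (Finset.subset_union_left.trans Finset.subset_union_left),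
      Typing.prod (s₁ := a) (s₂ := b) (s₃ := c) ⟨hr, by simp, by simp, by simp⟩
        (h₁.restrict_mono (Finset.subset_union_left.trans Finset.subset_union_left))
        (h₂.restrict_mono (Finset.subset_union_right.trans Finset.subset_union_left))⟩
  | abs _ _ ih₁ ih₂ =>
    obtain ⟨F₁, hne, h₁⟩ := ih₁
    obtain ⟨F₂, _, h₂⟩ := ih₂
    exact ⟨F₁ ∪ F₂, hne.mono Finset.subset_union_left,
      Typing.abs (h₁.restrict_mono Finset.subset_union_left)
        (h₂.restrict_mono Finset.subset_union_right)⟩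
  | app _ _ ih₁ ih₂ =>
    obtain ⟨F₁, hne, h₁⟩ := ih₁
    obtain ⟨F₂, _, h₂⟩ := ih₂
    exact ⟨F₁ ∪ F₂, hne.mono Finset.subset_union_left,
      Typing.app (h₁.restrict_mono Finset.subset_union_left)
        (h₂.restrict_mono Finset.subset_union_right)⟩
  | conv _ _ he ih₁ ih₂ =>
    obtain ⟨F₁, hne, h₁⟩ := ih₁
    obtain ⟨F₂, _, h₂⟩ := ih₂
    exact ⟨F₁ ∪ F₂, hne.mono Finset.subset_union_left,
      Typing.conv (h₁.restrict_mono Finset.subset_union_left)
        (h₂.restrict_mono Finset.subset_union_right) he⟩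

end Vale.Agent.P340
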