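import Vale.Agent.P340.TwoLevelSN
import Vale.Agent.P340.Morph

/-!
# Stratified specifications

The sorts of `R` are distributed over levels by `lev : U → I`, where `I` is partially ordered.
The relation `ax` and the rules stay inside one level, except for rules `(a, b, b)` with
`lev a < lev b`.  Then `R` is strongly normalizing iff each of its levels is.
-/

namespace Vale.Agent.P340

open Tm

universe u w

variable {U : Type u} {I : Type w}

/-- `R` is stratified by the level function `lev`. -/
structure Stratified [PartialOrder I] (R : Spec U) (lev : U → I) : Prop where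
  ax_lev : ∀ a b, R.ax a b → lev a = lev b
  rule_lev : ∀ a b c, R.rule a b c →
    (lev a = lev b ∧ lev b = lev c) ∨ (lev a < lev b ∧ c = b)

/-- The part of `R` on the sorts of level `i`. -/
def Spec.level (R : Spec U) (lev : U → I) (i : I) : Spec U where
  ax a b := R.ax a b ∧ lev a = i ∧ lev b = i
  rule a b c := R.rule a b c ∧ lev a = i ∧ lev b = i ∧ lev c = i

/-- The part of `R` on the sorts whose level is in the finite set `L`. -/
def Spec.levels (R : Spec U) (lev : U → I) (L : Finset I) : Spec U where
  ax a b := R.ax a b ∧ lev a ∈ L ∧ lev b ∈ L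
  rule a b c := R.rule a b c ∧ lev a ∈ L ∧ lev b ∈ L ∧ lev c ∈ L

theorem Legal.mono {P P' : Spec U} (hax : ∀ a b, P.ax a b → P'.ax a b)
    (hrule : ∀ a b c, P.rule a b c → P'.rule a b c) {M : Tm U} (h : Legal P M) : Legal P' M := by
  obtain ⟨Γ, T, h | h⟩ := h
  · exact ⟨Γ, T, Or.inl (h.mono hax hrule)⟩
  · exact ⟨Γ, T, Or.inr (h.mono hax hrule)⟩

theorem SN.mono {P P' : Spec U} (hax : ∀ a b, P.ax a b → P'.ax a b)
    (hrule : ∀ a b c, P.rule a b c → P'.rule a b c) (h : SN P') : SN P :=
  fun M hM => h M (hM.mono hax hrule)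

theorem WN.mono {P P' : Spec U} (hax : ∀ a b, P.ax a b → P'.ax a b)
    (hrule : ∀ a b c, P.rule a b c → P'.rule a b c) (h : WN P') : WN P :=
  fun M hM => h M (hM.mono hax hrule)

theorem Typing.exists_ax {P : Spec U} {Γ : List (Tm U)} {M T : Tm U} (h : Typing P Γ M T) :
    ∃ a b, P.ax a b := by
  induction h with
  | ax h => exact ⟨_, _, h⟩
  | var _ ih => exact ih
  | weak _ _ ih _ => exact ih
  | prod _ _ _ ih _ => exact ih
  | abs _ _ ih _ => exact ih
  | app _ _ ih _ => exact ih
  | conv _ _ _ ih _ => exact ih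

theorem SN.of_no_ax {P : Spec U} (h : ∀ a b, ¬ P.ax a b) : SN P := by
  intro M hM
  obtain ⟨Γ, T, h' | h'⟩ := hM
  · obtain ⟨a, b, hab⟩ := h'.exists_ax
    exact absurd hab (h a b)
  · obtain ⟨a, b, hab⟩ := h'.exists_ax
    exact absurd hab (h a b)

theorem Stratified.sn_levels [PartialOrder I] {R : Spec U} {lev : U → I} (hR : Stratified R lev)
    (h : ∀ i, SN (R.level lev i)) : ∀ L : Finset I, SN (R.levels lev L) := by
  classical
  intro L
  induction L using Finset.strongInduction with
  | H L ih =>
    rcases L.eq_empty_or_nonempty with rfl | hne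
    · exact SN.of_no_ax (fun a b hab => by simpa using hab.2.1)
    · obtain ⟨m, hm⟩ := L.exists_maximal hne
      have hmL : m ∈ L := hm.prop
      have hmax : ∀ x ∈ L, ¬ m < x := fun x hx hlt => hm.not_gt hx hlt
      let q : U → Bool := fun s => decide (lev s = m)
      have hq : ∀ s, q s = true ↔ lev s = m := fun s => by simp [q]
      have hq' : ∀ s, q s = false ↔ lev s ≠ m := fun s => by simp [q]
      have h2 : TwoLevel (R.levels lev L) q := by
        constructor
        · intro a b hab
          have := hR.ax_lev a b hab.1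
          simp only [q, this]
        · intro a b c habc
          rcases hR.rule_lev a b c habc.1 with ⟨h1, h2⟩ | ⟨h1, h2⟩
          · left
            simp only [q, h1, h2, and_self]
          · subst h2
            by_cases hb : lev c = m
            · right
              refine ⟨(hq' a).2 ?_, (hq c).2 hb, rfl⟩
              intro ha
              rw [ha, hb] at h1
              exact lt_irrefl _ h1
            · left
              have ha : lev a ≠ m := by
                intro ha
                rw [ha] at h1
                exact hmax _ habc.2.2.1 h1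
              refine ⟨?_, rfl⟩
              rw [(hq' a).2 ha, (hq' c).2 hb]
      refine h2.sn ?_ ?_
      · refine SN.mono ?_ ?_ (ih (L.erase m) (Finset.erase_ssubset hmL))
        · intro a b hab
          exact ⟨hab.1.1, Finset.mem_erase.2 ⟨(hq' a).1 hab.2.1, hab.1.2.1⟩,
            Finset.mem_erase.2 ⟨(hq' b).1 hab.2.2, hab.1.2.2⟩⟩
        · intro a b c hab
          exact ⟨hab.1.1, Finset.mem_erase.2 ⟨(hq' a).1 hab.2.1, hab.1.2.1⟩,
            Finset.mem_erase.2 ⟨(hq' b).1 hab.2.2.1, hab.1.2.2.1⟩,
            Finset.mem_erase.2 ⟨(hq' c).1 hab.2.2.2, hab.1.2.2.2⟩⟩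
      · refine SN.mono ?_ ?_ (h m)
        · intro a b hab
          exact ⟨hab.1.1, (hq a).1 hab.2.1, (hq b).1 hab.2.2⟩
        · intro a b c hab
          exact ⟨hab.1.1, (hq a).1 hab.2.1, (hq b).1 hab.2.2.1, (hq c).1 hab.2.2.2⟩

/-- A stratified specification is strongly normalizing as soon as all its levels are. -/
theorem Stratified.sn [PartialOrder I] {R : Spec U} {lev : U → I} (hR : Stratified R lev)
    (h : ∀ i, SN (R.level lev i)) : SN R := by
  classical
  intro M hM
  have key : ∃ F : Finset U, Legal (R.restrict F) M := by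
    obtain ⟨Γ, T, hd | hd⟩ := hM
    · obtain ⟨F, _, hF⟩ := hd.exists_finset
      exact ⟨F, Γ, T, Or.inl hF⟩
    · obtain ⟨F, _, hF⟩ := hd.exists_finset
      exact ⟨F, Γ, T, Or.inr hF⟩
  obtain ⟨F, hF⟩ := key
  refine hR.sn_levels h (F.image lev) M (hF.mono ?_ ?_)
  · intro a b hab
    exact ⟨hab.1, Finset.mem_image_of_mem _ hab.2.1, Finset.mem_image_of_mem _ hab.2.2⟩
  · intro a b c hab
    exact ⟨hab.1, Finset.mem_image_of_mem _ hab.2.1, Finset.mem_image_of_mem _ hab.2.2.1,
      Finset.mem_image_of_mem _ hab.2.2.2⟩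

theorem Stratified.sn_iff [PartialOrder I] {R : Spec U} {lev : U → I} (hR : Stratified R lev) :
    SN R ↔ ∀ i, SN (R.level lev i) :=
  ⟨fun h _ => SN.mono (fun _ _ hab => hab.1) (fun _ _ _ hab => hab.1) h, hR.sn⟩

/-- The Barendregt-Geuvers-Klop implication passes from the levels to the whole specification. -/
theorem Stratified.bgk [PartialOrder I] {R : Spec U} {lev : U → I} (hR : Stratified R lev)
    (h : ∀ i, WN (R.level lev i) → SN (R.level lev i)) (hW : WN R) : SN R :=
  hR.sn fun i => h i (WN.mono (fun _ _ hab => hab.1) (fun _ _ _ hab => hab.1) hW)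

end Vale.Agent.P340
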