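import Vale.Agent.P340.Thin

/-!
# Generation (inversion) lemmas
-/

namespace Vale.Agent.P340

open Tm

universe u

variable {S : Type u}

theorem lift_eq_sort {k : ℕ} {M : Tm S} {s : S} (h : Tm.lift k M = Tm.sort s) : M = Tm.sort s := by
  cases M with
  | var i =>
    simp only [Tm.lift] at h
    split_ifs at h
  | sort s' => exact h
  | app _ _ => cases h
  | lam _ _ => cases h
  | pi _ _ => cases h

theorem lift_zero_eq_var {M : Tm S} {j : ℕ} (h : Tm.lift 0 M = Tm.var j) :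
    ∃ i, M = Tm.var i ∧ j = i + 1 := by
  cases M with
  | var i =>
    simp only [Tm.lift, Nat.not_lt_zero, if_false] at h
    cases h
    exact ⟨i, rfl, rfl⟩
  | sort _ => cases h
  | app _ _ => cases h
  | lam _ _ => cases h
  | pi _ _ => cases h

theorem lift_eq_pi {k : ℕ} {M A B : Tm S} (h : Tm.lift k M = Tm.pi A B) :
    ∃ A₀ B₀, M = Tm.pi A₀ B₀ ∧ A = Tm.lift k A₀ ∧ B = Tm.lift (k + 1) B₀ := by
  cases M with
  | var i =>
    simp only [Tm.lift] at h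
    split_ifs at h
  | sort _ => cases h
  | app _ _ => cases h
  | lam _ _ => cases h
  | pi A₀ B₀ =>
    cases h
    exact ⟨A₀, B₀, rfl, rfl, rfl⟩

theorem lift_eq_lam {k : ℕ} {M A B : Tm S} (h : Tm.lift k M = Tm.lam A B) :
    ∃ A₀ B₀, M = Tm.lam A₀ B₀ ∧ A = Tm.lift k A₀ ∧ B = Tm.lift (k + 1) B₀ := by
  cases M with
  | var i =>
    simp only [Tm.lift] at h
    split_ifs at h
  | sort _ => cases h
  | app _ _ => cases h
  | pi _ _ => cases h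
  | lam A₀ B₀ =>
    cases h
    exact ⟨A₀, B₀, rfl, rfl, rfl⟩

theorem lift_eq_app {k : ℕ} {M A B : Tm S} (h : Tm.lift k M = Tm.app A B) :
    ∃ A₀ B₀, M = Tm.app A₀ B₀ ∧ A = Tm.lift k A₀ ∧ B = Tm.lift k B₀ := by
  cases M with
  | var i =>
    simp only [Tm.lift] at h
    split_ifs at h
  | sort _ => cases h
  | lam _ _ => cases h
  | pi _ _ => cases h
  | app A₀ B₀ =>
    cases h
    exact ⟨A₀, B₀, rfl, rfl, rfl⟩

theorem gen_sort_aux {P : Spec S} {Γ : List (Tm S)} {X T : Tm S} (h : Typing P Γ X T) :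
    ∀ s, X = Tm.sort s → ∃ s', P.ax s s' ∧ BetaEq T (Tm.sort s') := by
  induction h with
  | ax hax => intro s hs; cases hs; exact ⟨_, hax, BetaEq.refl _⟩
  | var _ _ => intro s hs; cases hs
  | weak _ _ ihM _ =>
    intro s hs
    obtain ⟨s', h1, h2⟩ := ihM s (lift_eq_sort hs)
    exact ⟨s', h1, BetaEq.lift h2 0⟩
  | prod _ _ _ _ _ => intro s hs; cases hs
  | abs _ _ _ _ => intro s hs; cases hs
  | app _ _ _ _ => intro s hs; cases hs
  | conv _ _ hc ihM _ =>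
    intro s hs
    obtain ⟨s', h1, h2⟩ := ihM s hs
    exact ⟨s', h1, hc.symm.trans h2⟩

theorem Typing.gen_sort {P : Spec S} {Γ : List (Tm S)} {s : S} {T : Tm S}
    (h : Typing P Γ (Tm.sort s) T) : ∃ s', P.ax s s' ∧ BetaEq T (Tm.sort s') :=
  gen_sort_aux h s rfl

theorem gen_var_aux {P : Spec S} {Γ : List (Tm S)} {X T : Tm S} (h : Typing P Γ X T) :
    ∀ i, X = Tm.var i → ∃ A, Γ[i]? = some A ∧ BetaEq T (Tm.shift (i + 1) A) := by
  induction h with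
  | ax _ => intro i hi; cases hi
  | @var Γ₀ A₀ s _ _ =>
    intro i hi
    cases hi
    exact ⟨A₀, by simp, BetaEq.refl _⟩
  | weak _ _ ihM _ =>
    intro i hi
    obtain ⟨j, hj, rfl⟩ := lift_zero_eq_var hi
    obtain ⟨A₁, h1, h2⟩ := ihM j hj
    exact ⟨A₁, by simpa using h1, BetaEq.lift h2 0⟩
  | prod _ _ _ _ _ => intro i hi; cases hi
  | abs _ _ _ _ => intro i hi; cases hi
  | app _ _ _ _ => intro i hi; cases hi
  | conv _ _ hc ihM _ =>
    intro i hi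
    obtain ⟨A₁, h1, h2⟩ := ihM i hi
    exact ⟨A₁, h1, hc.symm.trans h2⟩

theorem Typing.gen_var {P : Spec S} {Γ : List (Tm S)} {i : ℕ} {T : Tm S}
    (h : Typing P Γ (Tm.var i) T) : ∃ A, Γ[i]? = some A ∧ BetaEq T (Tm.shift (i + 1) A) :=
  gen_var_aux h i rfl

theorem gen_pi_aux {P : Spec S} {Γ : List (Tm S)} {X T : Tm S} (h : Typing P Γ X T) :
    ∀ A B, X = Tm.pi A B → ∃ s₁ s₂ s₃, P.rule s₁ s₂ s₃ ∧ Typing P Γ A (Tm.sort s₁) ∧
      Typing P (A :: Γ) B (Tm.sort s₂) ∧ BetaEq T (Tm.sort s₃) := by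
  induction h with
  | ax _ => intro A B hX; cases hX
  | var _ _ => intro A B hX; cases hX
  | weak _ hC ihM _ =>
    intro A B hX
    obtain ⟨A₀, B₀, hM, rfl, rfl⟩ := lift_eq_pi hX
    obtain ⟨s₁, s₂, s₃, hr, hA, hB, hc⟩ := ihM A₀ B₀ hM
    exact ⟨s₁, s₂, s₃, hr, Typing.weak hA hC, hB.thin (InsCtx.succ (InsCtx.zero hC)),
      BetaEq.lift hc 0⟩
  | prod hr hA hB _ _ =>
    intro A B hX
    cases hX
    exact ⟨_, _, _, hr, hA, hB, BetaEq.refl _⟩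
  | abs _ _ _ _ => intro A B hX; cases hX
  | app _ _ _ _ => intro A B hX; cases hX
  | conv _ _ hc ihM _ =>
    intro A B hX
    obtain ⟨s₁, s₂, s₃, hr, hA, hB, hc'⟩ := ihM A B hX
    exact ⟨s₁, s₂, s₃, hr, hA, hB, hc.symm.trans hc'⟩

theorem Typing.gen_pi {P : Spec S} {Γ : List (Tm S)} {A B T : Tm S}
    (h : Typing P Γ (Tm.pi A B) T) : ∃ s₁ s₂ s₃, P.rule s₁ s₂ s₃ ∧ Typing P Γ A (Tm.sort s₁) ∧
      Typing P (A :: Γ) B (Tm.sort s₂) ∧ BetaEq T (Tm.sort s₃) :=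
  gen_pi_aux h A B rfl

theorem gen_lam_aux {P : Spec S} {Γ : List (Tm S)} {X T : Tm S} (h : Typing P Γ X T) :
    ∀ A M, X = Tm.lam A M → ∃ B s, Typing P (A :: Γ) M B ∧
      Typing P Γ (Tm.pi A B) (Tm.sort s) ∧ BetaEq T (Tm.pi A B) := by
  induction h with
  | ax _ => intro A M hX; cases hX
  | var _ _ => intro A M hX; cases hX
  | weak _ hC ihM _ =>
    intro A M hX
    obtain ⟨A₀, M₀, hM, rfl, rfl⟩ := lift_eq_lam hX
    obtain ⟨B₀, s, h1, h2, hc⟩ := ihM A₀ M₀ hM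
    exact ⟨Tm.lift 1 B₀, s, h1.thin (InsCtx.succ (InsCtx.zero hC)), Typing.weak h2 hC,
      BetaEq.lift hc 0⟩
  | prod _ _ _ _ _ => intro A M hX; cases hX
  | abs hM hpi _ _ =>
    intro A M hX
    cases hX
    exact ⟨_, _, hM, hpi, BetaEq.refl _⟩
  | app _ _ _ _ => intro A M hX; cases hX
  | conv _ _ hc ihM _ =>
    intro A M hX
    obtain ⟨B₀, s, h1, h2, hc'⟩ := ihM A M hX
    exact ⟨B₀, s, h1, h2, hc.symm.trans hc'⟩

theorem Typing.gen_lam {P : Spec S} {Γ : List (Tm S)} {A M T : Tm S}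
    (h : Typing P Γ (Tm.lam A M) T) : ∃ B s, Typing P (A :: Γ) M B ∧
      Typing P Γ (Tm.pi A B) (Tm.sort s) ∧ BetaEq T (Tm.pi A B) :=
  gen_lam_aux h A M rfl

theorem gen_app_aux {P : Spec S} {Γ : List (Tm S)} {X T : Tm S} (h : Typing P Γ X T) :
    ∀ M N, X = Tm.app M N → ∃ A B, Typing P Γ M (Tm.pi A B) ∧ Typing P Γ N A ∧
      BetaEq T (Tm.subst 0 N B) := by
  induction h with
  | ax _ => intro M N hX; cases hX
  | var _ _ => intro M N hX; cases hX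
  | weak _ hC ihM _ =>
    intro M N hX
    obtain ⟨M₀, N₀, hM, rfl, rfl⟩ := lift_eq_app hX
    obtain ⟨A₀, B₀, h1, h2, hc⟩ := ihM M₀ N₀ hM
    refine ⟨Tm.lift 0 A₀, Tm.lift 1 B₀, Typing.weak h1 hC, Typing.weak h2 hC, ?_⟩
    rw [← lift_subst_ge B₀ 0 0 N₀ (le_refl _)]
    exact BetaEq.lift hc 0
  | prod _ _ _ _ _ => intro M N hX; cases hX
  | abs _ _ _ _ => intro M N hX; cases hX
  | app hM hN _ _ =>
    intro M N hX
    cases hX
    exact ⟨_, _, hM, hN, BetaEq.refl _⟩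
  | conv _ _ hc ihM _ =>
    intro M N hX
    obtain ⟨A₀, B₀, h1, h2, hc'⟩ := ihM M N hX
    exact ⟨A₀, B₀, h1, h2, hc.symm.trans hc'⟩

theorem Typing.gen_app {P : Spec S} {Γ : List (Tm S)} {M N T : Tm S}
    (h : Typing P Γ (Tm.app M N) T) : ∃ A B, Typing P Γ M (Tm.pi A B) ∧ Typing P Γ N A ∧
      BetaEq T (Tm.subst 0 N B) :=
  gen_app_aux h M N rfl

end Vale.Agent.P340
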