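import Vale.Agent.P340.Thin

/-!
# The substitution lemma
-/

namespace Vale.Agent.P340

open Tm

universe u

variable {S : Type u}

/-- `SubCtx P N k Γ Γ'`: the context `Γ'` is `Γ` with its declaration number `k` removed, the term
`N` (of the declared type) being substituted in the `k` innermost declarations. -/
inductive SubCtx (P : Spec S) (N : Tm S) : ℕ → List (Tm S) → List (Tm S) → Prop
  | zero {Γ : List (Tm S)} {A : Tm S} : Typing P Γ N A → SubCtx P N 0 (A :: Γ) Γ
  | succ {k : ℕ} {Γ Γ' : List (Tm S)} {B : Tm S} :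
      SubCtx P N k Γ Γ' → SubCtx P N (k + 1) (B :: Γ) (Tm.subst k (Tm.shift k N) B :: Γ')

/-- The substitution lemma. -/
theorem Typing.subst_ctx {P : Spec S} {Γ : List (Tm S)} {M B : Tm S} (h : Typing P Γ M B) :
    ∀ {N : Tm S} {k : ℕ} {Γ' : List (Tm S)}, SubCtx P N k Γ Γ' →
      Typing P Γ' (Tm.subst k (Tm.shift k N) M) (Tm.subst k (Tm.shift k N) B) := by
  induction h with
  | ax hax =>
    intro N k Γ' hs
    cases hs
  | @var Γ₀ A₀ s hA₀ ih =>
    intro N k Γ' hs
    cases hs with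
    | zero hN =>
      have h1 : Tm.subst 0 (Tm.shift 0 N) (Tm.var 0 : Tm S) = N := by
        simp [Tm.subst, Tm.shift]
      rw [h1, subst_lift]
      exact hN
    | @succ k' _ Γ'' _ hs' =>
      have h1 : Tm.subst (k' + 1) (Tm.shift (k' + 1) N) (Tm.var 0 : Tm S) = Tm.var 0 := by
        simp [Tm.subst]
      have h2 : Tm.subst (k' + 1) (Tm.shift (k' + 1) N) (Tm.lift 0 A₀)
          = Tm.lift 0 (Tm.subst k' (Tm.shift k' N) A₀) :=
        (lift_subst_le A₀ 0 k' (Tm.shift k' N) (Nat.zero_le _)).symm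
      rw [h1, h2]
      exact Typing.var (ih hs')
  | @weak Γ₀ M B A₀ s hM hA₀ ihM ihA =>
    intro N k Γ' hs
    cases hs with
    | zero hN =>
      rw [subst_lift, subst_lift]
      exact hM
    | @succ k' _ Γ'' _ hs' =>
      have h1 : Tm.subst (k' + 1) (Tm.shift (k' + 1) N) (Tm.lift 0 M)
          = Tm.lift 0 (Tm.subst k' (Tm.shift k' N) M) :=
        (lift_subst_le M 0 k' (Tm.shift k' N) (Nat.zero_le _)).symm
      have h2 : Tm.subst (k' + 1) (Tm.shift (k' + 1) N) (Tm.lift 0 B)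
          = Tm.lift 0 (Tm.subst k' (Tm.shift k' N) B) :=
        (lift_subst_le B 0 k' (Tm.shift k' N) (Nat.zero_le _)).symm
      rw [h1, h2]
      exact Typing.weak (ihM hs') (ihA hs')
  | prod hrule _ _ ihA ihB =>
    intro N k Γ' hs
    exact Typing.prod hrule (ihA hs) (ihB (SubCtx.succ hs))
  | abs _ _ ihM ihpi =>
    intro N k Γ' hs
    exact Typing.abs (ihM (SubCtx.succ hs)) (ihpi hs)
  | @app Γ₀ M N₀ A₀ B _ _ ihM ihN =>
    intro N k Γ' hs
    rw [subst_subst B 0 k (Tm.shift k N) N₀ (Nat.zero_le _)]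
    exact Typing.app (ihM hs) (ihN hs)
  | conv _ _ hc ihM ihB =>
    intro N k Γ' hs
    exact Typing.conv (ihM hs) (ihB hs) (BetaEq.subst hc (BetaEq.refl _) k)

/-- The substitution lemma for the innermost variable. -/
theorem Typing.subst_zero {P : Spec S} {Γ : List (Tm S)} {A M B N : Tm S}
    (h : Typing P (A :: Γ) M B) (hN : Typing P Γ N A) :
    Typing P Γ (Tm.subst 0 N M) (Tm.subst 0 N B) :=
  h.subst_ctx (SubCtx.zero hN)

end Vale.Agent.P340
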