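import Vale.Agent.P340.CR
import Vale.Agent.P340.SubstTy
import Vale.Agent.P340.Gen

/-!
# Correctness of types and subject reduction
-/

namespace Vale.Agent.P340

open Tm

universe u

variable {S : Type u}

/-- Substituting the variable `k` for the index `k` undoes `lift (k + 1)`. -/
theorem subst_var_lift (M : Tm S) : ∀ k : ℕ, subst k (var k) (lift (k + 1) M) = M := by
  induction M with
  | var i =>
    intro k
    simp only [lift]
    split_ifs with h
    · simp only [subst]
      split_ifs with h1 h2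
      · rfl
      · rw [h2]
      · omega
    · simp only [subst]
      split_ifs with h1 h2
      · omega
      · omega
      · rfl
  | sort s => intro k; rfl
  | app M N ihM ihN => intro k; simp only [lift, subst, ihM, ihN]
  | lam A M ihA ihM =>
    intro k
    simp only [lift, subst, ihA]
    rw [if_neg (Nat.not_lt_zero k), ihM (k + 1)]
  | pi A M ihA ihM =>
    intro k
    simp only [lift, subst, ihA]
    rw [if_neg (Nat.not_lt_zero k), ihM (k + 1)]

/-- Correctness of types: the type of a judgment is a sort or has a sort as type. -/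
theorem Typing.type_correct {P : Spec S} {Γ : List (Tm S)} {M B : Tm S} (h : Typing P Γ M B) :
    (∃ s, B = Tm.sort s) ∨ ∃ s, Typing P Γ B (Tm.sort s) := by
  induction h with
  | ax _ => exact Or.inl ⟨_, rfl⟩
  | @var Γ A s hA _ => exact Or.inr ⟨s, Typing.weak hA hA⟩
  | @weak Γ M B A s hM hA ihM _ =>
    rcases ihM with ⟨s', rfl⟩ | ⟨s', hs'⟩
    · exact Or.inl ⟨s', rfl⟩
    · exact Or.inr ⟨s', Typing.weak hs' hA⟩
  | prod _ _ _ _ _ => exact Or.inl ⟨_, rfl⟩
  | abs _ hpi _ _ => exact Or.inr ⟨_, hpi⟩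
  | @app Γ M N A B hM hN ihM _ =>
    rcases ihM with ⟨s', hs'⟩ | ⟨s', hs'⟩
    · exact absurd hs' (by simp)
    · obtain ⟨s₁, s₂, s₃, _, _, hB, _⟩ := hs'.gen_pi
      exact Or.inr ⟨s₂, hB.subst_zero hN⟩
  | conv _ hB _ _ _ => exact Or.inr ⟨_, hB⟩

/-- The innermost declaration may be replaced by a convertible type. -/
theorem Typing.conv_ctx {P : Spec S} {Γ : List (Tm S)} {A A' M B : Tm S} {s : S}
    (h : Typing P (A :: Γ) M B) (hA' : Typing P Γ A' (Tm.sort s)) (hc : BetaEq A A') :
    Typing P (A' :: Γ) M B := by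
  obtain ⟨s₀, hA⟩ : ∃ s₀, Typing P Γ A (Tm.sort s₀) := by
    have hwf := h.wf
    cases hwf with
    | cons hA => exact ⟨_, hA⟩
  have hv : Typing P (A' :: Γ) (Tm.var 0) (Tm.lift 0 A') := Typing.var hA'
  have hAw : Typing P (A' :: Γ) (Tm.lift 0 A) (Tm.sort s₀) := Typing.weak hA hA'
  have hv' : Typing P (A' :: Γ) (Tm.var 0) (Tm.lift 0 A) :=
    Typing.conv hv hAw (BetaEq.lift hc.symm 0)
  have hthin : Typing P (Tm.lift 0 A :: A' :: Γ) (Tm.lift 1 M) (Tm.lift 1 B) :=
    h.thin (InsCtx.succ (InsCtx.zero hA'))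
  have hs := hthin.subst_zero hv'
  rw [subst_var_lift M 0, subst_var_lift B 0] at hs
  exact hs

/-- The type of an application is a type. -/
theorem Typing.app_type {P : Spec S} {Γ : List (Tm S)} {M N A B : Tm S}
    (hM : Typing P Γ M (Tm.pi A B)) (hN : Typing P Γ N A) :
    ∃ s, Typing P Γ (Tm.subst 0 N B) (Tm.sort s) := by
  rcases hM.type_correct with ⟨s', hs'⟩ | ⟨s', hs'⟩
  · exact absurd hs' (by simp)
  · obtain ⟨s₁, s₂, s₃, _, _, hB, _⟩ := hs'.gen_pi
    exact ⟨s₂, hB.subst_zero hN⟩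

/-- Subject reduction (one step). -/
theorem Typing.beta {P : Spec S} {Γ : List (Tm S)} {M M' B : Tm S} (h : Typing P Γ M B)
    (hr : Beta M M') : Typing P Γ M' B := by
  induction h generalizing M' with
  | ax _ => cases hr
  | var _ _ => cases hr
  | @weak Γ M B A s hM hA ihM _ =>
    obtain ⟨M'', rfl, hr'⟩ := Beta.of_lift M 0 M' hr
    exact Typing.weak (ihM hr') hA
  | @prod Γ A B s₁ s₂ s₃ hrule hA hB ihA ihB =>
    cases hr with
    | piD _ hAA' =>
      have hA' := ihA hAA'
      exact Typing.prod hrule hA' (hB.conv_ctx hA' (BetaEq.of_beta hAA'))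
    | piB _ hBB' => exact Typing.prod hrule hA (ihB hBB')
  | @abs Γ A M B s hM hpi ihM ihpi =>
    cases hr with
    | lamD _ hAA' =>
      have hpi' := ihpi (Beta.piD B hAA')
      obtain ⟨s₁, s₂, s₃, _, hA', _, _⟩ := hpi'.gen_pi
      have hM' := hM.conv_ctx hA' (BetaEq.of_beta hAA')
      exact Typing.conv (Typing.abs hM' hpi') hpi (BetaEq.of_beta (Beta.piD B hAA')).symm
    | lamB _ hMM' => exact Typing.abs (ihM hMM') hpi
  | @app Γ M N A B hM hN ihM ihN =>
    obtain ⟨s, hty⟩ := hM.app_type hN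
    cases hr with
    | beta A₀ M₀ _ =>
      obtain ⟨B₀, s', hM₀, hpi₀, hc⟩ := hM.gen_lam
      obtain ⟨hcA, hcB⟩ := hc.pi_inj
      obtain ⟨s₁, s₂, s₃, _, hA₀, _, _⟩ := hpi₀.gen_pi
      have hN₀ : Typing P Γ N A₀ := Typing.conv hN hA₀ hcA
      exact Typing.conv (hM₀.subst_zero hN₀) hty (BetaEq.subst hcB.symm (BetaEq.refl N) 0)
    | appL _ hMM' => exact Typing.app (ihM hMM') hN
    | appR _ hNN' =>
      exact Typing.conv (Typing.app hM (ihN hNN')) hty
        (BetaEq.subst (BetaEq.refl B) (BetaEq.of_beta hNN').symm 0)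
  | conv _ hB hc ihM _ => exact Typing.conv (ihM hr) hB hc

/-- Subject reduction. -/
theorem Typing.red {P : Spec S} {Γ : List (Tm S)} {M M' B : Tm S} (h : Typing P Γ M B)
    (hr : Red M M') : Typing P Γ M' B := by
  induction hr with
  | refl => exact h
  | tail _ hstep ih => exact ih.beta hstep

/-- The type of a judgment may be reduced. -/
theorem Typing.red_type {P : Spec S} {Γ : List (Tm S)} {M B B' : Tm S} (h : Typing P Γ M B)
    (hr : Red B B') : Typing P Γ M B' := by
  rcases h.type_correct with ⟨s, rfl⟩ | ⟨s, hs⟩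
  · rw [Red.sort_inv hr]
    exact h
  · exact Typing.conv h (hs.red hr) (BetaEq.of_red hr)

/-- In a typable redex the argument has the type declared in the abstraction. -/
theorem Typing.redex_arg {P : Spec S} {Γ : List (Tm S)} {A M N T : Tm S}
    (h : Typing P Γ (Tm.app (Tm.lam A M) N) T) : Typing P Γ N A := by
  obtain ⟨A₁, B₁, hlam, hN, _⟩ := h.gen_app
  obtain ⟨B, s, _, hpi, hc⟩ := hlam.gen_lam
  obtain ⟨hcA, _⟩ := hc.pi_inj
  obtain ⟨s₁, s₂, s₃, _, hA, _, _⟩ := hpi.gen_pi
  exact Typing.conv hN hA hcA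

end Vale.Agent.P340
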