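import Vale.Agent.P340.LevelSyn

/-!
# Two-level specifications: syntactic lemmas on the erasure and on the skeleton size
-/

namespace Vale.Agent.P340

open Tm

universe u

variable {U : Type u}

private theorem getD_lt' (ℓ₁ ℓ₂ ℓ₃ : List Bool) (i : ℕ) (h : i < ℓ₁.length) (d : Bool) :
    (ℓ₁ ++ ℓ₂).getD i d = (ℓ₁ ++ ℓ₃).getD i d := by
  rw [List.getD_append _ _ _ _ h, List.getD_append _ _ _ _ h]

private theorem getD_gt' (ℓ₁ ℓ₂ : List Bool) (b : Bool) (i : ℕ) (h : ℓ₁.length < i) (d : Bool) :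
    (ℓ₁ ++ b :: ℓ₂).getD i d = (ℓ₁ ++ ℓ₂).getD (i - 1) d := by
  rw [List.getD_append_right _ _ _ _ (by omega), List.getD_append_right _ _ _ _ (by omega)]
  obtain ⟨j, rfl⟩ : ∃ j, i = ℓ₁.length + 1 + j := ⟨i - ℓ₁.length - 1, by omega⟩
  have e1 : ℓ₁.length + 1 + j - ℓ₁.length = j + 1 := by omega
  have e2 : ℓ₁.length + 1 + j - 1 - ℓ₁.length = j := by omega
  rw [e1, e2, List.getD_cons_succ]

private theorem getD_eq' (ℓ₁ ℓ₂ : List Bool) (b : Bool) (d : Bool) :
    (ℓ₁ ++ b :: ℓ₂).getD ℓ₁.length d = b := by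
  rw [List.getD_append_right _ _ _ _ (le_refl _)]
  simp

theorem er_lift (q : U → Bool) (M : Tm U) : ∀ (ℓ₁ : List Bool) (b : Bool) (ℓ₂ : List Bool),
    er q (ℓ₁ ++ b :: ℓ₂) (lift ℓ₁.length M) = lift ℓ₁.length (er q (ℓ₁ ++ ℓ₂) M) := by
  induction M with
  | var i =>
    intro ℓ₁ b ℓ₂
    simp only [lift, er]
    split_ifs <;> simp only [er]
  | sort s => intro ℓ₁ b ℓ₂; rfl
  | app M N ihM ihN =>
    intro ℓ₁ b ℓ₂
    simp only [lift, er, isP_lift, ihM, ihN]
    split_ifs <;> simp only [lift]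
  | lam A M ihA ihM =>
    intro ℓ₁ b ℓ₂
    have h1 := ihM (false :: ℓ₁) b ℓ₂
    have h2 := ihM (true :: ℓ₁) b ℓ₂
    simp only [List.cons_append, List.length_cons] at h1 h2
    simp only [lift, er, isP_lift, ihA, h1, h2]
    split_ifs
    · rw [lift_subst_ge _ _ _ _ (Nat.zero_le _)]
      have e : lift ℓ₁.length (var (ℓ₁ ++ ℓ₂).length : Tm U) = var (ℓ₁ ++ b :: ℓ₂).length := by
        simp only [lift, List.length_append, List.length_cons]
        rw [if_neg (by omega)]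
        rfl
      rw [e]
    · simp only [lift]
  | pi A M ihA ihM =>
    intro ℓ₁ b ℓ₂
    have h1 := ihM (false :: ℓ₁) b ℓ₂
    have h2 := ihM (true :: ℓ₁) b ℓ₂
    simp only [List.cons_append, List.length_cons] at h1 h2
    simp only [lift, er, isP_lift, ihA, h1, h2]
    split_ifs
    · rw [lift_subst_ge _ _ _ _ (Nat.zero_le _)]
      have e : lift ℓ₁.length (var (ℓ₁ ++ ℓ₂).length : Tm U) = var (ℓ₁ ++ b :: ℓ₂).length := by
        simp only [lift, List.length_append, List.length_cons]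
        rw [if_neg (by omega)]
        rfl
      rw [e]
    · simp only [lift]

theorem er_lift_zero (q : U → Bool) (M : Tm U) (b : Bool) (ℓ : List Bool) :
    er q (b :: ℓ) (lift 0 M) = lift 0 (er q ℓ M) :=
  er_lift q M [] b ℓ

theorem sk_lift (q : U → Bool) (M : Tm U) : ∀ (ℓ₁ : List Bool) (b : Bool) (ℓ₂ : List Bool),
    sk q (ℓ₁ ++ b :: ℓ₂) (lift ℓ₁.length M) = sk q (ℓ₁ ++ ℓ₂) M := by
  induction M with
  | var i =>
    intro ℓ₁ b ℓ₂
    simp only [lift, sk]
    split_ifs <;> simp only [sk]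
  | sort s => intro ℓ₁ b ℓ₂; rfl
  | app M N ihM ihN =>
    intro ℓ₁ b ℓ₂
    simp only [lift, sk, isP_lift, ihM, ihN]
  | lam A M ihA ihM =>
    intro ℓ₁ b ℓ₂
    have h1 := ihM (false :: ℓ₁) b ℓ₂
    have h2 := ihM (true :: ℓ₁) b ℓ₂
    simp only [List.cons_append, List.length_cons] at h1 h2
    simp only [lift, sk, isP_lift, ihA, h1, h2]
  | pi A M ihA ihM =>
    intro ℓ₁ b ℓ₂
    have h1 := ihM (false :: ℓ₁) b ℓ₂
    have h2 := ihM (true :: ℓ₁) b ℓ₂
    simp only [List.cons_append, List.length_cons] at h1 h2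
    simp only [lift, sk, isP_lift, ihA, h1, h2]

private theorem subst_var_len (k m : ℕ) (D : Tm U) (h : k ≤ m) :
    subst k D (var (m + 1) : Tm U) = var m := by
  simp only [subst]
  rw [if_neg (by omega), if_neg (by omega)]
  rfl

/-- Substitution of a pure term for a variable of level P in a Q-shaped term: the shape and the
skeleton size are kept, and the erasure does not see the substituted term (`D` is arbitrary). -/
theorem subst_pure (q : U → Bool) (M : Tm U) :
    ∀ (ℓ₁ ℓ₂ : List Bool) (N D : Tm U),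
      isP q (ℓ₁ ++ ℓ₂) N = true → isQ q (ℓ₁ ++ false :: ℓ₂) M = true →
      isQ q (ℓ₁ ++ ℓ₂) (subst ℓ₁.length N M) = true ∧
      er q (ℓ₁ ++ ℓ₂) (subst ℓ₁.length N M) = subst ℓ₁.length D (er q (ℓ₁ ++ false :: ℓ₂) M) ∧
      sk q (ℓ₁ ++ ℓ₂) (subst ℓ₁.length N M) = sk q (ℓ₁ ++ false :: ℓ₂) M := by
  induction M with
  | var i =>
    intro ℓ₁ ℓ₂ N D hN hM
    simp only [isQ] at hM
    rcases lt_trichotomy i ℓ₁.length with h | h | h
    · simp only [subst, er, if_pos h, isQ, sk]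
      rw [getD_lt' ℓ₁ ℓ₂ (false :: ℓ₂) i h]
      exact ⟨hM, trivial, trivial⟩
    · subst h
      rw [getD_eq'] at hM
      exact absurd hM (by simp)
    · simp only [subst, er, if_neg (show ¬ i < ℓ₁.length by omega),
        if_neg (show ¬ i = ℓ₁.length by omega), isQ, sk]
      rw [← getD_gt' ℓ₁ ℓ₂ false i h]
      exact ⟨hM, trivial, trivial⟩
  | sort s =>
    intro ℓ₁ ℓ₂ N D hN hM
    exact ⟨hM, rfl, rfl⟩
  | app M N' ihM ihN =>
    intro ℓ₁ ℓ₂ N D hN hM
    simp only [isQ, Bool.and_eq_true, Bool.or_eq_true] at hM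
    obtain ⟨hM1, hM2⟩ := hM
    obtain ⟨a1, a2, a3⟩ := ihM ℓ₁ ℓ₂ N D hN hM1
    have hp : isP q (ℓ₁ ++ ℓ₂) (subst ℓ₁.length N N') = isP q (ℓ₁ ++ false :: ℓ₂) N' :=
      isP_subst q N' ℓ₁ false ℓ₂ N (by simpa using hN)
    by_cases hc : isP q (ℓ₁ ++ false :: ℓ₂) N' = true
    · simp only [subst, isQ, er, sk, hp, hc, a1, a2, a3, if_true, Bool.true_or, Bool.and_self,
        and_self]
    · have hq : isQ q (ℓ₁ ++ false :: ℓ₂) N' = true := hM2.resolve_left hc
      obtain ⟨b1, b2, b3⟩ := ihN ℓ₁ ℓ₂ N D hN hq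
      simp only [subst, isQ, er, sk, hp, hc, a1, a2, a3, b1, b2, b3, if_false, Bool.or_true,
        Bool.and_self, and_self, Bool.false_eq_true]
  | lam A M ihA ihM =>
    intro ℓ₁ ℓ₂ N D hN hM
    simp only [isQ, Bool.and_eq_true, Bool.or_eq_true] at hM
    have hp : isP q (ℓ₁ ++ ℓ₂) (subst ℓ₁.length N A) = isP q (ℓ₁ ++ false :: ℓ₂) A :=
      isP_subst q A ℓ₁ false ℓ₂ N (by simpa using hN)
    by_cases hc : isP q (ℓ₁ ++ false :: ℓ₂) A = true
    · have hq : isQ q (false :: (ℓ₁ ++ false :: ℓ₂)) M = true := by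
        rcases hM with h | h
        · exact h.2
        · exact (isP_isQ q A _ hc h.1).elim
      obtain ⟨b1, b2, b3⟩ := ihM (false :: ℓ₁) ℓ₂ (lift 0 N) (lift 0 D)
        (by rw [List.cons_append, isP_lift_zero]; exact hN) hq
      simp only [List.cons_append, List.length_cons] at b1 b2 b3
      simp only [subst, isQ, er, sk, hp, hc, b1, b2, b3, if_true, Bool.and_self, Bool.true_or,
        true_and, and_true]
      rw [subst_subst _ 0 _ _ _ (Nat.zero_le _)]
      have e : subst ℓ₁.length D (var (ℓ₁ ++ false :: ℓ₂).length : Tm U) = var (ℓ₁ ++ ℓ₂).length := by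
        have : (ℓ₁ ++ false :: ℓ₂).length = (ℓ₁ ++ ℓ₂).length + 1 := by simp; omega
        rw [this, subst_var_len _ _ _ (by simp)]
      rw [e]
    · have hq : isQ q (ℓ₁ ++ false :: ℓ₂) A = true ∧ isQ q (true :: (ℓ₁ ++ false :: ℓ₂)) M = true := by
        rcases hM with h | h
        · exact absurd h.1 hc
        · exact h
      obtain ⟨a1, a2, a3⟩ := ihA ℓ₁ ℓ₂ N D hN hq.1
      obtain ⟨b1, b2, b3⟩ := ihM (true :: ℓ₁) ℓ₂ (lift 0 N) (lift 0 D)
        (by rw [List.cons_append, isP_lift_zero]; exact hN) hq.2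
      simp only [List.cons_append, List.length_cons] at b1 b2 b3
      simp only [subst, isQ, er, sk, hp, hc, a1, a2, a3, b1, b2, b3, if_false, Bool.and_self,
        Bool.or_true, and_self, Bool.false_eq_true]
  | pi A M ihA ihM =>
    intro ℓ₁ ℓ₂ N D hN hM
    simp only [isQ, Bool.and_eq_true, Bool.or_eq_true] at hM
    have hp : isP q (ℓ₁ ++ ℓ₂) (subst ℓ₁.length N A) = isP q (ℓ₁ ++ false :: ℓ₂) A :=
      isP_subst q A ℓ₁ false ℓ₂ N (by simpa using hN)
    by_cases hc : isP q (ℓ₁ ++ false :: ℓ₂) A = true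
    · have hq : isQ q (false :: (ℓ₁ ++ false :: ℓ₂)) M = true := by
        rcases hM with h | h
        · exact h.2
        · exact (isP_isQ q A _ hc h.1).elim
      obtain ⟨b1, b2, b3⟩ := ihM (false :: ℓ₁) ℓ₂ (lift 0 N) (lift 0 D)
        (by rw [List.cons_append, isP_lift_zero]; exact hN) hq
      simp only [List.cons_append, List.length_cons] at b1 b2 b3
      simp only [subst, isQ, er, sk, hp, hc, b1, b2, b3, if_true, Bool.and_self, Bool.true_or,
        true_and, and_true]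
      rw [subst_subst _ 0 _ _ _ (Nat.zero_le _)]
      have e : subst ℓ₁.length D (var (ℓ₁ ++ false :: ℓ₂).length : Tm U) = var (ℓ₁ ++ ℓ₂).length := by
        have : (ℓ₁ ++ false :: ℓ₂).length = (ℓ₁ ++ ℓ₂).length + 1 := by simp; omega
        rw [this, subst_var_len _ _ _ (by simp)]
      rw [e]
    · have hq : isQ q (ℓ₁ ++ false :: ℓ₂) A = true ∧ isQ q (true :: (ℓ₁ ++ false :: ℓ₂)) M = true := by
        rcases hM with h | h
        · exact absurd h.1 hc
        · exact h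
      obtain ⟨a1, a2, a3⟩ := ihA ℓ₁ ℓ₂ N D hN hq.1
      obtain ⟨b1, b2, b3⟩ := ihM (true :: ℓ₁) ℓ₂ (lift 0 N) (lift 0 D)
        (by rw [List.cons_append, isP_lift_zero]; exact hN) hq.2
      simp only [List.cons_append, List.length_cons] at b1 b2 b3
      simp only [subst, isQ, er, sk, hp, hc, a1, a2, a3, b1, b2, b3, if_false, Bool.and_self,
        Bool.or_true, and_self, Bool.false_eq_true]

/-- Substitution of a Q-shaped term for a variable of level Q in a Q-shaped term commutes with the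
erasure. -/
theorem subst_upper (q : U → Bool) (M : Tm U) :
    ∀ (ℓ₁ ℓ₂ : List Bool) (N : Tm U),
      isQ q (ℓ₁ ++ ℓ₂) N = true → isQ q (ℓ₁ ++ true :: ℓ₂) M = true →
      isQ q (ℓ₁ ++ ℓ₂) (subst ℓ₁.length N M) = true ∧
      er q (ℓ₁ ++ ℓ₂) (subst ℓ₁.length N M) =
        subst ℓ₁.length (er q (ℓ₁ ++ ℓ₂) N) (er q (ℓ₁ ++ true :: ℓ₂) M) := by
  induction M with
  | var i =>
    intro ℓ₁ ℓ₂ N hN hM
    simp only [isQ] at hM
    rcases lt_trichotomy i ℓ₁.length with h | h | h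
    · simp only [subst, er, if_pos h, isQ]
      rw [getD_lt' ℓ₁ ℓ₂ (true :: ℓ₂) i h]
      exact ⟨hM, trivial⟩
    · subst h
      simp only [subst, er, lt_irrefl, if_false, if_true]
      exact ⟨hN, trivial⟩
    · simp only [subst, er, if_neg (show ¬ i < ℓ₁.length by omega),
        if_neg (show ¬ i = ℓ₁.length by omega), isQ]
      rw [← getD_gt' ℓ₁ ℓ₂ true i h]
      exact ⟨hM, trivial⟩
  | sort s =>
    intro ℓ₁ ℓ₂ N hN hM
    exact ⟨hM, rfl⟩
  | app M N' ihM ihN =>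
    intro ℓ₁ ℓ₂ N hN hM
    simp only [isQ, Bool.and_eq_true, Bool.or_eq_true] at hM
    obtain ⟨hM1, hM2⟩ := hM
    obtain ⟨a1, a2⟩ := ihM ℓ₁ ℓ₂ N hN hM1
    have hp : isP q (ℓ₁ ++ ℓ₂) (subst ℓ₁.length N N') = isP q (ℓ₁ ++ true :: ℓ₂) N' :=
      isP_subst q N' ℓ₁ true ℓ₂ N (by simpa using isP_eq_false_of_isQ hN)
    by_cases hc : isP q (ℓ₁ ++ true :: ℓ₂) N' = true
    · simp only [subst, isQ, er, hp, hc, a1, a2, if_true, Bool.true_or, Bool.and_self,
        and_self]
    · have hq : isQ q (ℓ₁ ++ true :: ℓ₂) N' = true := hM2.resolve_left hc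
      obtain ⟨b1, b2⟩ := ihN ℓ₁ ℓ₂ N hN hq
      simp only [subst, isQ, er, hp, hc, a1, a2, b1, b2, if_false, Bool.or_true,
        Bool.and_self, and_self, Bool.false_eq_true]
  | lam A M ihA ihM =>
    intro ℓ₁ ℓ₂ N hN hM
    simp only [isQ, Bool.and_eq_true, Bool.or_eq_true] at hM
    have hp : isP q (ℓ₁ ++ ℓ₂) (subst ℓ₁.length N A) = isP q (ℓ₁ ++ true :: ℓ₂) A :=
      isP_subst q A ℓ₁ true ℓ₂ N (by simpa using isP_eq_false_of_isQ hN)
    by_cases hc : isP q (ℓ₁ ++ true :: ℓ₂) A = true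
    · have hq : isQ q (false :: (ℓ₁ ++ true :: ℓ₂)) M = true := by
        rcases hM with h | h
        · exact h.2
        · exact (isP_isQ q A _ hc h.1).elim
      obtain ⟨b1, b2⟩ := ihM (false :: ℓ₁) ℓ₂ (lift 0 N)
        (by rw [List.cons_append, isQ_lift_zero]; exact hN) hq
      simp only [List.cons_append, List.length_cons, er_lift_zero] at b1 b2
      simp only [subst, isQ, er, hp, hc, b1, b2, if_true, Bool.and_self, Bool.true_or,
        true_and]
      rw [subst_subst _ 0 _ _ _ (Nat.zero_le _)]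
      have e : subst ℓ₁.length (er q (ℓ₁ ++ ℓ₂) N) (var (ℓ₁ ++ true :: ℓ₂).length : Tm U)
          = var (ℓ₁ ++ ℓ₂).length := by
        have : (ℓ₁ ++ true :: ℓ₂).length = (ℓ₁ ++ ℓ₂).length + 1 := by simp; omega
        rw [this, subst_var_len _ _ _ (by simp)]
      rw [e]
    · have hq : isQ q (ℓ₁ ++ true :: ℓ₂) A = true ∧ isQ q (true :: (ℓ₁ ++ true :: ℓ₂)) M = true := by
        rcases hM with h | h
        · exact absurd h.1 hc
        · exact h
      obtain ⟨a1, a2⟩ := ihA ℓ₁ ℓ₂ N hN hq.1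
      obtain ⟨b1, b2⟩ := ihM (true :: ℓ₁) ℓ₂ (lift 0 N)
        (by rw [List.cons_append, isQ_lift_zero]; exact hN) hq.2
      simp only [List.cons_append, List.length_cons, er_lift_zero] at b1 b2
      simp only [subst, isQ, er, hp, hc, a1, a2, b1, b2, if_false, Bool.and_self,
        Bool.or_true, and_self, Bool.false_eq_true]
  | pi A M ihA ihM =>
    intro ℓ₁ ℓ₂ N hN hM
    simp only [isQ, Bool.and_eq_true, Bool.or_eq_true] at hM
    have hp : isP q (ℓ₁ ++ ℓ₂) (subst ℓ₁.length N A) = isP q (ℓ₁ ++ true :: ℓ₂) A :=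
      isP_subst q A ℓ₁ true ℓ₂ N (by simpa using isP_eq_false_of_isQ hN)
    by_cases hc : isP q (ℓ₁ ++ true :: ℓ₂) A = true
    · have hq : isQ q (false :: (ℓ₁ ++ true :: ℓ₂)) M = true := by
        rcases hM with h | h
        · exact h.2
        · exact (isP_isQ q A _ hc h.1).elim
      obtain ⟨b1, b2⟩ := ihM (false :: ℓ₁) ℓ₂ (lift 0 N)
        (by rw [List.cons_append, isQ_lift_zero]; exact hN) hq
      simp only [List.cons_append, List.length_cons, er_lift_zero] at b1 b2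
      simp only [subst, isQ, er, hp, hc, b1, b2, if_true, Bool.and_self, Bool.true_or,
        true_and]
      rw [subst_subst _ 0 _ _ _ (Nat.zero_le _)]
      have e : subst ℓ₁.length (er q (ℓ₁ ++ ℓ₂) N) (var (ℓ₁ ++ true :: ℓ₂).length : Tm U)
          = var (ℓ₁ ++ ℓ₂).length := by
        have : (ℓ₁ ++ true :: ℓ₂).length = (ℓ₁ ++ ℓ₂).length + 1 := by simp; omega
        rw [this, subst_var_len _ _ _ (by simp)]
      rw [e]
    · have hq : isQ q (ℓ₁ ++ true :: ℓ₂) A = true ∧ isQ q (true :: (ℓ₁ ++ true :: ℓ₂)) M = true := by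
        rcases hM with h | h
        · exact absurd h.1 hc
        · exact h
      obtain ⟨a1, a2⟩ := ihA ℓ₁ ℓ₂ N hN hq.1
      obtain ⟨b1, b2⟩ := ihM (true :: ℓ₁) ℓ₂ (lift 0 N)
        (by rw [List.cons_append, isQ_lift_zero]; exact hN) hq.2
      simp only [List.cons_append, List.length_cons, er_lift_zero] at b1 b2
      simp only [subst, isQ, er, hp, hc, a1, a2, b1, b2, if_false, Bool.and_self,
        Bool.or_true, and_self, Bool.false_eq_true]

theorem subst_pure_zero {q : U → Bool} {ℓ : List Bool} {M N : Tm U} (D : Tm U)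
    (hN : isP q ℓ N = true) (hM : isQ q (false :: ℓ) M = true) :
    isQ q ℓ (subst 0 N M) = true ∧
    er q ℓ (subst 0 N M) = subst 0 D (er q (false :: ℓ) M) ∧
    sk q ℓ (subst 0 N M) = sk q (false :: ℓ) M :=
  subst_pure q M [] ℓ N D hN hM

theorem subst_upper_zero {q : U → Bool} {ℓ : List Bool} {M N : Tm U}
    (hN : isQ q ℓ N = true) (hM : isQ q (true :: ℓ) M = true) :
    isQ q ℓ (subst 0 N M) = true ∧
    er q ℓ (subst 0 N M) = subst 0 (er q ℓ N) (er q (true :: ℓ) M) :=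
  subst_upper q M [] ℓ N hN hM

theorem erCtx_length (q : U → Bool) (t₀ : U) (Γ : List (Tm U)) :
    (erCtx q t₀ Γ).length = Γ.length + 1 := by
  induction Γ with
  | nil => rfl
  | cons A Γ ih => simp only [erCtx, List.length_cons, ih]

/-- The bottom declaration of the erased context is the dummy. -/
theorem erCtx_last (q : U → Bool) (t₀ : U) (Γ : List (Tm U)) :
    (erCtx q t₀ Γ)[(labels q Γ).length]? = some (sort t₀) := by
  induction Γ with
  | nil => rfl
  | cons A Γ ih =>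
    simp only [erCtx, labels, List.length_cons, List.getElem?_cons_succ]
    exact ih

end Vale.Agent.P340
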