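import Vale.Agent.P340.Trichotomy

/-!
# Two-level specifications: the erasure of a judgment of level Q is derivable in the upper part
-/

namespace Vale.Agent.P340

open Tm

universe u

variable {U : Type u}

theorem isQ_pi_pure_et {q : U → Bool} {l : List Bool} {A B : Tm U} (hA : isP q l A = true)
    (h : isQ q l (pi A B) = true) : isQ q (false :: l) B = true := by
  simp only [isQ, Bool.or_eq_true, Bool.and_eq_true] at h
  rcases h with ⟨_, h⟩ | ⟨h1, _⟩
  · exact h
  · exact (isP_isQ q A l hA h1).elim

theorem isQ_pi_upper_et {q : U → Bool} {l : List Bool} {A B : Tm U} (hA : isP q l A = false)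
    (h : isQ q l (pi A B) = true) : isQ q l A = true ∧ isQ q (true :: l) B = true := by
  simp only [isQ, Bool.or_eq_true, Bool.and_eq_true] at h
  rcases h with ⟨h1, _⟩ | h
  · rw [hA] at h1
    exact absurd h1 (by simp)
  · exact h

theorem isQ_lam_pure_et {q : U → Bool} {l : List Bool} {A B : Tm U} (hA : isP q l A = true)
    (h : isQ q l (lam A B) = true) : isQ q (false :: l) B = true := by
  simp only [isQ, Bool.or_eq_true, Bool.and_eq_true] at h
  rcases h with ⟨_, h⟩ | ⟨h1, _⟩
  · exact h
  · exact (isP_isQ q A l hA h1).elim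

theorem isQ_lam_upper_et {q : U → Bool} {l : List Bool} {A B : Tm U} (hA : isP q l A = false)
    (h : isQ q l (lam A B) = true) : isQ q l A = true ∧ isQ q (true :: l) B = true := by
  simp only [isQ, Bool.or_eq_true, Bool.and_eq_true] at h
  rcases h with ⟨h1, _⟩ | h
  · rw [hA] at h1
    exact absurd h1 (by simp)
  · exact h

theorem labels_cons_pure_et {q : U → Bool} {Γ : List (Tm U)} {A : Tm U}
    (hA : isP q (labels q Γ) A = true) : labels q (A :: Γ) = false :: labels q Γ := by
  simp [labels, hA]

theorem labels_cons_upper_et {q : U → Bool} {Γ : List (Tm U)} {A : Tm U}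
    (hA : isP q (labels q Γ) A = false) : labels q (A :: Γ) = true :: labels q Γ := by
  simp [labels, hA]

theorem erCtx_cons_pure {q : U → Bool} {t₀ : U} {Γ : List (Tm U)} {A : Tm U}
    (hA : isP q (labels q Γ) A = true) : erCtx q t₀ (A :: Γ) = sort t₀ :: erCtx q t₀ Γ := by
  simp [erCtx, hA]

theorem erCtx_cons_upper {q : U → Bool} {t₀ : U} {Γ : List (Tm U)} {A : Tm U}
    (hA : isP q (labels q Γ) A = false) :
    erCtx q t₀ (A :: Γ) = er q (labels q Γ) A :: erCtx q t₀ Γ := by
  simp [erCtx, hA]

/-- The body of a Q-shaped product is Q-shaped in the extended context. -/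
theorem isQ_pi_body {q : U → Bool} {Γ : List (Tm U)} {A B : Tm U}
    (h : isQ q (labels q Γ) (pi A B) = true) : isQ q (labels q (A :: Γ)) B = true := by
  cases hA : isP q (labels q Γ) A with
  | true => rw [labels_cons_pure_et hA]; exact isQ_pi_pure_et hA h
  | false => rw [labels_cons_upper_et hA]; exact (isQ_pi_upper_et hA h).2

theorem isQ_lam_body {q : U → Bool} {Γ : List (Tm U)} {A B : Tm U}
    (h : isQ q (labels q Γ) (lam A B) = true) : isQ q (labels q (A :: Γ)) B = true := by
  cases hA : isP q (labels q Γ) A with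
  | true => rw [labels_cons_pure_et hA]; exact isQ_lam_pure_et hA h
  | false => rw [labels_cons_upper_et hA]; exact (isQ_lam_upper_et hA h).2

theorem isQ_app_fun {q : U → Bool} {l : List Bool} {M N : Tm U}
    (h : isQ q l (app M N) = true) : isQ q l M = true := by
  simp only [isQ, Bool.and_eq_true] at h
  exact h.1

theorem isP_of_isQ_var_zero {q : U → Bool} {Γ : List (Tm U)} {A : Tm U}
    (h : isQ q (labels q (A :: Γ)) (var 0) = true) : isP q (labels q Γ) A = false := by
  simpa [isQ, labels] using h

theorem Typing.exists_ax_upper {R : Spec U} {q : U → Bool} (hR : TwoLevel R q) {Γ : List (Tm U)}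
    {M B : Tm U} (h : Typing R Γ M B) (hM : isQ q (labels q Γ) M = true) :
    ∃ a b, (R.part q true).ax a b := by
  induction h with
  | @ax s₁ s₂ hax =>
    have h1 : q s₁ = true := by simpa [isQ] using hM
    exact ⟨s₁, s₂, hax, h1, by rw [← hR.ax_lev _ _ hax]; exact h1⟩
  | @var Γ A s hA ih =>
    exact ih (hA.isQ_of_not_isP hR (isP_of_isQ_var_zero hM))
  | @weak Γ M B A s hM₀ hA ihM _ =>
    apply ihM
    have : labels q (A :: Γ) = (!isP q (labels q Γ) A) :: labels q Γ := rfl
    rw [this, isQ_lift_zero] at hM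
    exact hM
  | prod _ _ _ _ ihB => exact ihB (isQ_pi_body hM)
  | abs _ _ ihM _ => exact ihM (isQ_lam_body hM)
  | app _ _ ihM _ => exact ihM (isQ_app_fun hM)
  | conv _ _ _ ihM _ => exact ihM hM

/-- The dummy variable at the bottom of the erased context. -/
theorem typing_dummy {P : Spec U} {q : U → Bool} {t₀ : U} {Γ : List (Tm U)}
    (h : Wf P (erCtx q t₀ Γ)) :
    Typing P (erCtx q t₀ Γ) (var (labels q Γ).length) (sort t₀) := by
  have h1 := h.typing_var (erCtx_last q t₀ Γ)
  rwa [shift_sort] at h1

theorem er_pi_pure_et {q : U → Bool} {l : List Bool} {A B : Tm U} (hA : isP q l A = true) :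
    er q l (pi A B) = subst 0 (var l.length) (er q (false :: l) B) := by
  simp [er, hA]

theorem er_pi_upper_et {q : U → Bool} {l : List Bool} {A B : Tm U} (hA : isP q l A = false) :
    er q l (pi A B) = pi (er q l A) (er q (true :: l) B) := by
  simp [er, hA]

theorem er_lam_pure_et {q : U → Bool} {l : List Bool} {A B : Tm U} (hA : isP q l A = true) :
    er q l (lam A B) = subst 0 (var l.length) (er q (false :: l) B) := by
  simp [er, hA]

theorem er_lam_upper_et {q : U → Bool} {l : List Bool} {A B : Tm U} (hA : isP q l A = false) :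
    er q l (lam A B) = lam (er q l A) (er q (true :: l) B) := by
  simp [er, hA]

theorem er_app_pure_et {q : U → Bool} {l : List Bool} {M N : Tm U} (hN : isP q l N = true) :
    er q l (app M N) = er q l M := by
  simp [er, hN]

theorem er_app_upper_et {q : U → Bool} {l : List Bool} {M N : Tm U} (hN : isP q l N = false) :
    er q l (app M N) = app (er q l M) (er q l N) := by
  simp [er, hN]

/-- Convertible types of a Q-shaped subject have convertible erasures. -/
theorem Typing.er_conv {R : Spec U} {q : U → Bool} (hR : TwoLevel R q) {Γ : List (Tm U)}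
    {M A B : Tm U} {s : U} (hM₀ : Typing R Γ M A) (hB : Typing R Γ B (Tm.sort s))
    (hc : BetaEq A B) (hM : isQ q (labels q Γ) M = true) :
    BetaEq (er q (labels q Γ) A) (er q (labels q Γ) B) := by
  have hQB : isQ q (labels q Γ) B = true := (Typing.conv hM₀ hB hc).isQ_type hR hM
  obtain ⟨K, hAK, hBK⟩ := hc.common_reduct
  have h2 : Red (er q (labels q Γ) B) (er q (labels q Γ) K) := hB.er_red hR hQB hBK
  have h1 : Red (er q (labels q Γ) A) (er q (labels q Γ) K) := by
    rcases hM₀.type_QT hR hM with ⟨t, _, rfl⟩ | ⟨t, _, hA⟩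
    · rw [hAK.sort_inv]
    · exact hA.er_red hR (hM₀.isQ_type hR hM) hAK
  exact (BetaEq.of_red h1).trans (BetaEq.of_red h2).symm

/-- The erasure of a judgment with a Q-shaped subject is derivable in the upper part. -/
theorem Typing.erase {R : Spec U} {q : U → Bool} (hR : TwoLevel R q) {t₀ t₁ : U}
    (h0 : (R.part q true).ax t₀ t₁) {Γ : List (Tm U)} {M B : Tm U} (h : Typing R Γ M B)
    (hM : isQ q (labels q Γ) M = true) :
    Typing (R.part q true) (erCtx q t₀ Γ) (er q (labels q Γ) M) (er q (labels q Γ) B) := by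
  induction h with
  | @ax s₁ s₂ hax =>
    have h1 : q s₁ = true := by simpa [isQ] using hM
    have h2 : q s₂ = true := by rw [← hR.ax_lev _ _ hax]; exact h1
    exact Typing.weak (Typing.ax (P := R.part q true) ⟨hax, h1, h2⟩) (Typing.ax h0)
  | @var Γ A s hA ih =>
    have hPA : isP q (labels q Γ) A = false := isP_of_isQ_var_zero hM
    have ihA := ih (hA.isQ_of_not_isP hR hPA)
    rw [erCtx_cons_upper hPA, labels_cons_upper_et hPA, er_lift_zero]
    exact Typing.var ihA
  | @weak Γ M B A s hM₀ hA ihM ihA =>
    have hl : labels q (A :: Γ) = (!isP q (labels q Γ) A) :: labels q Γ := rfl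
    rw [hl, isQ_lift_zero] at hM
    have ihM' := ihM hM
    rw [hl, er_lift_zero, er_lift_zero]
    cases hPA : isP q (labels q Γ) A with
    | true =>
      rw [erCtx_cons_pure hPA]
      exact Typing.weak ihM' (ihM'.wf.typing_sort h0)
    | false =>
      rw [erCtx_cons_upper hPA]
      exact Typing.weak ihM' (ihA (hA.isQ_of_not_isP hR hPA))
  | @prod Γ A B s₁ s₂ s₃ hr hA hB ihA ihB =>
    have hQB : isQ q (labels q (A :: Γ)) B = true := isQ_pi_body hM
    have ihB' := ihB hQB
    have hq2 : q s₂ = true := by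
      rw [hB.sort_level hR, isP_eq_false_of_isQ hQB]; rfl
    cases hPA : isP q (labels q Γ) A with
    | true =>
      have hq1 : q s₁ = false := by rw [hA.sort_level hR, hPA]; rfl
      have h32 : s₃ = s₂ := by
        rcases hR.rule_lev _ _ _ hr with ⟨h1, _⟩ | ⟨_, _, h3⟩
        · rw [hq1, hq2] at h1
          exact absurd h1 (by simp)
        · exact h3
      rw [erCtx_cons_pure hPA, labels_cons_pure_et hPA] at ihB'
      rw [er_pi_pure_et hPA, h32]
      exact ihB'.subst_zero (typing_dummy ihB'.wf.tail)
    | false =>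
      have hq1 : q s₁ = true := by rw [hA.sort_level hR, hPA]; rfl
      have hq3 : q s₃ = true := by
        rcases hR.rule_lev _ _ _ hr with ⟨_, h2⟩ | ⟨h1, _, _⟩
        · rw [← h2]; exact hq2
        · rw [hq1] at h1
          exact absurd h1 (by simp)
      rw [erCtx_cons_upper hPA, labels_cons_upper_et hPA] at ihB'
      rw [er_pi_upper_et hPA]
      exact Typing.prod (P := R.part q true) ⟨hr, hq1, hq2, hq3⟩
        (ihA (isQ_pi_upper_et hPA hM).1) ihB'
  | @abs Γ A M B s hM₀ hpi ihM ihpi =>
    have hQM : isQ q (labels q (A :: Γ)) M = true := isQ_lam_body hM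
    have ihM' := ihM hQM
    cases hPA : isP q (labels q Γ) A with
    | true =>
      rw [erCtx_cons_pure hPA, labels_cons_pure_et hPA] at ihM'
      rw [er_lam_pure_et hPA, er_pi_pure_et hPA]
      exact ihM'.subst_zero (typing_dummy ihM'.wf.tail)
    | false =>
      have hQpi : isQ q (labels q Γ) (Tm.pi A B) = true :=
        (Typing.abs hM₀ hpi).isQ_type hR hM
      have ihpi' := ihpi hQpi
      rw [erCtx_cons_upper hPA, labels_cons_upper_et hPA] at ihM'
      rw [er_pi_upper_et hPA] at ihpi'
      rw [er_lam_upper_et hPA, er_pi_upper_et hPA]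
      exact Typing.abs ihM' ihpi'
  | @app Γ M N A B hM₀ hN ihM ihN =>
    have hQM : isQ q (labels q Γ) M = true := isQ_app_fun hM
    have ihM' := ihM hQM
    have hQpi : isQ q (labels q Γ) (Tm.pi A B) = true := hM₀.isQ_type hR hQM
    have hAN : isP q (labels q Γ) A = isP q (labels q Γ) N := hN.isP_type hR
    cases hPN : isP q (labels q Γ) N with
    | true =>
      have hPA : isP q (labels q Γ) A = true := by rw [hAN, hPN]
      rw [er_pi_pure_et hPA] at ihM'
      rw [er_app_pure_et hPN,
        (subst_pure_zero (Tm.var (labels q Γ).length) hPN (isQ_pi_pure_et hPA hQpi)).2.1]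
      exact ihM'
    | false =>
      have hPA : isP q (labels q Γ) A = false := by rw [hAN, hPN]
      have hQN : isQ q (labels q Γ) N = true := hN.isQ_of_not_isP hR hPN
      rw [er_pi_upper_et hPA] at ihM'
      rw [er_app_upper_et hPN, (subst_upper_zero hQN (isQ_pi_upper_et hPA hQpi).2).2]
      exact Typing.app ihM' (ihN hQN)
  | @conv Γ M A B s hM₀ hB hc ihM ihB =>
    have hQB : isQ q (labels q Γ) B = true := (Typing.conv hM₀ hB hc).isQ_type hR hM
    exact Typing.conv (ihM hM) (ihB hQB) (hM₀.er_conv hR hB hc hM)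

theorem Typing.legal_upper {R : Spec U} {q : U → Bool} (hR : TwoLevel R q) {Γ : List (Tm U)}
    {M B : Tm U} (h : Typing R Γ M B) (hM : isQ q (labels q Γ) M = true) :
    Legal (R.part q true) (er q (labels q Γ) M) := by
  obtain ⟨a, b, hab⟩ := h.exists_ax_upper hR hM
  exact ⟨_, _, Or.inl (h.erase hR hab hM)⟩

end Vale.Agent.P340
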