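import Vale.Agent.P340.Defs

/-!
# Two-level specifications: definitions

The sorts `U` are split by `q : U → Bool` in a lower level (`q s = false`, the level P) and an upper
level (`q s = true`, the level Q).  Relations `ax` and `rule` stay inside a level, except for the
mixed rules `(a, b, b)` with `a` of level P and `b` of level Q.

A list `ℓ : List Bool` records the level of each variable of the context
(`false`: its type is a P-type, `true`: its type is a Q-type).
-/

namespace Vale.Agent.P340

open Tm

universe u

variable {U : Type u}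

/-- The part of the specification `R` that lives on the sorts of level `b`. -/
def Spec.part (R : Spec U) (q : U → Bool) (b : Bool) : Spec U where
  ax a c := R.ax a c ∧ q a = b ∧ q c = b
  rule a c d := R.rule a c d ∧ q a = b ∧ q c = b ∧ q d = b

/-- `R` is a two-level specification for the splitting `q`. -/
structure TwoLevel (R : Spec U) (q : U → Bool) : Prop where
  ax_lev : ∀ a b, R.ax a b → q a = q b
  rule_lev : ∀ a b c, R.rule a b c →
    (q a = q b ∧ q b = q c) ∨ (q a = false ∧ q b = true ∧ c = b)

/-- Pure terms: only sorts and variables of level P occur. -/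
def isP (q : U → Bool) : List Bool → Tm U → Bool
  | ℓ, var i => !(ℓ.getD i true)
  | _, sort s => !(q s)
  | ℓ, app M N => isP q ℓ M && isP q ℓ N
  | ℓ, lam A M => isP q ℓ A && isP q (false :: ℓ) M
  | ℓ, pi A B => isP q ℓ A && isP q (false :: ℓ) B

/-- Terms with the shape of an object of level Q: the spine is of level Q, arguments and domains are
pure or again of this shape. -/
def isQ (q : U → Bool) : List Bool → Tm U → Bool
  | ℓ, var i => ℓ.getD i false
  | _, sort s => q s
  | ℓ, app M N => isQ q ℓ M && (isP q ℓ N || isQ q ℓ N)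
  | ℓ, lam A M => (isP q ℓ A && isQ q (false :: ℓ) M) || (isQ q ℓ A && isQ q (true :: ℓ) M)
  | ℓ, pi A B => (isP q ℓ A && isQ q (false :: ℓ) B) || (isQ q ℓ A && isQ q (true :: ℓ) B)

/-- The levels of the variables of a context. -/
def labels (q : U → Bool) : List (Tm U) → List Bool
  | [] => []
  | A :: Γ => (!isP q (labels q Γ) A) :: labels q Γ

/-- Erasure of the pure parts.  Pure arguments are dropped, binders with a pure domain are removed;
the bound variable is replaced by the variable `ℓ.length`, a dummy declared at the bottom of the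
erased context. -/
def er (q : U → Bool) : List Bool → Tm U → Tm U
  | _, var i => var i
  | _, sort s => sort s
  | ℓ, app M N => if isP q ℓ N then er q ℓ M else app (er q ℓ M) (er q ℓ N)
  | ℓ, lam A M =>
      if isP q ℓ A then subst 0 (var ℓ.length) (er q (false :: ℓ) M)
      else lam (er q ℓ A) (er q (true :: ℓ) M)
  | ℓ, pi A B =>
      if isP q ℓ A then subst 0 (var ℓ.length) (er q (false :: ℓ) B)
      else pi (er q ℓ A) (er q (true :: ℓ) B)

/-- Size of the skeleton of level Q (pure arguments and pure domains are not counted). -/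
def sk (q : U → Bool) : List Bool → Tm U → ℕ
  | _, var _ => 1
  | _, sort _ => 1
  | ℓ, app M N => 1 + sk q ℓ M + (if isP q ℓ N then 0 else sk q ℓ N)
  | ℓ, lam A M => if isP q ℓ A then 1 + sk q (false :: ℓ) M else 1 + sk q ℓ A + sk q (true :: ℓ) M
  | ℓ, pi A B => if isP q ℓ A then 1 + sk q (false :: ℓ) B else 1 + sk q ℓ A + sk q (true :: ℓ) B

/-- The erased context: declarations of level P become dummies of type `sort t₀`, and one more dummy
of type `sort t₀` is declared at the bottom. -/
def erCtx (q : U → Bool) (t₀ : U) : List (Tm U) → List (Tm U)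
  | [] => [sort t₀]
  | A :: Γ => (if isP q (labels q Γ) A then sort t₀ else er q (labels q Γ) A) :: erCtx q t₀ Γ

/-- The pure part of a context: declarations of level Q become dummies of type `sort s₀`. -/
def prCtx (q : U → Bool) (s₀ : U) : List (Tm U) → List (Tm U)
  | [] => []
  | A :: Γ => (if isP q (labels q Γ) A then A else sort s₀) :: prCtx q s₀ Γ

/-- Reduction steps that take place inside a pure argument or a pure domain. -/
inductive Inner (q : U → Bool) : List Bool → Tm U → Tm U → Prop
  | appL {ℓ : List Bool} {M M' : Tm U} (N : Tm U) :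
      Inner q ℓ M M' → Inner q ℓ (app M N) (app M' N)
  | appRP {ℓ : List Bool} (M : Tm U) {N N' : Tm U} :
      isP q ℓ N = true → Beta N N' → Inner q ℓ (app M N) (app M N')
  | appRQ {ℓ : List Bool} (M : Tm U) {N N' : Tm U} :
      isP q ℓ N = false → Inner q ℓ N N' → Inner q ℓ (app M N) (app M N')
  | lamDP {ℓ : List Bool} {A A' : Tm U} (M : Tm U) :
      isP q ℓ A = true → Beta A A' → Inner q ℓ (lam A M) (lam A' M)
  | lamDQ {ℓ : List Bool} {A A' : Tm U} (M : Tm U) :
      isP q ℓ A = false → Inner q ℓ A A' → Inner q ℓ (lam A M) (lam A' M)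
  | lamB {ℓ : List Bool} (A : Tm U) {M M' : Tm U} :
      Inner q ((!isP q ℓ A) :: ℓ) M M' → Inner q ℓ (lam A M) (lam A M')
  | piDP {ℓ : List Bool} {A A' : Tm U} (B : Tm U) :
      isP q ℓ A = true → Beta A A' → Inner q ℓ (pi A B) (pi A' B)
  | piDQ {ℓ : List Bool} {A A' : Tm U} (B : Tm U) :
      isP q ℓ A = false → Inner q ℓ A A' → Inner q ℓ (pi A B) (pi A' B)
  | piB {ℓ : List Bool} (A : Tm U) {B B' : Tm U} :
      Inner q ((!isP q ℓ A) :: ℓ) B B' → Inner q ℓ (pi A B) (pi A B')

/-- `B` is a type of level Q in the context `Γ`: a sort of level Q, or a term whose type is one. -/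
def QT (R : Spec U) (q : U → Bool) (Γ : List (Tm U)) (B : Tm U) : Prop :=
  (∃ t, q t = true ∧ B = sort t) ∨ ∃ t, q t = true ∧ Typing R Γ B (sort t)

/-- Strong normalization of a term, as accessibility. -/
def SNt (M : Tm U) : Prop := Acc (fun a b : Tm U => Beta b a) M

end Vale.Agent.P340
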