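import Vale.Agent.P340.Subst

/-!
# Many-step reduction and conversion: congruence, lifting, substitution, inversion
-/

namespace Vale.Agent.P340

open Tm

universe u

variable {S : Type u}

/-- Many-step beta reduction. -/
abbrev Red {S : Type u} : Tm S → Tm S → Prop := Relation.ReflTransGen Beta

theorem Beta.lift {M M' : Tm S} (h : Beta M M') : ∀ k, Beta (Tm.lift k M) (Tm.lift k M') := by
  induction h with
  | beta A M N =>
    intro k
    rw [lift_subst_ge M k 0 N (Nat.zero_le k)]
    exact Beta.beta _ _ _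
  | appL N _ ih => intro k; exact Beta.appL _ (ih k)
  | appR M _ ih => intro k; exact Beta.appR _ (ih k)
  | lamD M _ ih => intro k; exact Beta.lamD _ (ih k)
  | lamB A _ ih => intro k; exact Beta.lamB _ (ih (k + 1))
  | piD B _ ih => intro k; exact Beta.piD _ (ih k)
  | piB A _ ih => intro k; exact Beta.piB _ (ih (k + 1))

theorem Beta.subst {M M' : Tm S} (h : Beta M M') :
    ∀ (k : ℕ) (N : Tm S), Beta (Tm.subst k N M) (Tm.subst k N M') := by
  induction h with
  | beta A M P =>
    intro k N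
    rw [subst_subst M 0 k N P (Nat.zero_le k)]
    exact Beta.beta _ _ _
  | appL N _ ih => intro k N; exact Beta.appL _ (ih k N)
  | appR M _ ih => intro k N; exact Beta.appR _ (ih k N)
  | lamD M _ ih => intro k N; exact Beta.lamD _ (ih k N)
  | lamB A _ ih => intro k N; exact Beta.lamB _ (ih (k + 1) _)
  | piD B _ ih => intro k N; exact Beta.piD _ (ih k N)
  | piB A _ ih => intro k N; exact Beta.piB _ (ih (k + 1) _)

/-- A reduct of a lifted term is a lifted reduct. -/
theorem Beta.of_lift (M : Tm S) : ∀ (k : ℕ) (L : Tm S), Beta (Tm.lift k M) L →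
    ∃ M', L = Tm.lift k M' ∧ Beta M M' := by
  induction M with
  | var i =>
    intro k L h
    simp only [Tm.lift] at h
    split_ifs at h <;> cases h
  | sort s =>
    intro k L h
    cases h
  | app M N ihM ihN =>
    intro k L h
    simp only [Tm.lift] at h
    generalize hX : Tm.lift k M = X at h
    cases h with
    | beta A M0 _ =>
      cases M with
      | var i =>
        simp only [Tm.lift] at hX
        split_ifs at hX
      | sort s => simp only [Tm.lift] at hX; cases hX
      | app M1 M2 => simp only [Tm.lift] at hX; cases hX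
      | pi M1 M2 => simp only [Tm.lift] at hX; cases hX
      | lam A1 M1 =>
        simp only [Tm.lift] at hX
        injection hX with e1 e2
        subst e1 e2
        exact ⟨Tm.subst 0 N M1, (lift_subst_ge M1 k 0 N (Nat.zero_le k)).symm, Beta.beta _ _ _⟩
    | appL _ h1 =>
      subst hX
      obtain ⟨M', rfl, hM'⟩ := ihM k _ h1
      exact ⟨Tm.app M' N, rfl, Beta.appL N hM'⟩
    | appR _ h2 =>
      subst hX
      obtain ⟨N', rfl, hN'⟩ := ihN k _ h2
      exact ⟨Tm.app M N', rfl, Beta.appR M hN'⟩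
  | lam A M ihA ihM =>
    intro k L h
    simp only [Tm.lift] at h
    cases h with
    | lamD _ h1 =>
      obtain ⟨A', rfl, hA'⟩ := ihA k _ h1
      exact ⟨Tm.lam A' M, rfl, Beta.lamD M hA'⟩
    | lamB _ h2 =>
      obtain ⟨M', rfl, hM'⟩ := ihM (k + 1) _ h2
      exact ⟨Tm.lam A M', rfl, Beta.lamB A hM'⟩
  | pi A M ihA ihM =>
    intro k L h
    simp only [Tm.lift] at h
    cases h with
    | piD _ h1 =>
      obtain ⟨A', rfl, hA'⟩ := ihA k _ h1
      exact ⟨Tm.pi A' M, rfl, Beta.piD M hA'⟩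
    | piB _ h2 =>
      obtain ⟨M', rfl, hM'⟩ := ihM (k + 1) _ h2
      exact ⟨Tm.pi A M', rfl, Beta.piB A hM'⟩

/-- Many-step reduction is preserved by every map that preserves one-step reduction. -/
theorem Red.map (f : Tm S → Tm S) (hf : ∀ a b, Beta a b → Beta (f a) (f b)) {M M' : Tm S}
    (h : Red M M') : Red (f M) (f M') := by
  induction h with
  | refl => exact Relation.ReflTransGen.refl
  | tail _ hbc ih => exact ih.tail (hf _ _ hbc)

theorem Red.appL {M M' : Tm S} (N : Tm S) (h : Red M M') : Red (Tm.app M N) (Tm.app M' N) :=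
  Red.map (fun x => Tm.app x N) (fun _ _ hab => Beta.appL N hab) h

theorem Red.appR (M : Tm S) {N N' : Tm S} (h : Red N N') : Red (Tm.app M N) (Tm.app M N') :=
  Red.map (fun x => Tm.app M x) (fun _ _ hab => Beta.appR M hab) h

theorem Red.app {M M' N N' : Tm S} (h : Red M M') (h' : Red N N') :
    Red (Tm.app M N) (Tm.app M' N') :=
  (Red.appL N h).trans (Red.appR M' h')

theorem Red.lam {A A' M M' : Tm S} (h : Red A A') (h' : Red M M') :
    Red (Tm.lam A M) (Tm.lam A' M') :=
  (Red.map (fun x => Tm.lam x M) (fun _ _ hab => Beta.lamD M hab) h).trans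
    (Red.map (fun x => Tm.lam A' x) (fun _ _ hab => Beta.lamB A' hab) h')

theorem Red.pi {A A' B B' : Tm S} (h : Red A A') (h' : Red B B') :
    Red (Tm.pi A B) (Tm.pi A' B') :=
  (Red.map (fun x => Tm.pi x B) (fun _ _ hab => Beta.piD B hab) h).trans
    (Red.map (fun x => Tm.pi A' x) (fun _ _ hab => Beta.piB A' hab) h')

theorem Red.lift {M M' : Tm S} (h : Red M M') (k : ℕ) : Red (Tm.lift k M) (Tm.lift k M') :=
  Red.map (fun x => Tm.lift k x) (fun _ _ hab => Beta.lift hab k) h

theorem Red.of_lift {M L : Tm S} {k : ℕ} (h : Red (Tm.lift k M) L) :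
    ∃ M', L = Tm.lift k M' ∧ Red M M' := by
  induction h with
  | refl => exact ⟨M, rfl, Relation.ReflTransGen.refl⟩
  | tail _ hbc ih =>
    obtain ⟨M1, rfl, h1⟩ := ih
    obtain ⟨M2, rfl, h2⟩ := Beta.of_lift M1 k _ hbc
    exact ⟨M2, rfl, h1.tail h2⟩

theorem Red.subst {M M' : Tm S} (h : Red M M') (k : ℕ) (N : Tm S) :
    Red (Tm.subst k N M) (Tm.subst k N M') :=
  Red.map (fun x => Tm.subst k N x) (fun _ _ hab => Beta.subst hab k N) h

theorem Red.subst_arg (M : Tm S) : ∀ (k : ℕ) {N N' : Tm S}, Red N N' →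
    Red (Tm.subst k N M) (Tm.subst k N' M) := by
  induction M with
  | var i =>
    intro k N N' h
    simp only [Tm.subst]
    split_ifs
    · exact Relation.ReflTransGen.refl
    · exact h
    · exact Relation.ReflTransGen.refl
  | sort s => intro k N N' _; exact Relation.ReflTransGen.refl
  | app M1 M2 ih1 ih2 => intro k N N' h; exact Red.app (ih1 k h) (ih2 k h)
  | lam A M ih1 ih2 => intro k N N' h; exact Red.lam (ih1 k h) (ih2 (k + 1) (Red.lift h 0))
  | pi A M ih1 ih2 => intro k N N' h; exact Red.pi (ih1 k h) (ih2 (k + 1) (Red.lift h 0))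

theorem Red.sort_inv {s : S} {M : Tm S} (h : Red (Tm.sort s) M) : M = Tm.sort s := by
  induction h with
  | refl => rfl
  | tail _ hbc ih => subst ih; cases hbc

theorem Red.var_inv {i : ℕ} {M : Tm S} (h : Red (Tm.var i) M) : M = Tm.var i := by
  induction h with
  | refl => rfl
  | tail _ hbc ih => subst ih; cases hbc

theorem Red.pi_inv {A B M : Tm S} (h : Red (Tm.pi A B) M) :
    ∃ A' B', M = Tm.pi A' B' ∧ Red A A' ∧ Red B B' := by
  induction h with
  | refl => exact ⟨A, B, rfl, Relation.ReflTransGen.refl, Relation.ReflTransGen.refl⟩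
  | tail _ hbc ih =>
    obtain ⟨A1, B1, rfl, hA, hB⟩ := ih
    cases hbc with
    | piD _ h1 => exact ⟨_, B1, rfl, hA.tail h1, hB⟩
    | piB _ h2 => exact ⟨A1, _, rfl, hA, hB.tail h2⟩

theorem Red.lam_inv {A B M : Tm S} (h : Red (Tm.lam A B) M) :
    ∃ A' B', M = Tm.lam A' B' ∧ Red A A' ∧ Red B B' := by
  induction h with
  | refl => exact ⟨A, B, rfl, Relation.ReflTransGen.refl, Relation.ReflTransGen.refl⟩
  | tail _ hbc ih =>
    obtain ⟨A1, B1, rfl, hA, hB⟩ := ih
    cases hbc with
    | lamD _ h1 => exact ⟨_, B1, rfl, hA.tail h1, hB⟩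
    | lamB _ h2 => exact ⟨A1, _, rfl, hA, hB.tail h2⟩

theorem BetaEq.refl (M : Tm S) : BetaEq M M := Relation.EqvGen.refl M

theorem BetaEq.symm {M N : Tm S} (h : BetaEq M N) : BetaEq N M := Relation.EqvGen.symm _ _ h

theorem BetaEq.trans {M N L : Tm S} (h : BetaEq M N) (h' : BetaEq N L) : BetaEq M L :=
  Relation.EqvGen.trans _ _ _ h h'

theorem BetaEq.of_beta {M N : Tm S} (h : Beta M N) : BetaEq M N := Relation.EqvGen.rel _ _ h

theorem BetaEq.of_red {M N : Tm S} (h : Red M N) : BetaEq M N := by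
  induction h with
  | refl => exact BetaEq.refl _
  | tail _ hbc ih => exact ih.trans (BetaEq.of_beta hbc)

/-- Conversion is preserved by every map that sends one-step reduction into conversion. -/
theorem BetaEq.mapFun (f : Tm S → Tm S) (hf : ∀ a b, Beta a b → BetaEq (f a) (f b)) {M M' : Tm S}
    (h : BetaEq M M') : BetaEq (f M) (f M') := by
  induction h with
  | rel x y hxy => exact hf x y hxy
  | refl x => exact BetaEq.refl _
  | symm x y _ ih => exact ih.symm
  | trans x y z _ _ ih1 ih2 => exact ih1.trans ih2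

theorem BetaEq.app {M M' N N' : Tm S} (h : BetaEq M M') (h' : BetaEq N N') :
    BetaEq (Tm.app M N) (Tm.app M' N') :=
  (BetaEq.mapFun (fun x => Tm.app x N) (fun _ _ hab => BetaEq.of_beta (Beta.appL N hab)) h).trans
    (BetaEq.mapFun (fun x => Tm.app M' x) (fun _ _ hab => BetaEq.of_beta (Beta.appR M' hab)) h')

theorem BetaEq.lam {A A' M M' : Tm S} (h : BetaEq A A') (h' : BetaEq M M') :
    BetaEq (Tm.lam A M) (Tm.lam A' M') :=
  (BetaEq.mapFun (fun x => Tm.lam x M) (fun _ _ hab => BetaEq.of_beta (Beta.lamD M hab)) h).trans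
    (BetaEq.mapFun (fun x => Tm.lam A' x) (fun _ _ hab => BetaEq.of_beta (Beta.lamB A' hab)) h')

theorem BetaEq.pi {A A' B B' : Tm S} (h : BetaEq A A') (h' : BetaEq B B') :
    BetaEq (Tm.pi A B) (Tm.pi A' B') :=
  (BetaEq.mapFun (fun x => Tm.pi x B) (fun _ _ hab => BetaEq.of_beta (Beta.piD B hab)) h).trans
    (BetaEq.mapFun (fun x => Tm.pi A' x) (fun _ _ hab => BetaEq.of_beta (Beta.piB A' hab)) h')

theorem BetaEq.lift {M M' : Tm S} (h : BetaEq M M') (k : ℕ) :
    BetaEq (Tm.lift k M) (Tm.lift k M') :=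
  BetaEq.mapFun (fun x => Tm.lift k x) (fun _ _ hab => BetaEq.of_beta (Beta.lift hab k)) h

theorem BetaEq.subst {M M' N N' : Tm S} (h : BetaEq M M') (h' : BetaEq N N') (k : ℕ) :
    BetaEq (Tm.subst k N M) (Tm.subst k N' M') :=
  (BetaEq.mapFun (fun x => Tm.subst k N x) (fun _ _ hab => BetaEq.of_beta (Beta.subst hab k N)) h).trans
    (BetaEq.mapFun (fun x => Tm.subst k x M')
      (fun _ _ hab => BetaEq.of_red (Red.subst_arg M' k (Relation.ReflTransGen.single hab))) h')

theorem BetaEq.shift {M M' : Tm S} (h : BetaEq M M') (n : ℕ) :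
    BetaEq (Tm.shift n M) (Tm.shift n M') := by
  induction n with
  | zero => exact h
  | succ n ih => exact BetaEq.lift ih 0

end Vale.Agent.P340
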