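import Vale.Agent.P340.Level
import Vale.Agent.P340.Red

/-!
# Two-level specifications: syntactic lemmas on purity and on the Q-shape
-/

namespace Vale.Agent.P340

open Tm

universe u

variable {U : Type u}

private theorem getD_ins_lt (ℓ₁ ℓ₂ : List Bool) (b d : Bool) (i : ℕ) (h : i < ℓ₁.length) :
    (ℓ₁ ++ b :: ℓ₂).getD i d = (ℓ₁ ++ ℓ₂).getD i d := by
  rw [List.getD_append _ _ _ _ h, List.getD_append _ _ _ _ h]

private theorem getD_ins_eq (ℓ₁ ℓ₂ : List Bool) (b d : Bool) :
    (ℓ₁ ++ b :: ℓ₂).getD ℓ₁.length d = b := by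
  rw [List.getD_append_right _ _ _ _ le_rfl]
  simp

private theorem getD_ins_gt (ℓ₁ ℓ₂ : List Bool) (b d : Bool) (i : ℕ) (h : ℓ₁.length ≤ i) :
    (ℓ₁ ++ b :: ℓ₂).getD (i + 1) d = (ℓ₁ ++ ℓ₂).getD i d := by
  rw [List.getD_append_right _ _ _ _ (by omega), List.getD_append_right _ _ _ _ h]
  have : i + 1 - ℓ₁.length = (i - ℓ₁.length) + 1 := by omega
  rw [this, List.getD_cons_succ]

/-- A term is never both pure and Q-shaped. -/
theorem isP_isQ (q : U → Bool) (M : Tm U) : ∀ ℓ : List Bool,
    isP q ℓ M = true → isQ q ℓ M = true → False := by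
  induction M with
  | var i =>
    intro ℓ h1 h2
    simp only [isP, isQ] at h1 h2
    by_cases hi : i < ℓ.length
    · rw [List.getD_eq_getElem _ _ hi] at h1 h2
      rw [h2] at h1
      simp at h1
    · rw [List.getD_eq_default _ _ (by omega)] at h2
      simp at h2
  | sort s =>
    intro ℓ h1 h2
    simp only [isP, isQ] at h1 h2
    rw [h2] at h1
    simp at h1
  | app M N ihM ihN =>
    intro ℓ h1 h2
    simp only [isP, isQ, Bool.and_eq_true, Bool.or_eq_true] at h1 h2
    exact ihM ℓ h1.1 h2.1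
  | lam A M ihA ihM =>
    intro ℓ h1 h2
    simp only [isP, isQ, Bool.and_eq_true, Bool.or_eq_true] at h1 h2
    rcases h2 with h2 | h2
    · exact ihM _ h1.2 h2.2
    · exact ihA _ h1.1 h2.1
  | pi A M ihA ihM =>
    intro ℓ h1 h2
    simp only [isP, isQ, Bool.and_eq_true, Bool.or_eq_true] at h1 h2
    rcases h2 with h2 | h2
    · exact ihM _ h1.2 h2.2
    · exact ihA _ h1.1 h2.1

theorem isP_eq_false_of_isQ {q : U → Bool} {ℓ : List Bool} {M : Tm U} (h : isQ q ℓ M = true) :
    isP q ℓ M = false := by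
  cases h1 : isP q ℓ M with
  | false => rfl
  | true => exact (isP_isQ q M ℓ h1 h).elim

theorem isP_lift (q : U → Bool) (M : Tm U) : ∀ (ℓ₁ : List Bool) (b : Bool) (ℓ₂ : List Bool),
    isP q (ℓ₁ ++ b :: ℓ₂) (lift ℓ₁.length M) = isP q (ℓ₁ ++ ℓ₂) M := by
  induction M with
  | var i =>
    intro ℓ₁ b ℓ₂
    simp only [lift]
    split_ifs with h
    · simp only [isP, getD_ins_lt _ _ _ _ _ h]
    · simp only [isP, getD_ins_gt _ _ _ _ _ (not_lt.1 h)]
  | sort s => intro ℓ₁ b ℓ₂; rfl
  | app M N ihM ihN => intro ℓ₁ b ℓ₂; simp only [lift, isP, ihM, ihN]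
  | lam A M ihA ihM =>
    intro ℓ₁ b ℓ₂
    have h := ihM (false :: ℓ₁) b ℓ₂
    simp only [List.cons_append, List.length_cons] at h
    simp only [lift, isP, ihA, h]
  | pi A M ihA ihM =>
    intro ℓ₁ b ℓ₂
    have h := ihM (false :: ℓ₁) b ℓ₂
    simp only [List.cons_append, List.length_cons] at h
    simp only [lift, isP, ihA, h]

theorem isQ_lift (q : U → Bool) (M : Tm U) : ∀ (ℓ₁ : List Bool) (b : Bool) (ℓ₂ : List Bool),
    isQ q (ℓ₁ ++ b :: ℓ₂) (lift ℓ₁.length M) = isQ q (ℓ₁ ++ ℓ₂) M := by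
  induction M with
  | var i =>
    intro ℓ₁ b ℓ₂
    simp only [lift]
    split_ifs with h
    · simp only [isQ, getD_ins_lt _ _ _ _ _ h]
    · simp only [isQ, getD_ins_gt _ _ _ _ _ (not_lt.1 h)]
  | sort s => intro ℓ₁ b ℓ₂; rfl
  | app M N ihM ihN => intro ℓ₁ b ℓ₂; simp only [lift, isQ, ihM, ihN, isP_lift]
  | lam A M ihA ihM =>
    intro ℓ₁ b ℓ₂
    have h := ihM (false :: ℓ₁) b ℓ₂
    have h' := ihM (true :: ℓ₁) b ℓ₂
    simp only [List.cons_append, List.length_cons] at h h'
    simp only [lift, isQ, ihA, h, h', isP_lift]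
  | pi A M ihA ihM =>
    intro ℓ₁ b ℓ₂
    have h := ihM (false :: ℓ₁) b ℓ₂
    have h' := ihM (true :: ℓ₁) b ℓ₂
    simp only [List.cons_append, List.length_cons] at h h'
    simp only [lift, isQ, ihA, h, h', isP_lift]

theorem isP_lift_zero (q : U → Bool) (M : Tm U) (b : Bool) (ℓ : List Bool) :
    isP q (b :: ℓ) (lift 0 M) = isP q ℓ M :=
  isP_lift q M [] b ℓ

theorem isQ_lift_zero (q : U → Bool) (M : Tm U) (b : Bool) (ℓ : List Bool) :
    isQ q (b :: ℓ) (lift 0 M) = isQ q ℓ M :=
  isQ_lift q M [] b ℓ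

/-- Substituting a term of the level of the variable does not change purity. -/
theorem isP_subst (q : U → Bool) (M : Tm U) :
    ∀ (ℓ₁ : List Bool) (b : Bool) (ℓ₂ : List Bool) (N : Tm U),
      isP q (ℓ₁ ++ ℓ₂) N = !b →
      isP q (ℓ₁ ++ ℓ₂) (subst ℓ₁.length N M) = isP q (ℓ₁ ++ b :: ℓ₂) M := by
  induction M with
  | var i =>
    intro ℓ₁ b ℓ₂ N hN
    simp only [subst]
    split_ifs with h h'
    · simp only [isP, getD_ins_lt _ _ _ _ _ h]
    · subst h'
      simp only [isP, getD_ins_eq, hN]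
    · obtain ⟨j, rfl⟩ : ∃ j, i = j + 1 := ⟨i - 1, by omega⟩
      simp only [isP, Nat.add_sub_cancel, getD_ins_gt _ _ _ _ _ (show ℓ₁.length ≤ j by omega)]
  | sort s => intro ℓ₁ b ℓ₂ N hN; rfl
  | app M N ihM ihN =>
    intro ℓ₁ b ℓ₂ L hL
    simp only [subst, isP, ihM ℓ₁ b ℓ₂ L hL, ihN ℓ₁ b ℓ₂ L hL]
  | lam A M ihA ihM =>
    intro ℓ₁ b ℓ₂ L hL
    have h := ihM (false :: ℓ₁) b ℓ₂ (lift 0 L) (by
      rw [List.cons_append, isP_lift_zero]
      exact hL)
    simp only [List.cons_append, List.length_cons] at h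
    simp only [subst, isP, ihA ℓ₁ b ℓ₂ L hL, h]
  | pi A M ihA ihM =>
    intro ℓ₁ b ℓ₂ L hL
    have h := ihM (false :: ℓ₁) b ℓ₂ (lift 0 L) (by
      rw [List.cons_append, isP_lift_zero]
      exact hL)
    simp only [List.cons_append, List.length_cons] at h
    simp only [subst, isP, ihA ℓ₁ b ℓ₂ L hL, h]

theorem isP_subst_zero (q : U → Bool) (M N : Tm U) (b : Bool) (ℓ : List Bool)
    (h : isP q ℓ N = !b) : isP q ℓ (subst 0 N M) = isP q (b :: ℓ) M :=
  isP_subst q M [] b ℓ N h

/-- Purity is preserved by (untyped) reduction. -/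
theorem isP_beta {q : U → Bool} {M M' : Tm U} (h : Beta M M') : ∀ ℓ : List Bool,
    isP q ℓ M = true → isP q ℓ M' = true := by
  induction h with
  | beta A M N =>
    intro ℓ h
    simp only [isP, Bool.and_eq_true] at h
    rw [isP_subst_zero q M N false ℓ (by simpa using h.2)]
    exact h.1.2
  | appL N _ ih =>
    intro ℓ h
    simp only [isP, Bool.and_eq_true] at h ⊢
    exact ⟨ih ℓ h.1, h.2⟩
  | appR M _ ih =>
    intro ℓ h
    simp only [isP, Bool.and_eq_true] at h ⊢
    exact ⟨h.1, ih ℓ h.2⟩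
  | lamD M _ ih =>
    intro ℓ h
    simp only [isP, Bool.and_eq_true] at h ⊢
    exact ⟨ih ℓ h.1, h.2⟩
  | lamB A _ ih =>
    intro ℓ h
    simp only [isP, Bool.and_eq_true] at h ⊢
    exact ⟨h.1, ih _ h.2⟩
  | piD M _ ih =>
    intro ℓ h
    simp only [isP, Bool.and_eq_true] at h ⊢
    exact ⟨ih ℓ h.1, h.2⟩
  | piB A _ ih =>
    intro ℓ h
    simp only [isP, Bool.and_eq_true] at h ⊢
    exact ⟨h.1, ih _ h.2⟩

theorem isP_red {q : U → Bool} {M M' : Tm U} (h : Red M M') (ℓ : List Bool)
    (hM : isP q ℓ M = true) : isP q ℓ M' = true := by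
  induction h with
  | refl => exact hM
  | tail _ hb ih => exact isP_beta hb ℓ ih

theorem labels_length (q : U → Bool) (Γ : List (Tm U)) : (labels q Γ).length = Γ.length := by
  induction Γ with
  | nil => rfl
  | cons A Γ ih => simp only [labels, List.length_cons, ih]

theorem isP_shift_drop (q : U → Bool) (M : Tm U) : ∀ (n : ℕ) (Γ : List (Tm U)), n ≤ Γ.length →
    isP q (labels q Γ) (shift n M) = isP q (labels q (Γ.drop n)) M := by
  intro n
  induction n with
  | zero => intro Γ _; rfl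
  | succ n ih =>
    intro Γ hn
    cases Γ with
    | nil => simp at hn
    | cons A Γ₀ =>
      rw [List.drop_succ_cons]
      simp only [shift, labels]
      rw [isP_lift_zero]
      exact ih Γ₀ (by simpa using hn)

/-- A declared variable is pure iff its declared type is. -/
theorem isP_var (q : U → Bool) : ∀ (Γ : List (Tm U)) (i : ℕ) (A : Tm U), Γ[i]? = some A →
    isP q (labels q Γ) (var i) = isP q (labels q (Γ.drop (i + 1))) A := by
  intro Γ
  induction Γ with
  | nil => intro i A h; simp at h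
  | cons B Γ₀ ih =>
    intro i A h
    cases i with
    | zero =>
      have hBA : B = A := by simpa using h
      subst hBA
      simp [isP, labels]
    | succ i =>
      have h' : Γ₀[i]? = some A := by simpa using h
      rw [List.drop_succ_cons, ← ih i A h']
      simp [isP, labels]

theorem isQ_var (q : U → Bool) : ∀ (Γ : List (Tm U)) (i : ℕ) (A : Tm U), Γ[i]? = some A →
    isQ q (labels q Γ) (var i) = !isP q (labels q (Γ.drop (i + 1))) A := by
  intro Γ
  induction Γ with
  | nil => intro i A h; simp at h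
  | cons B Γ₀ ih =>
    intro i A h
    cases i with
    | zero =>
      have hBA : B = A := by simpa using h
      subst hBA
      simp [isQ, labels]
    | succ i =>
      have h' : Γ₀[i]? = some A := by simpa using h
      rw [List.drop_succ_cons, ← ih i A h']
      simp [isQ, labels]

/-- An inner step is a reduction step. -/
theorem Inner.beta {q : U → Bool} {ℓ : List Bool} {M M' : Tm U} (h : Inner q ℓ M M') :
    Beta M M' := by
  induction h with
  | appL N _ ih => exact Beta.appL N ih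
  | appRP M _ hb => exact Beta.appR M hb
  | appRQ M _ _ ih => exact Beta.appR M ih
  | lamDP M _ hb => exact Beta.lamD M hb
  | lamDQ M _ _ ih => exact Beta.lamD M ih
  | lamB A _ ih => exact Beta.lamB A ih
  | piDP M _ hb => exact Beta.piD M hb
  | piDQ M _ _ ih => exact Beta.piD M ih
  | piB A _ ih => exact Beta.piB A ih

/-- An inner step does not change purity. -/
theorem Inner.isP_eq {q : U → Bool} {ℓ : List Bool} {M M' : Tm U} (h : Inner q ℓ M M') :
    isP q ℓ M' = isP q ℓ M := by
  induction h with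
  | appL N _ ih => simp only [isP, ih]
  | appRP M hP hb => simp only [isP, hP, isP_beta hb _ hP]
  | appRQ M _ _ ih => simp only [isP, ih]
  | lamDP M hP hb => simp only [isP, hP, isP_beta hb _ hP]
  | lamDQ M _ _ ih => simp only [isP, ih]
  | @lamB ℓ A M M' _ ih =>
    cases hA : isP q ℓ A with
    | false => simp only [isP, hA, Bool.false_and]
    | true =>
      rw [hA] at ih
      simp only [Bool.not_true] at ih
      simp only [isP, ih]
  | piDP M hP hb => simp only [isP, hP, isP_beta hb _ hP]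
  | piDQ M _ _ ih => simp only [isP, ih]
  | @piB ℓ A M M' _ ih =>
    cases hA : isP q ℓ A with
    | false => simp only [isP, hA, Bool.false_and]
    | true =>
      rw [hA] at ih
      simp only [Bool.not_true] at ih
      simp only [isP, ih]

end Vale.Agent.P340
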