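import Vale.Agent.P340.Classify

/-!
# Two-level specifications: the judgments of level P are derivable in the lower part
-/

namespace Vale.Agent.P340

open Tm

universe u

variable {U : Type u}

theorem labels_cons_pure_pj {q : U → Bool} {Γ : List (Tm U)} {A : Tm U}
    (hA : isP q (labels q Γ) A = true) : labels q (A :: Γ) = false :: labels q Γ := by
  simp [labels, hA]

theorem prCtx_cons_pure {q : U → Bool} {s₀ : U} {Γ : List (Tm U)} {A : Tm U}
    (hA : isP q (labels q Γ) A = true) : prCtx q s₀ (A :: Γ) = A :: prCtx q s₀ Γ := by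
  simp [prCtx, hA]

theorem prCtx_cons_not_pure {q : U → Bool} {s₀ : U} {Γ : List (Tm U)} {A : Tm U}
    (hA : isP q (labels q Γ) A = false) :
    prCtx q s₀ (A :: Γ) = Tm.sort s₀ :: prCtx q s₀ Γ := by
  simp [prCtx, hA]

theorem isP_var_zero_cons {q : U → Bool} {Γ : List (Tm U)} {A : Tm U} :
    isP q (labels q (A :: Γ)) (Tm.var 0) = isP q (labels q Γ) A := by
  simp [labels, isP]

theorem Typing.exists_ax_lower {R : Spec U} {q : U → Bool} (hR : TwoLevel R q) {Γ : List (Tm U)}
    {M B : Tm U} (h : Typing R Γ M B) (hM : isP q (labels q Γ) M = true) :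
    ∃ a b, (R.part q false).ax a b := by
  induction h with
  | @ax s₁ s₂ hax =>
    have h1 : q s₁ = false := by simpa [isP] using hM
    exact ⟨s₁, s₂, hax, h1, (hR.ax_lev _ _ hax) ▸ h1⟩
  | var hA ih =>
    rw [isP_var_zero_cons] at hM
    exact ih hM
  | weak _ _ ihM _ =>
    rw [labels, isP_lift_zero] at hM
    exact ihM hM
  | prod _ _ _ ihA _ =>
    simp only [isP, Bool.and_eq_true] at hM
    exact ihA hM.1
  | abs _ _ ihM _ =>
    simp only [isP, Bool.and_eq_true] at hM
    exact ihM (by rw [labels_cons_pure_pj hM.1]; exact hM.2)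
  | app _ _ ihM _ =>
    simp only [isP, Bool.and_eq_true] at hM
    exact ihM hM.1
  | conv _ _ _ ihM _ => exact ihM hM

/-- A judgment with a pure subject is derivable in the lower part of the specification, in the
context where the declarations of level Q are replaced by dummies. -/
theorem Typing.proj_lower {R : Spec U} {q : U → Bool} (hR : TwoLevel R q) {s₀ s₁ : U}
    (h0 : (R.part q false).ax s₀ s₁) {Γ : List (Tm U)} {M B : Tm U} (h : Typing R Γ M B)
    (hM : isP q (labels q Γ) M = true) : Typing (R.part q false) (prCtx q s₀ Γ) M B := by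
  induction h with
  | @ax a b hax =>
    have h1 : q a = false := by simpa [isP] using hM
    exact Typing.ax ⟨hax, h1, (hR.ax_lev _ _ hax) ▸ h1⟩
  | var hA ih =>
    rw [isP_var_zero_cons] at hM
    rw [prCtx_cons_pure hM]
    exact Typing.var (ih hM)
  | @weak Γ M B A s _ _ ihM ihA =>
    rw [labels, isP_lift_zero] at hM
    cases hA : isP q (labels q Γ) A with
    | true =>
      rw [prCtx_cons_pure hA]
      exact Typing.weak (ihM hM) (ihA hA)
    | false =>
      rw [prCtx_cons_not_pure hA]
      exact Typing.weak (ihM hM) ((ihM hM).wf.typing_sort h0)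
  | @prod Γ A B a b c hrule hA hB ihA ihB =>
    simp only [isP, Bool.and_eq_true] at hM
    have hB' : isP q (labels q (A :: Γ)) B = true := by
      rw [labels_cons_pure_pj hM.1]; exact hM.2
    have ha : q a = false := hA.pure_sort hR hM.1
    have hb : q b = false := hB.pure_sort hR hB'
    have hc : q c = false := by
      rcases hR.rule_lev _ _ _ hrule with h | h
      · rw [← h.2, hb]
      · rw [hb] at h
        exact absurd h.2.1 (by simp)
    have h2 := ihB hB'
    rw [prCtx_cons_pure hM.1] at h2
    exact Typing.prod ⟨hrule, ha, hb, hc⟩ (ihA hM.1) h2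
  | @abs Γ A M B s hMt hpi ihM ihpi =>
    simp only [isP, Bool.and_eq_true] at hM
    have hM' : isP q (labels q (A :: Γ)) M = true := by
      rw [labels_cons_pure_pj hM.1]; exact hM.2
    have hB : isP q (labels q (A :: Γ)) B = true := by
      rw [hMt.isP_type hR]; exact hM'
    have hpi' : isP q (labels q Γ) (Tm.pi A B) = true := by
      rw [labels_cons_pure_pj hM.1] at hB
      simp only [isP, Bool.and_eq_true]
      exact ⟨hM.1, hB⟩
    have h2 := ihM hM'
    rw [prCtx_cons_pure hM.1] at h2
    exact Typing.abs h2 (ihpi hpi')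
  | app _ _ ihM ihN =>
    simp only [isP, Bool.and_eq_true] at hM
    exact Typing.app (ihM hM.1) (ihN hM.2)
  | conv hMt hB hAB ihM ihB =>
    have hB' := (Typing.conv hMt hB hAB).isP_type hR
    exact Typing.conv (ihM hM) (ihB (hB'.trans hM)) hAB

theorem Typing.legal_lower {R : Spec U} {q : U → Bool} (hR : TwoLevel R q) {Γ : List (Tm U)}
    {M B : Tm U} (h : Typing R Γ M B) (hM : isP q (labels q Γ) M = true) :
    Legal (R.part q false) M := by
  obtain ⟨a, b, hab⟩ := h.exists_ax_lower hR hM
  exact ⟨_, _, Or.inl (h.proj_lower hR hab hM)⟩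

end Vale.Agent.P340
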