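import Vale.Agent.P340.LevelSyn
import Vale.Agent.P340.SR

/-!
# Two-level specifications: the type of a pure term reduces to a pure term
-/

namespace Vale.Agent.P340

open Tm

universe u

variable {U : Type u}

/-- If `T` is convertible with a pure term, then `T` reduces to a pure term. -/
theorem pure_of_betaEq {q : U → Bool} {ℓ : List Bool} {T K : Tm U} (h : BetaEq T K)
    (hK : isP q ℓ K = true) : ∃ T', Red T T' ∧ isP q ℓ T' = true := by
  obtain ⟨L, h1, h2⟩ := BetaEq.common_reduct h
  exact ⟨L, h1, isP_red h2 ℓ hK⟩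

/-- Every type of a pure term reduces to a pure term. -/
theorem Typing.pure_type {R : Spec U} {q : U → Bool} (hR : TwoLevel R q) (C : Tm U) :
    ∀ {Γ : List (Tm U)} {T : Tm U}, Typing R Γ C T → isP q (labels q Γ) C = true →
      ∃ T', Red T T' ∧ isP q (labels q Γ) T' = true := by
  induction C with
  | var i =>
    intro Γ T h hC
    obtain ⟨A, hA, hT⟩ := Typing.gen_var h
    refine pure_of_betaEq hT ?_
    have hlen : i + 1 ≤ Γ.length := by
      have := (List.getElem?_eq_some_iff.mp hA).1
      omega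
    rw [isP_shift_drop q A (i + 1) Γ hlen, ← isP_var q Γ i A hA]
    exact hC
  | sort s =>
    intro Γ T h hC
    obtain ⟨s', hax, hT⟩ := Typing.gen_sort h
    refine pure_of_betaEq hT ?_
    have := hR.ax_lev s s' hax
    simp only [isP] at hC ⊢
    rw [← this]
    exact hC
  | app M N ihM _ =>
    intro Γ T h hC
    obtain ⟨A, B, hM, _, hT⟩ := Typing.gen_app h
    simp only [isP, Bool.and_eq_true] at hC
    obtain ⟨K, hK1, hK2⟩ := ihM hM hC.1
    obtain ⟨A', B', rfl, _, hB⟩ := Red.pi_inv hK1
    simp only [isP, Bool.and_eq_true] at hK2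
    have h1 : isP q (labels q Γ) (Tm.subst 0 N B') = true := by
      rw [isP_subst_zero q B' N false (labels q Γ) (by simpa using hC.2)]
      exact hK2.2
    exact pure_of_betaEq (hT.trans (BetaEq.of_red (Red.subst hB 0 N))) h1
  | lam A M _ ihM =>
    intro Γ T h hC
    obtain ⟨B, s, hM, _, hT⟩ := Typing.gen_lam h
    simp only [isP, Bool.and_eq_true] at hC
    have hl : labels q (A :: Γ) = false :: labels q Γ := by simp [labels, hC.1]
    obtain ⟨B', hB1, hB2⟩ := ihM hM (by rw [hl]; exact hC.2)
    rw [hl] at hB2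
    have h1 : isP q (labels q Γ) (Tm.pi A B') = true := by
      simp only [isP, Bool.and_eq_true]
      exact ⟨hC.1, hB2⟩
    exact pure_of_betaEq (hT.trans (BetaEq.of_red (Red.pi Relation.ReflTransGen.refl hB1))) h1
  | pi A B ihA ihB =>
    intro Γ T h hC
    obtain ⟨s₁, s₂, s₃, hr, hA, hB, hT⟩ := Typing.gen_pi h
    simp only [isP, Bool.and_eq_true] at hC
    have hl : labels q (A :: Γ) = false :: labels q Γ := by simp [labels, hC.1]
    obtain ⟨K₁, hK1, hK1'⟩ := ihA hA hC.1
    obtain ⟨K₂, hK2, hK2'⟩ := ihB hB (by rw [hl]; exact hC.2)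
    rw [Red.sort_inv hK1] at hK1'
    rw [Red.sort_inv hK2] at hK2'
    simp only [isP, Bool.not_eq_true'] at hK1' hK2'
    refine pure_of_betaEq hT ?_
    simp only [isP, Bool.not_eq_true']
    rcases hR.rule_lev s₁ s₂ s₃ hr with ⟨_, h2⟩ | ⟨_, h2, _⟩
    · rw [← h2]; exact hK2'
    · rw [hK2'] at h2; cases h2

/-- A sort that is the type of a pure term is of level P. -/
theorem Typing.pure_sort {R : Spec U} {q : U → Bool} (hR : TwoLevel R q) {Γ : List (Tm U)}
    {C : Tm U} {s : U} (h : Typing R Γ C (Tm.sort s)) (hC : isP q (labels q Γ) C = true) :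
    q s = false := by
  obtain ⟨K, hK, hK'⟩ := Typing.pure_type hR C h hC
  rw [Red.sort_inv hK] at hK'
  simpa [isP] using hK'

end Vale.Agent.P340
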