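import Vale.Agent.P340.Stratified

/-!
# Stratified sums of a family of specifications
-/

namespace Vale.Agent.P340

open Tm

universe u w

variable {I : Type w} {S : I → Type u}

/-- The stratified sum of the family `P i` of specifications: the sorts are the disjoint union of
the sorts of the `P i`; `ax` and the rules of each `P i` are kept; moreover the rules `(a, b, b)`
are added for all sorts `a`, `b` with `X a b` such that the index of `a` is strictly below the
index of `b`. -/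
def Spec.sigma [PartialOrder I] (P : ∀ i, Spec (S i)) (X : (Σ i, S i) → (Σ i, S i) → Prop) :
    Spec (Σ i, S i) where
  ax a b := ∃ (i : I) (x y : S i), a = ⟨i, x⟩ ∧ b = ⟨i, y⟩ ∧ (P i).ax x y
  rule a b c :=
    (∃ (i : I) (x y z : S i), a = ⟨i, x⟩ ∧ b = ⟨i, y⟩ ∧ c = ⟨i, z⟩ ∧ (P i).rule x y z) ∨
      (a.1 < b.1 ∧ X a b ∧ c = b)

theorem Spec.sigma_stratified [PartialOrder I] (P : ∀ i, Spec (S i))
    (X : (Σ i, S i) → (Σ i, S i) → Prop) : Stratified (Spec.sigma P X) Sigma.fst := by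
  constructor
  · rintro a b ⟨i, x, y, rfl, rfl, _⟩
    rfl
  · rintro a b c (⟨i, x, y, z, rfl, rfl, rfl, _⟩ | ⟨h1, _, h3⟩)
    · exact Or.inl ⟨rfl, rfl⟩
    · exact Or.inr ⟨h1, h3⟩

theorem Spec.sigma_legal_inj [PartialOrder I] (P : ∀ i, Spec (S i))
    (X : (Σ i, S i) → (Σ i, S i) → Prop) (i : I) {M : Tm (S i)} (h : Legal (P i) M) :
    Legal (Spec.sigma P X) (Tm.map (Sigma.mk i) M) :=
  Legal.map (P := P i) (P' := Spec.sigma P X) (Sigma.mk i)
    (fun a b hab => ⟨i, a, b, rfl, rfl, hab⟩)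
    (fun a b c habc => Or.inl ⟨i, a, b, c, rfl, rfl, rfl, habc⟩) h

theorem Spec.sigma_sn_component [PartialOrder I] (P : ∀ i, Spec (S i))
    (X : (Σ i, S i) → (Σ i, S i) → Prop) (h : SN (Spec.sigma P X)) (i : I) : SN (P i) :=
  fun _ hM hinf => h _ (Spec.sigma_legal_inj P X i hM) (hinf.map _)

theorem Spec.sigma_wn_component [PartialOrder I] (P : ∀ i, Spec (S i))
    (X : (Σ i, S i) → (Σ i, S i) → Prop) (h : WN (Spec.sigma P X)) (i : I) : WN (P i) :=
  fun _ hM => HasNF.of_map (Sigma.mk i) (h _ (Spec.sigma_legal_inj P X i hM))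

theorem Spec.sigma_sn_level [PartialOrder I] (P : ∀ i, Spec (S i))
    (X : (Σ i, S i) → (Σ i, S i) → Prop) (i : I) (h : SN (P i)) :
    SN ((Spec.sigma P X).level Sigma.fst i) := by
  classical
  by_cases hne : Nonempty (S i)
  · obtain ⟨d⟩ := hne
    let g : (Σ j, S j) → S i := fun a => if hj : a.1 = i then hj ▸ a.2 else d
    have hg : ∀ x : S i, g ⟨i, x⟩ = x := fun x => by simp [g]
    intro M hM hinf
    refine h (Tm.map g M) (Legal.map (P := (Spec.sigma P X).level Sigma.fst i) (P' := P i) g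
      ?_ ?_ hM) (hinf.map g)
    · rintro a b ⟨⟨j, x, y, rfl, rfl, hxy⟩, hj, _⟩
      obtain rfl : j = i := hj
      rw [hg, hg]
      exact hxy
    · rintro a b c ⟨⟨j, x, y, z, rfl, rfl, rfl, hxyz⟩ | ⟨hlt, _, _⟩, hj, hj', _⟩
      · obtain rfl : j = i := hj
        rw [hg, hg, hg]
        exact hxyz
      · rw [hj, hj'] at hlt
        exact absurd hlt (lt_irrefl _)
  · refine SN.of_no_ax ?_
    rintro a b ⟨⟨j, x, y, rfl, rfl, _⟩, hj, _⟩
    obtain rfl : j = i := hj
    exact hne ⟨x⟩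

/-- Strong normalization of a stratified sum is equivalent to that of all the components. -/
theorem Spec.sigma_sn_iff [PartialOrder I] (P : ∀ i, Spec (S i))
    (X : (Σ i, S i) → (Σ i, S i) → Prop) : SN (Spec.sigma P X) ↔ ∀ i, SN (P i) :=
  ⟨Spec.sigma_sn_component P X,
    fun h => (Spec.sigma_stratified P X).sn fun i => Spec.sigma_sn_level P X i (h i)⟩

/-- The Barendregt-Geuvers-Klop implication passes from the components to a stratified sum. -/
theorem Spec.sigma_bgk [PartialOrder I] (P : ∀ i, Spec (S i))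
    (X : (Σ i, S i) → (Σ i, S i) → Prop) (h : ∀ i, WN (P i) → SN (P i))
    (hW : WN (Spec.sigma P X)) : SN (Spec.sigma P X) :=
  (Spec.sigma_sn_iff P X).2 fun i => h i (Spec.sigma_wn_component P X hW i)

end Vale.Agent.P340
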