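import Vale.Agent.P340.Defs

/-!
# De Bruijn calculus: commutation of `lift` and `subst`

Convention (see `Defs.lean`): in `subst k N M` the term `N` already lives in the context of the
result (it has been lifted over the `k` innermost variables).
-/

namespace Vale.Agent.P340

open Tm

universe u

variable {S : Type u}

namespace Tm

/-- `shift n M` adds `n` to every free index of `M`. -/
def shift : ℕ → Tm S → Tm S
  | 0, M => M
  | n + 1, M => lift 0 (shift n M)

end Tm

theorem lift_lift (M : Tm S) : ∀ i k : ℕ, i ≤ k → lift i (lift k M) = lift (k + 1) (lift i M) := by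
  induction M with
  | var j =>
    intro i k h
    simp only [lift]
    split_ifs <;> simp only [lift] <;> split_ifs <;> first | rfl | omega
  | sort s => intro i k h; rfl
  | app M N ihM ihN => intro i k h; simp only [lift, ihM i k h, ihN i k h]
  | lam A M ihA ihM =>
    intro i k h
    simp only [lift, ihA i k h, ihM (i + 1) (k + 1) (by omega)]
  | pi A M ihA ihM =>
    intro i k h
    simp only [lift, ihA i k h, ihM (i + 1) (k + 1) (by omega)]

theorem subst_lift (M : Tm S) : ∀ (k : ℕ) (N : Tm S), subst k N (lift k M) = M := by
  induction M with
  | var j =>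
    intro k N
    simp only [lift]
    split_ifs <;> simp only [subst] <;> split_ifs <;> first | rfl | omega
  | sort s => intro k N; rfl
  | app M N ihM ihN => intro k L; simp only [lift, subst, ihM, ihN]
  | lam A M ihA ihM => intro k L; simp only [lift, subst, ihA, ihM]
  | pi A M ihA ihM => intro k L; simp only [lift, subst, ihA, ihM]

theorem lift_subst_le (M : Tm S) : ∀ (i k : ℕ) (N : Tm S), i ≤ k →
    lift i (subst k N M) = subst (k + 1) (lift i N) (lift i M) := by
  induction M with
  | var j =>
    intro i k N h
    simp only [lift, subst]
    split_ifs <;> simp only [lift, subst] <;> split_ifs <;>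
      first | rfl | omega | (congr 1; omega)
  | sort s => intro i k N h; rfl
  | app M N ihM ihN => intro i k L h; simp only [lift, subst, ihM i k L h, ihN i k L h]
  | lam A M ihA ihM =>
    intro i k L h
    simp only [lift, subst, ihA i k L h, ihM (i + 1) (k + 1) (lift 0 L) (by omega),
      lift_lift L 0 i (Nat.zero_le _)]
  | pi A M ihA ihM =>
    intro i k L h
    simp only [lift, subst, ihA i k L h, ihM (i + 1) (k + 1) (lift 0 L) (by omega),
      lift_lift L 0 i (Nat.zero_le _)]

theorem lift_subst_ge (M : Tm S) : ∀ (i k : ℕ) (N : Tm S), k ≤ i →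
    lift i (subst k N M) = subst k (lift i N) (lift (i + 1) M) := by
  induction M with
  | var j =>
    intro i k N h
    simp only [lift, subst]
    split_ifs <;> simp only [lift, subst] <;> split_ifs <;>
      first | rfl | omega | (congr 1; omega)
  | sort s => intro i k N h; rfl
  | app M N ihM ihN => intro i k L h; simp only [lift, subst, ihM i k L h, ihN i k L h]
  | lam A M ihA ihM =>
    intro i k L h
    simp only [lift, subst, ihA i k L h, ihM (i + 1) (k + 1) (lift 0 L) (by omega),
      lift_lift L 0 i (Nat.zero_le _)]
  | pi A M ihA ihM =>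
    intro i k L h
    simp only [lift, subst, ihA i k L h, ihM (i + 1) (k + 1) (lift 0 L) (by omega),
      lift_lift L 0 i (Nat.zero_le _)]

theorem subst_subst (M : Tm S) : ∀ (i k : ℕ) (N L : Tm S), i ≤ k →
    subst k N (subst i L M) = subst i (subst k N L) (subst (k + 1) (lift i N) M) := by
  induction M with
  | var j =>
    intro i k N L h
    simp only [subst]
    split_ifs <;> (try simp only [subst]) <;> (try split_ifs) <;>
      first | rfl | omega | (rw [subst_lift])
  | sort s => intro i k N L h; rfl
  | app M N ihM ihN => intro i k K L h; simp only [subst, ihM i k K L h, ihN i k K L h]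
  | lam A M ihA ihM =>
    intro i k K L h
    simp only [subst, ihA i k K L h, ihM (i + 1) (k + 1) (lift 0 K) (lift 0 L) (by omega),
      lift_lift K 0 i (Nat.zero_le _), lift_subst_le L 0 k K (Nat.zero_le _)]
  | pi A M ihA ihM =>
    intro i k K L h
    simp only [subst, ihA i k K L h, ihM (i + 1) (k + 1) (lift 0 K) (lift 0 L) (by omega),
      lift_lift K 0 i (Nat.zero_le _), lift_subst_le L 0 k K (Nat.zero_le _)]

theorem shift_var (n i : ℕ) : shift n (var i : Tm S) = var (i + n) := by
  induction n with
  | zero => rfl
  | succ n ih => simp only [shift, ih, lift]; rfl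

theorem shift_sort (n : ℕ) (s : S) : shift n (sort s : Tm S) = sort s := by
  induction n with
  | zero => rfl
  | succ n ih => simp only [shift, ih, lift]

theorem lift_shift (M : Tm S) (n k : ℕ) (h : k ≤ n) : lift k (shift n M) = shift (n + 1) M := by
  induction n generalizing k with
  | zero =>
    obtain rfl : k = 0 := by omega
    rfl
  | succ n ih =>
    rcases Nat.eq_zero_or_pos k with rfl | hk
    · rfl
    · obtain ⟨k', rfl⟩ : ∃ k', k = k' + 1 := ⟨k - 1, by omega⟩
      have h1 : lift (k' + 1) (shift (n + 1) M) = lift 0 (lift k' (shift n M)) := by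
        simp only [shift]
        rw [lift_lift _ 0 k' (Nat.zero_le _)]
      rw [h1, ih k' (by omega)]
      rfl

theorem lift_injective (k : ℕ) : Function.Injective (lift k : Tm S → Tm S) := by
  intro M M' h
  have := congrArg (subst k (var 0)) h
  rwa [subst_lift, subst_lift] at this

end Vale.Agent.P340
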