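import Vale.Agent.P340.Stratified

/-!
# The sum of two specifications with mixed product rules
-/

namespace Vale.Agent.P340

open Tm

universe u v

variable {S : Type u} {T : Type v}

/-- The specification on the disjoint union of the sorts of `P` and `Q` that keeps `ax` and the
rules of `P` and of `Q` and adds the rules `(s, t, t)` for the sorts `s` of `P` and `t` of `Q` with
`X s t`.  For `X` empty this is the disjoint sum of `P` and `Q`; for `X` full it is the
specification of Roux and van Doorn in which `Q` quantifies over `P`. -/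
def Spec.mix (P : Spec S) (Q : Spec T) (X : S → T → Prop) : Spec (S ⊕ T) where
  ax
    | Sum.inl a, Sum.inl b => P.ax a b
    | Sum.inr a, Sum.inr b => Q.ax a b
    | _, _ => False
  rule
    | Sum.inl a, Sum.inl b, Sum.inl c => P.rule a b c
    | Sum.inr a, Sum.inr b, Sum.inr c => Q.rule a b c
    | Sum.inl a, Sum.inr b, Sum.inr c => X a b ∧ c = b
    | _, _, _ => False

theorem Spec.mix_twoLevel (P : Spec S) (Q : Spec T) (X : S → T → Prop) :
    TwoLevel (Spec.mix P Q X) Sum.isRight := by
  constructor
  · rintro (a | a) (b | b) h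
    · rfl
    · exact h.elim
    · exact h.elim
    · rfl
  · rintro (a | a) (b | b) (c | c) h
    · exact Or.inl ⟨rfl, rfl⟩
    · exact h.elim
    · exact h.elim
    · exact Or.inr ⟨rfl, rfl, by rw [h.2]⟩
    · exact h.elim
    · exact h.elim
    · exact h.elim
    · exact Or.inl ⟨rfl, rfl⟩

theorem Spec.mix_legal_inl (P : Spec S) (Q : Spec T) (X : S → T → Prop) {M : Tm S}
    (h : Legal P M) : Legal (Spec.mix P Q X) (Tm.map Sum.inl M) :=
  Legal.map (P := P) (P' := Spec.mix P Q X) Sum.inl (fun _ _ hab => hab) (fun _ _ _ hab => hab) h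

theorem Spec.mix_legal_inr (P : Spec S) (Q : Spec T) (X : S → T → Prop) {M : Tm T}
    (h : Legal Q M) : Legal (Spec.mix P Q X) (Tm.map Sum.inr M) :=
  Legal.map (P := Q) (P' := Spec.mix P Q X) Sum.inr (fun _ _ hab => hab) (fun _ _ _ hab => hab) h

theorem Spec.mix_sn_lower (P : Spec S) (Q : Spec T) (X : S → T → Prop) (h : SN P) :
    SN ((Spec.mix P Q X).part Sum.isRight false) := by
  by_cases hne : Nonempty S
  · obtain ⟨d⟩ := hne
    let g : S ⊕ T → S := fun a => Sum.elim id (fun _ => d) a
    intro M hM hinf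
    refine h (Tm.map g M) (Legal.map (P := (Spec.mix P Q X).part Sum.isRight false) (P' := P) g
      ?_ ?_ hM) (hinf.map g)
    · rintro (a | a) (b | b) ⟨h1, h2, h3⟩
      · exact h1
      · exact h1.elim
      · exact h1.elim
      · simp at h2
    · rintro (a | a) (b | b) (c | c) ⟨h1, h2, h3, h4⟩
      · exact h1
      · exact h1.elim
      · exact h1.elim
      · simp at h3
      · exact h1.elim
      · exact h1.elim
      · exact h1.elim
      · simp at h2
  · refine SN.of_no_ax ?_
    rintro (a | a) (b | b) ⟨h1, h2, h3⟩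
    · exact hne ⟨a⟩
    · exact h1.elim
    · exact h1.elim
    · simp at h2

theorem Spec.mix_sn_upper (P : Spec S) (Q : Spec T) (X : S → T → Prop) (h : SN Q) :
    SN ((Spec.mix P Q X).part Sum.isRight true) := by
  by_cases hne : Nonempty T
  · obtain ⟨d⟩ := hne
    let g : S ⊕ T → T := fun a => Sum.elim (fun _ => d) id a
    intro M hM hinf
    refine h (Tm.map g M) (Legal.map (P := (Spec.mix P Q X).part Sum.isRight true) (P' := Q) g
      ?_ ?_ hM) (hinf.map g)
    · rintro (a | a) (b | b) ⟨h1, h2, h3⟩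
      · simp at h2
      · exact h1.elim
      · exact h1.elim
      · exact h1
    · rintro (a | a) (b | b) (c | c) ⟨h1, h2, h3, h4⟩
      · simp at h2
      · exact h1.elim
      · exact h1.elim
      · simp at h2
      · exact h1.elim
      · exact h1.elim
      · exact h1.elim
      · exact h1
  · refine SN.of_no_ax ?_
    rintro (a | a) (b | b) ⟨h1, h2, h3⟩
    · simp at h2
    · exact h1.elim
    · exact h1.elim
    · exact hne ⟨a⟩

/-- Strong normalization of the mixed sum is equivalent to that of the two components. -/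
theorem Spec.mix_sn_iff (P : Spec S) (Q : Spec T) (X : S → T → Prop) :
    SN (Spec.mix P Q X) ↔ SN P ∧ SN Q := by
  constructor
  · intro h
    exact ⟨fun _ hM hinf => h _ (Spec.mix_legal_inl P Q X hM) (hinf.map _),
      fun _ hM hinf => h _ (Spec.mix_legal_inr P Q X hM) (hinf.map _)⟩
  · rintro ⟨hP, hQ⟩
    exact (Spec.mix_twoLevel P Q X).sn (Spec.mix_sn_lower P Q X hP) (Spec.mix_sn_upper P Q X hQ)

theorem Spec.mix_wn (P : Spec S) (Q : Spec T) (X : S → T → Prop) (h : WN (Spec.mix P Q X)) :
    WN P ∧ WN Q :=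
  ⟨fun _ hM => HasNF.of_map Sum.inl (h _ (Spec.mix_legal_inl P Q X hM)),
    fun _ hM => HasNF.of_map Sum.inr (h _ (Spec.mix_legal_inr P Q X hM))⟩

/-- The Barendregt-Geuvers-Klop implication passes from `P` and `Q` to the mixed sum. -/
theorem Spec.mix_bgk (P : Spec S) (Q : Spec T) (X : S → T → Prop) (hP : WN P → SN P)
    (hQ : WN Q → SN Q) (hW : WN (Spec.mix P Q X)) : SN (Spec.mix P Q X) :=
  (Spec.mix_sn_iff P Q X).2 ⟨hP (Spec.mix_wn P Q X hW).1, hQ (Spec.mix_wn P Q X hW).2⟩

end Vale.Agent.P340
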