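import Vale.Agent.P340.Red

/-!
# Well-formed contexts and the thinning (weakening) lemma
-/

namespace Vale.Agent.P340

open Tm

universe u

variable {S : Type u}

/-- Well-formed contexts. -/
inductive Wf (P : Spec S) : List (Tm S) → Prop
  | nil : Wf P []
  | cons {Γ : List (Tm S)} {A : Tm S} {s : S} : Typing P Γ A (Tm.sort s) → Wf P (A :: Γ)

/-- `InsCtx P A k Γ Γ'`: the context `Γ'` is `Γ` with the declaration `A` inserted after the `k`
innermost declarations (which are lifted accordingly); `A` is a type in the remaining context. -/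
inductive InsCtx (P : Spec S) (A : Tm S) : ℕ → List (Tm S) → List (Tm S) → Prop
  | zero {Γ : List (Tm S)} {s : S} : Typing P Γ A (Tm.sort s) → InsCtx P A 0 Γ (A :: Γ)
  | succ {k : ℕ} {Γ Γ' : List (Tm S)} {B : Tm S} :
      InsCtx P A k Γ Γ' → InsCtx P A (k + 1) (B :: Γ) (Tm.lift k B :: Γ')

theorem Typing.wf {P : Spec S} {Γ : List (Tm S)} {M B : Tm S} (h : Typing P Γ M B) : Wf P Γ := by
  induction h with
  | ax _ => exact Wf.nil
  | var hA _ => exact Wf.cons hA
  | weak _ hA _ _ => exact Wf.cons hA
  | prod _ _ _ ihA _ => exact ihA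
  | abs _ _ _ ihpi => exact ihpi
  | app _ _ ihM _ => exact ihM
  | conv _ _ _ ihM _ => exact ihM

/-- Thinning: a declaration may be inserted anywhere in the context. -/
theorem Typing.thin {P : Spec S} {Γ : List (Tm S)} {M B : Tm S} (h : Typing P Γ M B) :
    ∀ {A : Tm S} {k : ℕ} {Γ' : List (Tm S)}, InsCtx P A k Γ Γ' →
      Typing P Γ' (Tm.lift k M) (Tm.lift k B) := by
  induction h with
  | ax hax =>
    intro A k Γ' hins
    cases hins with
    | zero hA => exact Typing.weak (Typing.ax hax) hA
  | @var Γ₀ A₀ s hA₀ ih =>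
    intro A k Γ' hins
    cases hins with
    | zero hA => exact Typing.weak (Typing.var hA₀) hA
    | @succ k' _ Γ'' _ hins' =>
      rw [← lift_lift A₀ 0 k' (Nat.zero_le _)]
      exact Typing.var (ih hins')
  | @weak Γ₀ M B A₀ s hM hA₀ ihM ihA =>
    intro A k Γ' hins
    cases hins with
    | zero hA => exact Typing.weak (Typing.weak hM hA₀) hA
    | @succ k' _ Γ'' _ hins' =>
      rw [← lift_lift M 0 k' (Nat.zero_le _), ← lift_lift B 0 k' (Nat.zero_le _)]
      exact Typing.weak (ihM hins') (ihA hins')
  | prod hrule _ _ ihA ihB =>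
    intro A k Γ' hins
    exact Typing.prod hrule (ihA hins) (ihB (InsCtx.succ hins))
  | abs _ _ ihM ihpi =>
    intro A k Γ' hins
    exact Typing.abs (ihM (InsCtx.succ hins)) (ihpi hins)
  | @app Γ₀ M N A₀ B _ _ ihM ihN =>
    intro A k Γ' hins
    rw [lift_subst_ge B k 0 N (Nat.zero_le _)]
    exact Typing.app (ihM hins) (ihN hins)
  | conv _ _ hc ihM ihB =>
    intro A k Γ' hins
    exact Typing.conv (ihM hins) (ihB hins) (BetaEq.lift hc k)

/-- The tail of a well-formed context is well-formed. -/
theorem Wf.tail {P : Spec S} {Γ : List (Tm S)} {A : Tm S} (h : Wf P (A :: Γ)) : Wf P Γ := by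
  cases h with
  | cons hA => exact hA.wf

/-- Every tail of a well-formed context is well-formed. -/
theorem Wf.drop {P : Spec S} {Γ : List (Tm S)} (h : Wf P Γ) (n : ℕ) : Wf P (Γ.drop n) := by
  induction n generalizing Γ with
  | zero => simpa using h
  | succ n ih =>
    cases Γ with
    | nil => simpa using Wf.nil
    | cons A Γ₀ =>
      rw [List.drop_succ_cons]
      exact ih h.tail

/-- Sorts related by `ax` are typable in every well-formed context. -/
theorem Wf.typing_sort {P : Spec S} {Γ : List (Tm S)} (h : Wf P Γ) {s₁ s₂ : S}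
    (hax : P.ax s₁ s₂) : Typing P Γ (Tm.sort s₁) (Tm.sort s₂) := by
  induction Γ with
  | nil => exact Typing.ax hax
  | cons A Γ₀ ih =>
    cases h with
    | cons hA => exact Typing.weak (ih hA.wf) hA

/-- Weakening by all the declarations of a prefix. -/
theorem Typing.shift_drop {P : Spec S} {Γ : List (Tm S)} (h : Wf P Γ) {n : ℕ} (hn : n ≤ Γ.length)
    {M B : Tm S} (hM : Typing P (Γ.drop n) M B) : Typing P Γ (Tm.shift n M) (Tm.shift n B) := by
  induction n generalizing Γ with
  | zero => simpa [Tm.shift] using hM
  | succ n ih =>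
    cases Γ with
    | nil => simp at hn
    | cons A Γ₀ =>
      rw [List.drop_succ_cons] at hM
      cases h with
      | cons hA =>
        exact Typing.weak (ih hA.wf (by simpa using hn) hM) hA

/-- Each declared type is a type in the rest of the context. -/
theorem Wf.typing_get {P : Spec S} {Γ : List (Tm S)} (h : Wf P Γ) {i : ℕ} {A : Tm S}
    (hi : Γ[i]? = some A) : ∃ s, Typing P (Γ.drop (i + 1)) A (Tm.sort s) := by
  induction i generalizing Γ with
  | zero =>
    cases Γ with
    | nil => simp at hi
    | cons B Γ₀ =>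
      cases h with
      | cons hB =>
        have hBA : B = A := by simpa using hi
        subst hBA
        exact ⟨_, by simpa using hB⟩
  | succ i ih =>
    cases Γ with
    | nil => simp at hi
    | cons B Γ₀ =>
      rw [List.drop_succ_cons]
      exact ih h.tail (by simpa using hi)

/-- The variable rule for an arbitrary index. -/
theorem Wf.typing_var {P : Spec S} {Γ : List (Tm S)} (h : Wf P Γ) {i : ℕ} {A : Tm S}
    (hi : Γ[i]? = some A) : Typing P Γ (Tm.var i) (Tm.shift (i + 1) A) := by
  induction i generalizing Γ with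
  | zero =>
    cases Γ with
    | nil => simp at hi
    | cons B Γ₀ =>
      cases h with
      | cons hB =>
        have hBA : B = A := by simpa using hi
        subst hBA
        exact Typing.var hB
  | succ i ih =>
    cases Γ with
    | nil => simp at hi
    | cons B Γ₀ =>
      cases h with
      | cons hB =>
        have h1 := Typing.weak (ih hB.wf (by simpa using hi)) hB
        have h2 : Tm.lift 0 (Tm.var i : Tm S) = Tm.var (i + 1) := by simp [Tm.lift]
        rw [h2] at h1
        exact h1

end Vale.Agent.P340
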