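import Vale.Agent.P340.Classify
import Vale.Agent.P340.ErSyn

/-!
# Two-level specifications: how the erasure sees a reduction step
-/

namespace Vale.Agent.P340

open Tm

universe u

variable {U : Type u}

section helpers

variable {q : U → Bool} {l : List Bool} {A M N : Tm U}

theorem er_app_pure (h : isP q l N = true) : er q l (app M N) = er q l M := by
  simp [er, h]

theorem er_app_upper (h : isP q l N = false) :
    er q l (app M N) = app (er q l M) (er q l N) := by
  simp [er, h]

theorem er_lam_pure (h : isP q l A = true) :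
    er q l (lam A M) = subst 0 (var l.length) (er q (false :: l) M) := by
  simp [er, h]

theorem er_lam_upper (h : isP q l A = false) :
    er q l (lam A M) = lam (er q l A) (er q (true :: l) M) := by
  simp [er, h]

theorem er_pi_pure (h : isP q l A = true) :
    er q l (pi A M) = subst 0 (var l.length) (er q (false :: l) M) := by
  simp [er, h]

theorem er_pi_upper (h : isP q l A = false) :
    er q l (pi A M) = pi (er q l A) (er q (true :: l) M) := by
  simp [er, h]

theorem sk_app_pure (h : isP q l N = true) : sk q l (app M N) = 1 + sk q l M := by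
  simp [sk, h]

theorem sk_app_upper (h : isP q l N = false) :
    sk q l (app M N) = 1 + sk q l M + sk q l N := by
  simp [sk, h]

theorem sk_lam_pure (h : isP q l A = true) :
    sk q l (lam A M) = 1 + sk q (false :: l) M := by
  simp [sk, h]

theorem sk_lam_upper (h : isP q l A = false) :
    sk q l (lam A M) = 1 + sk q l A + sk q (true :: l) M := by
  simp [sk, h]

theorem sk_pi_pure (h : isP q l A = true) :
    sk q l (pi A M) = 1 + sk q (false :: l) M := by
  simp [sk, h]

theorem sk_pi_upper (h : isP q l A = false) :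
    sk q l (pi A M) = 1 + sk q l A + sk q (true :: l) M := by
  simp [sk, h]

theorem isQ_app_inv (h : isQ q l (app M N) = true) :
    isQ q l M = true ∧ (isP q l N = true ∨ isQ q l N = true) := by
  simpa [isQ] using h

theorem isQ_lam_pure (hA : isP q l A = true) (h : isQ q l (lam A M) = true) :
    isQ q (false :: l) M = true := by
  simp only [isQ, Bool.or_eq_true, Bool.and_eq_true] at h
  rcases h with h | h
  · exact h.2
  · exact (isP_isQ q A l hA h.1).elim

theorem isQ_lam_upper (hA : isP q l A = false) (h : isQ q l (lam A M) = true) :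
    isQ q l A = true ∧ isQ q (true :: l) M = true := by
  simp only [isQ, Bool.or_eq_true, Bool.and_eq_true] at h
  rcases h with h | h
  · rw [hA] at h
    exact absurd h.1 (by simp)
  · exact h

theorem isQ_pi_pure (hA : isP q l A = true) (h : isQ q l (pi A M) = true) :
    isQ q (false :: l) M = true := by
  simp only [isQ, Bool.or_eq_true, Bool.and_eq_true] at h
  rcases h with h | h
  · exact h.2
  · exact (isP_isQ q A l hA h.1).elim

theorem isQ_pi_upper (hA : isP q l A = false) (h : isQ q l (pi A M) = true) :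
    isQ q l A = true ∧ isQ q (true :: l) M = true := by
  simp only [isQ, Bool.or_eq_true, Bool.and_eq_true] at h
  rcases h with h | h
  · rw [hA] at h
    exact absurd h.1 (by simp)
  · exact h

theorem labels_cons_pure {Γ : List (Tm U)} (h : isP q (labels q Γ) A = true) :
    labels q (A :: Γ) = false :: labels q Γ := by
  simp [labels, h]

theorem labels_cons_upper {Γ : List (Tm U)} (h : isP q (labels q Γ) A = false) :
    labels q (A :: Γ) = true :: labels q Γ := by
  simp [labels, h]

end helpers

theorem trichotomy_aux {R : Spec U} {q : U → Bool} (hR : TwoLevel R q) {M M' : Tm U}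
    (hb : Beta M M') : ∀ {Γ : List (Tm U)} {T : Tm U}, Typing R Γ M T →
      isQ q (labels q Γ) M = true →
      Beta (er q (labels q Γ) M) (er q (labels q Γ) M') ∨
      (er q (labels q Γ) M' = er q (labels q Γ) M ∧ sk q (labels q Γ) M' < sk q (labels q Γ) M) ∨
      (er q (labels q Γ) M' = er q (labels q Γ) M ∧ sk q (labels q Γ) M' = sk q (labels q Γ) M ∧
        Inner q (labels q Γ) M M') := by
  induction hb with
  | beta A M N =>
    intro Γ T hT hQ
    have hNA : Typing R Γ N A := hT.redex_arg
    have hPeq : isP q (labels q Γ) A = isP q (labels q Γ) N := hNA.isP_type hR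
    obtain ⟨hQl, _⟩ := isQ_app_inv hQ
    cases hPN : isP q (labels q Γ) N with
    | true =>
      have hPA : isP q (labels q Γ) A = true := hPeq.trans hPN
      have hQM := isQ_lam_pure hPA hQl
      obtain ⟨_, h2, h3⟩ := subst_pure_zero (var (labels q Γ).length) hPN hQM
      right; left
      refine ⟨?_, ?_⟩
      · rw [h2, er_app_pure hPN, er_lam_pure hPA]
      · rw [h3, sk_app_pure hPN, sk_lam_pure hPA]
        omega
    | false =>
      have hPA : isP q (labels q Γ) A = false := hPeq.trans hPN
      obtain ⟨_, hQM⟩ := isQ_lam_upper hPA hQl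
      have hQN : isQ q (labels q Γ) N = true := hNA.isQ_of_not_isP hR hPN
      obtain ⟨_, h2⟩ := subst_upper_zero hQN hQM
      left
      rw [h2, er_app_upper hPN, er_lam_upper hPA]
      exact Beta.beta _ _ _
  | @appL M M' N h ih =>
    intro Γ T hT hQ
    obtain ⟨A, B, hM, _, _⟩ := hT.gen_app
    obtain ⟨hQM, _⟩ := isQ_app_inv hQ
    have IH := ih hM hQM
    cases hPN : isP q (labels q Γ) N with
    | true =>
      rw [er_app_pure hPN, er_app_pure hPN, sk_app_pure hPN, sk_app_pure hPN]
      rcases IH with h1 | ⟨h1, h2⟩ | ⟨h1, h2, h3⟩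
      · exact Or.inl h1
      · exact Or.inr (Or.inl ⟨h1, by omega⟩)
      · exact Or.inr (Or.inr ⟨h1, by omega, Inner.appL N h3⟩)
    | false =>
      rw [er_app_upper hPN, er_app_upper hPN, sk_app_upper hPN, sk_app_upper hPN]
      rcases IH with h1 | ⟨h1, h2⟩ | ⟨h1, h2, h3⟩
      · exact Or.inl (Beta.appL _ h1)
      · exact Or.inr (Or.inl ⟨by rw [h1], by omega⟩)
      · exact Or.inr (Or.inr ⟨by rw [h1], by omega, Inner.appL N h3⟩)
  | @appR M N N' h ih =>
    intro Γ T hT hQ
    obtain ⟨A, B, _, hN, _⟩ := hT.gen_app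
    cases hPN : isP q (labels q Γ) N with
    | true =>
      have hPN' : isP q (labels q Γ) N' = true := isP_beta h _ hPN
      rw [er_app_pure hPN, er_app_pure hPN', sk_app_pure hPN, sk_app_pure hPN']
      exact Or.inr (Or.inr ⟨rfl, rfl, Inner.appRP M hPN h⟩)
    | false =>
      have hQN : isQ q (labels q Γ) N = true := hN.isQ_of_not_isP hR hPN
      have hQN' : isQ q (labels q Γ) N' = true :=
        hN.isQ_red hR hQN (Relation.ReflTransGen.single h)
      have hPN' : isP q (labels q Γ) N' = false := isP_eq_false_of_isQ hQN'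
      have IH := ih hN hQN
      rw [er_app_upper hPN, er_app_upper hPN', sk_app_upper hPN, sk_app_upper hPN']
      rcases IH with h1 | ⟨h1, h2⟩ | ⟨h1, h2, h3⟩
      · exact Or.inl (Beta.appR _ h1)
      · exact Or.inr (Or.inl ⟨by rw [h1], by omega⟩)
      · exact Or.inr (Or.inr ⟨by rw [h1], by omega, Inner.appRQ M hPN h3⟩)
  | @lamD A A' M h ih =>
    intro Γ T hT hQ
    obtain ⟨B, s, _, hpi, _⟩ := hT.gen_lam
    obtain ⟨s₁, s₂, s₃, _, hA, _, _⟩ := hpi.gen_pi
    cases hPA : isP q (labels q Γ) A with
    | true =>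
      have hPA' : isP q (labels q Γ) A' = true := isP_beta h _ hPA
      rw [er_lam_pure hPA, er_lam_pure hPA', sk_lam_pure hPA, sk_lam_pure hPA']
      exact Or.inr (Or.inr ⟨rfl, rfl, Inner.lamDP M hPA h⟩)
    | false =>
      have hQA : isQ q (labels q Γ) A = true := hA.isQ_of_not_isP hR hPA
      have hQA' : isQ q (labels q Γ) A' = true :=
        hA.isQ_red hR hQA (Relation.ReflTransGen.single h)
      have hPA' : isP q (labels q Γ) A' = false := isP_eq_false_of_isQ hQA'
      have IH := ih hA hQA
      rw [er_lam_upper hPA, er_lam_upper hPA', sk_lam_upper hPA, sk_lam_upper hPA']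
      rcases IH with h1 | ⟨h1, h2⟩ | ⟨h1, h2, h3⟩
      · exact Or.inl (Beta.lamD _ h1)
      · exact Or.inr (Or.inl ⟨by rw [h1], by omega⟩)
      · exact Or.inr (Or.inr ⟨by rw [h1], by omega, Inner.lamDQ M hPA h3⟩)
  | @lamB A M M' h ih =>
    intro Γ T hT hQ
    obtain ⟨B, s, hM, _, _⟩ := hT.gen_lam
    cases hPA : isP q (labels q Γ) A with
    | true =>
      have hQM := isQ_lam_pure hPA hQ
      have hlab := labels_cons_pure (q := q) (A := A) (Γ := Γ) hPA
      have IH := ih hM (by rw [hlab]; exact hQM)
      rw [hlab] at IH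
      rw [er_lam_pure hPA, er_lam_pure hPA, sk_lam_pure hPA, sk_lam_pure hPA]
      rcases IH with h1 | ⟨h1, h2⟩ | ⟨h1, h2, h3⟩
      · exact Or.inl (h1.subst _ _)
      · exact Or.inr (Or.inl ⟨by rw [h1], by omega⟩)
      · exact Or.inr (Or.inr ⟨by rw [h1], by omega, Inner.lamB A (by rw [hPA]; exact h3)⟩)
    | false =>
      obtain ⟨_, hQM⟩ := isQ_lam_upper hPA hQ
      have hlab := labels_cons_upper (q := q) (A := A) (Γ := Γ) hPA
      have IH := ih hM (by rw [hlab]; exact hQM)
      rw [hlab] at IH
      rw [er_lam_upper hPA, er_lam_upper hPA, sk_lam_upper hPA, sk_lam_upper hPA]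
      rcases IH with h1 | ⟨h1, h2⟩ | ⟨h1, h2, h3⟩
      · exact Or.inl (Beta.lamB _ h1)
      · exact Or.inr (Or.inl ⟨by rw [h1], by omega⟩)
      · exact Or.inr (Or.inr ⟨by rw [h1], by omega, Inner.lamB A (by rw [hPA]; exact h3)⟩)
  | @piD A A' M h ih =>
    intro Γ T hT hQ
    obtain ⟨s₁, s₂, s₃, _, hA, _, _⟩ := hT.gen_pi
    cases hPA : isP q (labels q Γ) A with
    | true =>
      have hPA' : isP q (labels q Γ) A' = true := isP_beta h _ hPA
      rw [er_pi_pure hPA, er_pi_pure hPA', sk_pi_pure hPA, sk_pi_pure hPA']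
      exact Or.inr (Or.inr ⟨rfl, rfl, Inner.piDP M hPA h⟩)
    | false =>
      have hQA : isQ q (labels q Γ) A = true := hA.isQ_of_not_isP hR hPA
      have hQA' : isQ q (labels q Γ) A' = true :=
        hA.isQ_red hR hQA (Relation.ReflTransGen.single h)
      have hPA' : isP q (labels q Γ) A' = false := isP_eq_false_of_isQ hQA'
      have IH := ih hA hQA
      rw [er_pi_upper hPA, er_pi_upper hPA', sk_pi_upper hPA, sk_pi_upper hPA']
      rcases IH with h1 | ⟨h1, h2⟩ | ⟨h1, h2, h3⟩
      · exact Or.inl (Beta.piD _ h1)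
      · exact Or.inr (Or.inl ⟨by rw [h1], by omega⟩)
      · exact Or.inr (Or.inr ⟨by rw [h1], by omega, Inner.piDQ M hPA h3⟩)
  | @piB A M M' h ih =>
    intro Γ T hT hQ
    obtain ⟨s₁, s₂, s₃, _, _, hM, _⟩ := hT.gen_pi
    cases hPA : isP q (labels q Γ) A with
    | true =>
      have hQM := isQ_pi_pure hPA hQ
      have hlab := labels_cons_pure (q := q) (A := A) (Γ := Γ) hPA
      have IH := ih hM (by rw [hlab]; exact hQM)
      rw [hlab] at IH
      rw [er_pi_pure hPA, er_pi_pure hPA, sk_pi_pure hPA, sk_pi_pure hPA]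
      rcases IH with h1 | ⟨h1, h2⟩ | ⟨h1, h2, h3⟩
      · exact Or.inl (h1.subst _ _)
      · exact Or.inr (Or.inl ⟨by rw [h1], by omega⟩)
      · exact Or.inr (Or.inr ⟨by rw [h1], by omega, Inner.piB A (by rw [hPA]; exact h3)⟩)
    | false =>
      obtain ⟨_, hQM⟩ := isQ_pi_upper hPA hQ
      have hlab := labels_cons_upper (q := q) (A := A) (Γ := Γ) hPA
      have IH := ih hM (by rw [hlab]; exact hQM)
      rw [hlab] at IH
      rw [er_pi_upper hPA, er_pi_upper hPA, sk_pi_upper hPA, sk_pi_upper hPA]
      rcases IH with h1 | ⟨h1, h2⟩ | ⟨h1, h2, h3⟩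
      · exact Or.inl (Beta.piB _ h1)
      · exact Or.inr (Or.inl ⟨by rw [h1], by omega⟩)
      · exact Or.inr (Or.inr ⟨by rw [h1], by omega, Inner.piB A (by rw [hPA]; exact h3)⟩)

/-- A reduction step of a typable Q-shaped term is seen by the erasure as a step, or it keeps the
erasure and makes the skeleton smaller, or it keeps both and is an inner step. -/
theorem Typing.trichotomy {R : Spec U} {q : U → Bool} (hR : TwoLevel R q) {M M' : Tm U}
    (hb : Beta M M') : ∀ {Γ : List (Tm U)} {T : Tm U}, Typing R Γ M T →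
      isQ q (labels q Γ) M = true →
      Beta (er q (labels q Γ) M) (er q (labels q Γ) M') ∨
      (er q (labels q Γ) M' = er q (labels q Γ) M ∧ sk q (labels q Γ) M' < sk q (labels q Γ) M) ∨
      (er q (labels q Γ) M' = er q (labels q Γ) M ∧ sk q (labels q Γ) M' = sk q (labels q Γ) M ∧
        Inner q (labels q Γ) M M') :=
  trichotomy_aux hR hb

/-- The erasure is monotone for reduction on typable Q-shaped terms. -/
theorem Typing.er_red {R : Spec U} {q : U → Bool} (hR : TwoLevel R q) {Γ : List (Tm U)}
    {M M' T : Tm U} (h : Typing R Γ M T) (hM : isQ q (labels q Γ) M = true) (hr : Red M M') :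
    Red (er q (labels q Γ) M) (er q (labels q Γ) M') := by
  induction hr with
  | refl => exact Relation.ReflTransGen.refl
  | @tail K K' hMK hstep ih =>
    have hK : Typing R Γ K T := h.red hMK
    have hQK : isQ q (labels q Γ) K = true := h.isQ_red hR hM hMK
    rcases trichotomy_aux hR hstep hK hQK with h1 | ⟨h1, _⟩ | ⟨h1, _, _⟩
    · exact ih.tail h1
    · rw [h1]
      exact ih
    · rw [h1]
      exact ih

end Vale.Agent.P340
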