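import Vale.Agent.P340.ProjP
import Vale.Agent.P340.ErTyping
import Vale.Agent.P340.AccInner
import Vale.Agent.P340.AccSeq

/-!
# Two-level specifications: strong normalization of the two parts gives strong normalization
-/

namespace Vale.Agent.P340

open Tm

universe u

variable {U : Type u}

theorem SNt_of_isP {R : Spec U} {q : U → Bool} (hR : TwoLevel R q) (hP : SN (R.part q false))
    (Γ : List (Tm U)) (M T : Tm U) (h : Typing R Γ M T) (hM : isP q (labels q Γ) M = true) :
    SNt M :=
  (SNt_iff_not_hasInfRed M).2 (hP M (h.legal_lower hR hM))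

/-- The lexicographic induction. -/
theorem SNt_of_isQ_aux {R : Spec U} {q : U → Bool} (hR : TwoLevel R q) (hP : SN (R.part q false))
    (Γ : List (Tm U)) (T : Tm U) (E : Tm U) (hE : SNt E) :
    ∀ (n : ℕ) (M : Tm U), Acc (fun a b : Tm U => Inner q (labels q Γ) b a) M →
      Typing R Γ M T → isQ q (labels q Γ) M = true → er q (labels q Γ) M = E →
      sk q (labels q Γ) M = n → SNt M := by
  induction hE with
  | intro E _ ihE =>
    intro n
    induction n using Nat.strong_induction_on with
    | _ n ihn =>
      intro M hacc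
      induction hacc with
      | intro M _ ihM =>
        intro hty hQ her hsk
        refine Acc.intro M ?_
        intro M' hstep
        have hty' : Typing R Γ M' T := hty.beta hstep
        have hQ' : isQ q (labels q Γ) M' = true :=
          hty.isQ_red hR hQ (Relation.ReflTransGen.single hstep)
        have hacc' : Acc (fun a b : Tm U => Inner q (labels q Γ) b a) M' :=
          acc_inner (SNt_of_isP hR hP) M' hty'
        rcases hty.trichotomy hR hstep hQ with h1 | ⟨h1, h2⟩ | ⟨h1, h2, h3⟩
        · exact ihE (er q (labels q Γ) M') (by rw [← her]; exact h1) _ M' hacc' hty' hQ' rfl rfl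
        · exact ihn (sk q (labels q Γ) M') (by rw [← hsk]; exact h2) M' hacc' hty' hQ'
            (by rw [h1, her]) rfl
        · exact ihM M' h3 hty' hQ' (by rw [h1, her]) (by rw [h2, hsk])

theorem SNt_of_isQ {R : Spec U} {q : U → Bool} (hR : TwoLevel R q) (hP : SN (R.part q false))
    (hQ : SN (R.part q true)) (Γ : List (Tm U)) (M T : Tm U) (h : Typing R Γ M T)
    (hM : isQ q (labels q Γ) M = true) : SNt M :=
  SNt_of_isQ_aux hR hP Γ T _ ((SNt_iff_not_hasInfRed _).2 (hQ _ (h.legal_upper hR hM))) _ M
    (acc_inner (SNt_of_isP hR hP) M h) h hM rfl rfl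

theorem SNt_of_typing {R : Spec U} {q : U → Bool} (hR : TwoLevel R q) (hP : SN (R.part q false))
    (hQ : SN (R.part q true)) {Γ : List (Tm U)} {M T : Tm U} (h : Typing R Γ M T) : SNt M := by
  rcases h.classify hR with ⟨h1, _⟩ | ⟨h1, _⟩
  · exact SNt_of_isP hR hP Γ M T h h1
  · exact SNt_of_isQ hR hP hQ Γ M T h h1

/-- A two-level specification is strongly normalizing as soon as its two parts are. -/
theorem TwoLevel.sn {R : Spec U} {q : U → Bool} (hR : TwoLevel R q) (hP : SN (R.part q false))
    (hQ : SN (R.part q true)) : SN R := by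
  intro M hM
  rw [← SNt_iff_not_hasInfRed]
  obtain ⟨Γ, T, h | h⟩ := hM
  · exact SNt_of_typing hR hP hQ h
  · rcases h.type_correct with ⟨s, rfl⟩ | ⟨s, hs⟩
    · exact Acc.intro _ (by intro y hy; cases hy)
    · exact SNt_of_typing hR hP hQ hs

end Vale.Agent.P340
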